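import Vale.Agent.P240.R2.H401.DDefs
import Vale.Agent.P240.R2.H687.Gal

/-!
`StmtDSem` (the homomorphism for the even orthogonal groups with nonsquare discriminant) from
helper145's `StmtEO` and the facts `StmtDF`.
-/

set_option autoImplicit false
set_option linter.all false

namespace Vale.Agent.P240.R2.H651.DS

open Matrix Vale.Agent.P240.R2.AS Vale.Agent.P240.R2.H38 Vale.Agent.P240.K
open Vale.Agent.P240.R2.H145.EO
open Vale.Agent.P240.R2.H401.D
open scoped Classical

universe u v w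

noncomputable section

/-- an element fixed by an automorphism of order two of a finite field is a square -/
lemma fixed_sq {K : Type u} [Field K] [Fintype K] (hodd : Odd (Nat.card K)) (σ : K ≃+* K)
    (h2 : ∀ x, σ (σ x) = x) (hne : σ ≠ RingEquiv.refl K) {f : K} (hf : σ f = f) : IsSquare f := by
  by_cases hf0 : f = 0
  · exact ⟨0, by rw [hf0, mul_zero]⟩
  letI : StarRing K := starRingOfComm
  have hs : ∀ x : K, star x = x := fun x => rfl
  let τ : SA K := ⟨σ, fun a => rfl⟩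
  have hτ2 : τ ^ 2 = 1 := by
    apply Subtype.ext
    show σ * σ = 1
    ext x
    exact h2 x
  have hτ1 : τ ≠ 1 := fun h => hne (congrArg Subtype.val h)
  have ho : orderOf τ = 2 := orderOf_eq_prime hτ2 hτ1
  obtain ⟨h1, k, hk⟩ := H687.card_fix τ Nat.prime_two ho
  set Q := Nat.card (H687.FT τ) with hQ
  have hfk : ∀ k : ℕ, (τ ^ k).1 f = f := by
    intro k
    induction k with
    | zero => rfl
    | succ k ih =>
      rw [pow_succ]
      show (τ ^ k).1 (σ f) = f
      rw [hf, ih]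
  have h3 : f ^ Q = f := by rw [← hk, hfk]
  have hQpos : 1 ≤ Q := by
    rcases Nat.eq_zero_or_pos Q with h | h
    · rw [h] at h1
      rw [h1] at hodd
      simp at hodd
    · exact h
  have h4 : f ^ (Q - 1) = 1 := by
    have h5 : f ^ (Q - 1) * f = 1 * f := by rw [← pow_succ, Nat.sub_add_cancel hQpos, h3, one_mul]
    exact mul_right_cancel₀ hf0 h5
  have hQodd : Odd Q := by
    rw [h1] at hodd
    exact Nat.Odd.of_mul_left (by rwa [pow_two] at hodd)
  obtain ⟨r, hr⟩ := hQodd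
  have h6 : Fintype.card K / 2 = (Q - 1) * (r + 1) := by
    rw [← Nat.card_eq_fintype_card, h1, hr]
    have : (2 * r + 1) ^ 2 = 2 * ((2 * r + 1 - 1) * (r + 1)) + 1 := by
      rw [Nat.add_sub_cancel]; ring
    rw [this]
    omega
  have hchar : ringChar K ≠ 2 := by
    intro h
    have := FiniteField.even_card_iff_char_two.1 h
    rw [← Nat.card_eq_fintype_card] at this
    rcases hodd with ⟨s, hs⟩
    omega
  rw [FiniteField.isSquare_iff hchar hf0, h6, pow_mul, h4, one_pow]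

/-- no field automorphism of order two: the norm argument -/
lemma sq_of_norm {K : Type u} [Field K] [Fintype K] (hodd : Odd (Nat.card K)) (σ : K ≃+* K)
    (h2 : ∀ x, σ (σ x) = x) (hne : σ ≠ RingEquiv.refl K) {c d : K} (hd : d ≠ 0)
    (hc : c ^ 2 * d = σ d) (hN : c * σ c = 1) : IsSquare d := by
  obtain ⟨b, hb, hbc⟩ : ∃ b : K, b ≠ 0 ∧ σ b = c * b := by
    by_cases h1 : 1 + σ c = 0
    · have h3 : σ c = -1 := by linear_combination h1
      have h4 : c = -1 := by
        rw [← h2 c, h3, map_neg, map_one]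
      obtain ⟨θ, hθ⟩ : ∃ θ, σ θ ≠ θ := by
        by_contra hcon
        push Not at hcon
        exact hne (RingEquiv.ext hcon)
      refine ⟨θ - σ θ, fun h => hθ (by linear_combination -h), ?_⟩
      rw [map_sub, h2, h4]
      ring
    · refine ⟨1 + σ c, h1, ?_⟩
      rw [map_add, map_one, h2]
      linear_combination -hN
  have h5 : σ (d / b ^ 2) = d / b ^ 2 := by
    have hc0 : c ≠ 0 := fun h => by rw [h, zero_mul] at hN; exact zero_ne_one hN
    rw [map_div₀, map_pow, hbc, ← hc]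
    field_simp
  obtain ⟨r, hr⟩ := fixed_sq hodd σ h2 hne h5
  refine ⟨r * b, ?_⟩
  have h6 : d = d / b ^ 2 * b ^ 2 := by field_simp
  rw [h6, hr]
  ring

section
variable {K : Type u} [Field K] {n : ℕ}

/-- an invertible diagonal matrix -/
def dg (c : Fin n → K) (hc : ∀ i, c i ≠ 0) : GL (Fin n) K :=
  ⟨diagonal c, diagonal (fun i => (c i)⁻¹), by
    rw [diagonal_mul_diagonal, ← diagonal_one]
    congr 1
    funext i
    exact mul_inv_cancel₀ (hc i), by
    rw [diagonal_mul_diagonal, ← diagonal_one]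
    congr 1
    funext i
    exact inv_mul_cancel₀ (hc i)⟩

/-- the semilinear conjugation -/
def tw (σ : K ≃+* K) (c : Fin n → K) (hc : ∀ i, c i ≠ 0) : GL (Fin n) K →* GL (Fin n) K :=
  (MulAut.conj (dg c hc)).toMonoidHom.comp (GeneralLinearGroup.map σ.toRingHom)

lemma tw_apply (σ : K ≃+* K) (c : Fin n → K) (hc : ∀ i, c i ≠ 0) (g : GL (Fin n) K)
    (i j : Fin n) : (tw σ c hc g).1 i j = c i * σ (g.1 i j) * (c j)⁻¹ := by
  have h : (tw σ c hc g).1 = diagonal c * (g.1.map σ) * diagonal (fun i => (c i)⁻¹) := rfl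
  rw [h, mul_diagonal, diagonal_mul, Matrix.map_apply]

lemma ac_tw (σ : K ≃+* K) (c : Fin n → K) (hc : ∀ i, c i ≠ 0) (g : GL (Fin n) K)
    (y : Fin n → K) : ac (tw σ c hc g) (fun i => c i * σ (y i)) = fun i => c i * σ (ac g y i) := by
  funext i
  show ∑ j, (tw σ c hc g).1 i j * (c j * σ (y j)) = c i * σ (∑ j, g.1 i j * y j)
  rw [map_sum, Finset.mul_sum]
  refine Finset.sum_congr rfl fun j _ => ?_
  rw [tw_apply, map_mul]
  have := hc j
  field_simp

lemma tw_mem {a : Fin n → K} (σ : K ≃+* K) (c : Fin n → K) (hc : ∀ i, c i ≠ 0)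
    (hca : ∀ i, c i ^ 2 * a i = σ (a i)) {g : GL (Fin n) K} (hg : g ∈ OD a) :
    tw σ c hc g ∈ OD a := by
  have hB : ∀ x y : Fin n → K, B a (fun i => c i * σ (x i)) (fun i => c i * σ (y i)) =
      σ (B a x y) := by
    intro x y
    unfold B
    rw [map_sum]
    refine Finset.sum_congr rfl fun i _ => ?_
    rw [map_mul, map_mul, ← hca]
    ring
  have hsur : ∀ x : Fin n → K, ∃ x' : Fin n → K, x = fun i => c i * σ (x' i) := by
    intro x
    refine ⟨fun i => σ.symm ((c i)⁻¹ * x i), ?_⟩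
    funext i
    rw [RingEquiv.apply_symm_apply, mul_inv_cancel_left₀ (hc i)]
  intro x y
  obtain ⟨x', rfl⟩ := hsur x
  obtain ⟨y', rfl⟩ := hsur y
  rw [ac_tw, ac_tw, hB, hB, OD_B hg]

/-- the elements of `OD a` given by elements of `SD a` -/
def toO {a : Fin n → K} (s : SD a) : ↥(OD a) := ⟨s.1, by
  obtain ⟨h, _, hh⟩ := s.2
  rw [← hh]
  exact h.2⟩

lemma toO_mem {a : Fin n → K} (s : SD a) : toO s ∈ SD0 a := by
  obtain ⟨h, h1, hh⟩ := s.2
  have : toO s = h := Subtype.ext hh.symm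
  rw [this]
  exact h1

lemma mem_SD' {a : Fin n → K} (h : ↥(OD a)) : h.1 ∈ SD a ↔ h ∈ SD0 a := by
  constructor
  · rintro ⟨h', h1, hh⟩
    have : h = h' := Subtype.ext hh.symm
    rw [this]
    exact h1
  · intro h1
    exact ⟨h, h1, rfl⟩

/-- `SD a` is stable under the automorphisms of `OD a` that preserve the center -/
lemma SD_aut {a : Fin n → K} (T : ↥(OD a) →* ↥(OD a))
    (hT : Subgroup.center ↥(OD a) ≤ (Subgroup.center ↥(OD a)).comap T) {h : ↥(OD a)}
    (hh : h ∈ SD0 a) : T h ∈ SD0 a := by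
  let Tb : POD a →* POD a := QuotientGroup.map _ _ T hT
  have h1 : (QuotientGroup.mk' (Subgroup.center ↥(OD a)) h) ∈ commutator (POD a) := hh
  have h2 : (commutator (POD a)).map Tb ≤ commutator (POD a) := by
    rw [commutator_def, Subgroup.map_commutator]
    exact Subgroup.commutator_mono le_top le_top
  have h3 : Tb (QuotientGroup.mk' (Subgroup.center ↥(OD a)) h) ∈ commutator (POD a) :=
    h2 ⟨_, h1, rfl⟩
  exact h3

/-- the center consists of the scalars -/
lemma center_iff {a : Fin n → K} (hsc : ∀ u ∈ OD a, (∀ k ∈ SD a, ∃ l : K, u.1 * k.1 = l • (k.1 * u.1)) →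
      ∃ l : K, u.1 = l • (1 : Matrix (Fin n) (Fin n) K)) (g : ↥(OD a)) :
    g ∈ Subgroup.center ↥(OD a) ↔ ∃ l : K, g.1.1 = l • (1 : Matrix (Fin n) (Fin n) K) := by
  constructor
  · intro h
    refine hsc g.1 g.2 fun k hk => ⟨1, ?_⟩
    rw [one_smul]
    obtain ⟨k', _, rfl⟩ := hk
    have h1 := Subgroup.mem_center_iff.1 h k'
    exact (congrArg (fun z : ↥(OD a) => z.1.1) h1).symm
  · rintro ⟨l, hl⟩
    rw [Subgroup.mem_center_iff]
    intro k
    apply Subtype.ext
    apply Units.ext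
    show k.1.1 * g.1.1 = g.1.1 * k.1.1
    rw [hl, mul_smul_comm, smul_mul_assoc, mul_one, one_mul]

/-- the twisted automorphism preserves `SD a` -/
lemma tw_SD {a : Fin n → K} (hsc : ∀ u ∈ OD a, (∀ k ∈ SD a, ∃ l : K, u.1 * k.1 = l • (k.1 * u.1)) →
      ∃ l : K, u.1 = l • (1 : Matrix (Fin n) (Fin n) K)) (σ : K ≃+* K) (c : Fin n → K)
    (hc : ∀ i, c i ≠ 0) (hca : ∀ i, c i ^ 2 * a i = σ (a i)) (s : SD a) :
    tw σ c hc s.1 ∈ SD a := by
  let T : ↥(OD a) →* ↥(OD a) := ((tw σ c hc).comp (OD a).subtype).codRestrict (OD a)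
    (fun g => tw_mem σ c hc hca g.2)
  have hTv : ∀ g, (T g).1 = tw σ c hc g.1 := fun g => rfl
  have hT : Subgroup.center ↥(OD a) ≤ (Subgroup.center ↥(OD a)).comap T := by
    intro g hg
    rw [Subgroup.mem_comap]
    rw [center_iff hsc] at hg ⊢
    obtain ⟨l, hl⟩ := hg
    refine ⟨σ l, ?_⟩
    ext i j
    rw [hTv, tw_apply, hl, Matrix.smul_apply, Matrix.smul_apply]
    by_cases hij : i = j
    · subst hij
      rw [one_apply_eq, smul_eq_mul, mul_one, smul_eq_mul, mul_one]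
      have := hc i
      field_simp
    · rw [one_apply_ne hij, smul_zero, map_zero, mul_zero, zero_mul, smul_zero]
  have h1 := SD_aut T hT (toO_mem s)
  have h2 := (mem_SD' (T (toO s))).2 h1
  exact h2

variable {G : Type v} [Group G]

/-- the homomorphism -/
lemma exists_hom {a : Fin n → K} (hsc : ∀ u ∈ OD a, (∀ k ∈ SD a, ∃ l : K, u.1 * k.1 = l • (k.1 * u.1)) →
      ∃ l : K, u.1 = l • (1 : Matrix (Fin n) (Fin n) K)) (L : Subgroup G)
    (e : commutator (POD a) ≃* L) : ∃ ε : SD a →* G, ε.range = L ∧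
    (∀ g : SD a, ε g = 1 ↔ ∃ l : K, g.1.1 = l • (1 : Matrix (Fin n) (Fin n) K)) ∧
    ∀ g : SD a, ε g = (e ⟨QuotientGroup.mk' _ (toO g), toO_mem g⟩ : G) := by
  let ε : SD a →* G :=
    { toFun := fun g => (e ⟨QuotientGroup.mk' _ (toO g), toO_mem g⟩ : G)
      map_one' := by
        have h1 : (⟨QuotientGroup.mk' _ (toO (1 : SD a)), toO_mem 1⟩ :
            commutator (POD a)) = 1 := rfl
        rw [h1, map_one]
        rfl
      map_mul' := fun x y => by
        have h1 : (⟨QuotientGroup.mk' _ (toO (x * y)), toO_mem (x * y)⟩ : commutator (POD a)) =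
            ⟨QuotientGroup.mk' _ (toO x), toO_mem x⟩ * ⟨QuotientGroup.mk' _ (toO y), toO_mem y⟩ :=
          rfl
        rw [h1, map_mul]
        rfl }
  have hεval : ∀ g : SD a, ε g = (e ⟨QuotientGroup.mk' _ (toO g), toO_mem g⟩ : G) := fun g => rfl
  refine ⟨ε, ?_, ?_, hεval⟩
  · ext y
    constructor
    · rintro ⟨g, rfl⟩
      exact (e _).2
    · intro hy
      obtain ⟨⟨c, hc⟩, he⟩ := e.surjective ⟨y, hy⟩
      obtain ⟨g, rfl⟩ := QuotientGroup.mk'_surjective _ c
      have hg : g ∈ SD0 a := hc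
      refine ⟨⟨g.1, (mem_SD' g).2 hg⟩, ?_⟩
      rw [hεval]
      have h1 : toO (⟨g.1, (mem_SD' g).2 hg⟩ : SD a) = g := Subtype.ext rfl
      exact congrArg Subtype.val he
  · intro g
    have h1 : ε g = 1 ↔ (QuotientGroup.mk' (Subgroup.center ↥(OD a)) (toO g)) = 1 := by
      rw [hεval]
      constructor
      · intro h
        have h3 : e ⟨QuotientGroup.mk' _ (toO g), toO_mem g⟩ = 1 := Subtype.ext h
        have h4 := (MulEquiv.map_eq_one_iff e).1 h3
        exact congrArg Subtype.val h4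
      · intro h
        have h3 : (⟨QuotientGroup.mk' _ (toO g), toO_mem g⟩ : commutator (POD a)) = 1 :=
          Subtype.ext h
        rw [h3, map_one]
        rfl
    rw [h1, ← MonoidHom.mem_ker, QuotientGroup.ker_mk', center_iff hsc]
    rfl

lemma cj_cj_inv {a : Fin n → K} (u : ↥(OD a)) (h : SD a) : cjD u (cjD u⁻¹ h) = h := by
  rw [← cjD_mul, mul_inv_cancel, cjD_one]

lemma cj_scal {a : Fin n → K} (u : ↥(OD a)) (h : SD a) (l : K) :
    (cjD u h).1.1 = l • (1 : Matrix (Fin n) (Fin n) K) ↔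
      h.1.1 = l • (1 : Matrix (Fin n) (Fin n) K) := by
  have h1 : (cjD u h).1.1 = u.1.1 * h.1.1 * (u.1⁻¹).1 := rfl
  have hu : (u.1⁻¹).1 * u.1.1 = 1 := by
    show (u.1⁻¹ * u.1).1 = 1
    rw [inv_mul_cancel]; rfl
  have hu' : u.1.1 * (u.1⁻¹).1 = 1 := by
    show (u.1 * u.1⁻¹).1 = 1
    rw [mul_inv_cancel]; rfl
  rw [h1]
  constructor
  · intro hh
    have h2 : (u.1⁻¹).1 * (u.1.1 * h.1.1 * (u.1⁻¹).1) * u.1.1 =
        (u.1⁻¹).1 * (l • (1 : Matrix (Fin n) (Fin n) K)) * u.1.1 := by rw [hh]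
    rw [mul_smul_comm, smul_mul_assoc, mul_one, hu] at h2
    rw [← h2]
    calc h.1.1 = ((u.1⁻¹).1 * u.1.1) * h.1.1 * ((u.1⁻¹).1 * u.1.1) := by rw [hu, one_mul, mul_one]
      _ = _ := by simp only [mul_assoc]
  · intro hh
    rw [hh, mul_smul_comm, smul_mul_assoc, mul_one, hu']

end

/-- the square of the automorphism is trivial -/
lemma sig_sq {K : Type u} [Field K] [Fintype K] (h2 : (2 : K) ≠ 0) {m : ℕ} (hm : 5 ≤ m) {d : K}
    (hB : Big (fd m d) (SD (fd m d))) (σ : K ≃+* K) (E : Fin (m + 1) → K) (hE : ∀ i, E i ≠ 0)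
    (h : ∀ g : SD (fd m d), ∃ l : K, ∀ i j, E i * σ (σ (g.1.1 i j)) * (E j)⁻¹ = l * g.1.1 i j) :
    ∀ x, σ (σ x) = x := by
  have key : ∀ z : K, σ (σ (z ^ 2)) = z ^ 2 := by
    intro z
    obtain ⟨x, y, hxy⟩ : ∃ x y : K, x ^ 2 + y ^ 2 + z ^ 2 = 1 := by
      by_cases hz : 1 - z ^ 2 = 0
      · exact ⟨0, 0, by linear_combination -hz⟩
      · obtain ⟨x, y, h3⟩ := rep h2 (one_ne_zero (α := K)) (one_ne_zero (α := K)) hz
        exact ⟨x, y, by linear_combination h3⟩
    let i0 : Fin (m + 1) := ⟨0, by omega⟩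
    let i1 : Fin (m + 1) := ⟨1, by omega⟩
    let i2 : Fin (m + 1) := ⟨2, by omega⟩
    let i3 : Fin (m + 1) := ⟨3, by omega⟩
    have h01 : i0 ≠ i1 := by simp [i0, i1]
    have h02 : i0 ≠ i2 := by simp [i0, i2]
    have h03 : i0 ≠ i3 := by simp [i0, i3]
    have h12 : i1 ≠ i2 := by simp [i1, i2]
    have h13 : i1 ≠ i3 := by simp [i1, i3]
    have h23 : i2 ≠ i3 := by simp [i2, i3]
    have hf : ∀ i : Fin (m + 1), i.val < m → fd m d i = 1 := by
      intro i hi
      unfold fd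
      rw [if_neg]
      intro h4
      rw [h4] at hi
      simp at hi
    have f0 : fd m d i0 = 1 := hf _ (by show 0 < m; omega)
    have f1 : fd m d i1 = 1 := hf _ (by show 1 < m; omega)
    have f2 : fd m d i2 = 1 := hf _ (by show 2 < m; omega)
    have f3 : fd m d i3 = 1 := hf _ (by show 3 < m; omega)
    set u : Fin (m + 1) → K := Pi.single i0 1 with hu
    set v : Fin (m + 1) → K := Pi.single i0 x + Pi.single i1 y + Pi.single i2 z with hv
    have v0 : v i0 = x := by simp [hv, h01, h02]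
    have v1 : v i1 = y := by simp [hv, h01.symm, h12]
    have v2 : v i2 = z := by simp [hv, h02.symm, h12.symm]
    have v3 : v i3 = 0 := by simp [hv, h03.symm, h13.symm, h23.symm]
    have huu : B (fd m d) u u = 1 := by rw [hu, B_single, f0, Pi.single_eq_same]; ring
    have hvy : ∀ y' : Fin (m + 1) → K, B (fd m d) v y' = x * y' i0 + y * y' i1 + z * y' i2 := by
      intro y'
      rw [hv, B_add_left, B_add_left, B_single, B_single, B_single, f0, f1, f2]
      ring
    have hvv : B (fd m d) v v = 1 := by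
      rw [hvy, v0, v1, v2, ← hxy]
      ring
    have hu0 : B (fd m d) u u ≠ 0 := by rw [huu]; exact one_ne_zero
    have hv0 : B (fd m d) v v ≠ 0 := by rw [hvv]; exact one_ne_zero
    have hg := hB u v hu0 hv0 (by rw [huu, hvv])
    obtain ⟨l, hl⟩ := h ⟨_, hg⟩
    have hent : ∀ i j, (rf (fd m d) u hu0 * rf (fd m d) v hv0).1 i j =
        ac (rf (fd m d) u hu0 * rf (fd m d) v hv0) (Pi.single j 1) i := by
      intro i j
      show _ = ((rf (fd m d) u hu0 * rf (fd m d) v hv0).1 *ᵥ Pi.single j 1) i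
      rw [mulVec_single_one]
      rfl
    have e3 : (rf (fd m d) u hu0 * rf (fd m d) v hv0).1 i3 i3 = 1 := by
      rw [hent, ac_mul, ac_rf, ac_rf, huu, hvv]
      simp only [Pi.sub_apply, Pi.smul_apply, smul_eq_mul, v3, hu, Pi.single_eq_same,
        Pi.single_eq_of_ne h03.symm]
      ring
    have e2 : (rf (fd m d) u hu0 * rf (fd m d) v hv0).1 i2 i2 = 1 - 2 * z ^ 2 := by
      rw [hent, ac_mul, ac_rf, ac_rf, huu, hvv, hvy]
      simp only [Pi.sub_apply, Pi.smul_apply, smul_eq_mul, v2, hu, Pi.single_eq_same,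
        Pi.single_eq_of_ne h02.symm, Pi.single_eq_of_ne h02, Pi.single_eq_of_ne h12]
      ring
    have h5 := hl i3 i3
    have h6 := hl i2 i2
    simp only [e3, e2] at h5 h6
    rw [map_one, map_one, mul_one, mul_inv_cancel₀ (hE i3), mul_one] at h5
    rw [← h5, one_mul] at h6
    have h7 : σ (σ (1 - 2 * z ^ 2)) = 1 - 2 * z ^ 2 := by
      rw [mul_comm (E i2), mul_inv_cancel_right₀ (hE i2)] at h6
      exact h6
    rw [map_sub, map_sub, map_one, map_one, map_mul, map_mul, map_ofNat, map_ofNat] at h7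
    exact mul_left_cancel₀ h2 (by linear_combination -h7)
  intro x
  have h3 : x = ((x + 1) / 2) ^ 2 - ((x - 1) / 2) ^ 2 := by
    field_simp
    ring
  conv_lhs => rw [h3]
  rw [map_sub, map_sub, key, key]
  exact h3.symm

/-- **StmtDSem from 145's StmtEO and the facts StmtDF.** -/
theorem stmtDSem_of (hEO : StmtEO.{u, v}) (hF : StmtDF.{u}) : StmtDSem.{u, v} := by
  intro K _ _ m d hK G _ _ L e
  obtain ⟨hBig, hdiag, hdet, hsc⟩ := hF K m d hK
  have h2 : (2 : K) ≠ 0 := H221.two_ne hK.odd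
  have hm := hK.hm
  have hd0 : d ≠ 0 := fun h => hK.ns (by rw [h]; exact ⟨0, by rw [mul_zero]⟩)
  have h5 : 5 < Fintype.card K := by
    have := hK.card
    rw [Nat.card_eq_fintype_card] at this
    omega
  obtain ⟨ε, hrange, hker, -⟩ := exists_hom hsc L e
  refine ⟨ε, hrange, hker, ?_⟩
  intro u x hx hx2 hc
  set ε' : SD (fd m d) →* G := ε.comp (cjD u) with hε'
  have hε'v : ∀ g, ε' g = ε (cjD u g) := fun g => rfl
  have hk' : Ker ε' := by
    intro g
    rw [hε'v, hker]
    simp only [cj_scal]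
  have hnorm : ∀ s, ∃ s', x * ε' s * x⁻¹ = ε' s' := by
    intro s
    rw [hε'v]
    have h1 : ε (cjD u s) ∈ L := by rw [← hrange]; exact ⟨_, rfl⟩
    have h3 := (Subgroup.mem_normalizer_iff.1 hx _).1 h1
    rw [← hrange] at h3
    obtain ⟨k, hk⟩ := h3
    refine ⟨cjD u⁻¹ k, ?_⟩
    rw [hε'v, cj_cj_inv]
    exact hk.symm
  have hcom : ∀ (i j : Fin (m + 1)) (s : SD (fd m d)), i.val + 1 < m + 1 → j.val + 1 < m + 1 →
      i ≠ j → (∀ y, ac s.1 y = fun k => if k = i ∨ k = j then -y k else y k) →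
      x * ε' s = ε' s * x := by
    intro i j s _ _ hij hy
    refine hc _ ⟨s, ?_, rfl⟩
    refine ⟨fun k => if k = i ∨ k = j then -1 else 1, fun k => ?_, ?_⟩
    · by_cases hk : k = i ∨ k = j
      · simp [hk]
      · simp [hk]
    · apply Matrix.ext_of_mulVec_single
      intro k
      have h1 := hy (Pi.single k 1)
      have h3 : ac s.1 (Pi.single k 1) = s.1.1 *ᵥ Pi.single k 1 := rfl
      rw [h3] at h1
      rw [h1]
      funext l
      rw [mulVec_diagonal]
      by_cases hl : l = i ∨ l = j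
      · simp [hl]
      · simp [hl]
  have hfne : ∀ i, fd m d i ≠ 0 := by
    intro i
    unfold fd
    by_cases hi : i = Fin.last m
    · rw [if_pos hi]; exact hd0
    · rw [if_neg hi]; exact one_ne_zero
  have hf1 : ∀ i : Fin (m + 1), i.val + 1 < m + 1 → fd m d i = 1 := by
    intro i hi
    unfold fd
    rw [if_neg]
    intro h4
    rw [h4] at hi
    simp at hi
  have hSO : SD (fd m d) ≤ OD (fd m d) := by
    rintro g ⟨h, _, rfl⟩
    exact h.2
  obtain ⟨σ, c, hcσ, hact⟩ := hEO K h2 h5 (m + 1) (by omega) (fd m d) hfne hf1 (SD (fd m d)) hBig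
    hSO G ε' hk' x hnorm hcom
  have hc0 : ∀ i, c i ≠ 0 := by
    intro i h
    have h1 := hcσ i
    rw [h, zero_pow two_ne_zero, zero_mul] at h1
    exact hfne i ((map_eq_zero σ).1 h1.symm)
  have hl0 : (Fin.last m) ≠ (⟨0, by omega⟩ : Fin (m + 1)) := by
    intro h
    have := congrArg Fin.val h
    simp at this
    omega
  -- the twisted automorphism
  let T : SD (fd m d) → SD (fd m d) := fun s => ⟨tw σ c hc0 s.1, tw_SD hsc σ c hc0 hcσ s⟩
  have hTv : ∀ s i j, (T s).1.1 i j = c i * σ (s.1.1 i j) * (c j)⁻¹ := fun s i j =>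
    tw_apply σ c hc0 s.1 i j
  have hxT : ∀ s, x * ε' s * x⁻¹ = ε' (T s) := by
    intro s
    refine hact s (T s) fun i j => ?_
    rw [hTv, inv_mul_cancel_right₀ (hc0 j)]
  have hTT : ∀ s, ε' (T (T s)) = ε' s := by
    intro s
    rw [← hxT, ← hxT]
    have : x * (x * ε' s * x⁻¹) * x⁻¹ = (x * x) * ε' s * (x * x)⁻¹ := by group
    rw [this, ← pow_two, hx2, one_mul, inv_one, mul_one]
  let E : Fin (m + 1) → K := fun i => c i * σ (c i)
  have hE0 : ∀ i, E i ≠ 0 := fun i => mul_ne_zero (hc0 i) ((map_ne_zero σ).2 (hc0 i))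
  have hTTv : ∀ s i j, (T (T s)).1.1 i j = E i * σ (σ (s.1.1 i j)) * (E j)⁻¹ := by
    intro s i j
    have h1 : (E j)⁻¹ = (c j)⁻¹ * (σ (c j))⁻¹ := mul_inv _ _
    rw [hTv, hTv, map_mul, map_mul, map_inv₀, h1]
    show _ = c i * σ (c i) * _ * _
    ring
  have hlam : ∀ s : SD (fd m d), ∃ l : K, ∀ i j,
      E i * σ (σ (s.1.1 i j)) * (E j)⁻¹ = l * s.1.1 i j := by
    intro s
    have h1 : ε' (T (T s) * s⁻¹) = 1 := by rw [map_mul, map_inv, hTT, mul_inv_cancel]
    obtain ⟨l, hl⟩ := (hk' _).1 h1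
    refine ⟨l, fun i j => ?_⟩
    rw [← hTTv]
    have h3 : (T (T s)).1.1 = l • s.1.1 := by
      have h4 : (T (T s) * s⁻¹ * s).1.1 = (T (T s) * s⁻¹).1.1 * s.1.1 := rfl
      rw [hl, smul_mul_assoc, one_mul, inv_mul_cancel_right] at h4
      exact h4
    rw [h3, Matrix.smul_apply, smul_eq_mul]
  have hσ2 := sig_sq h2 hm hBig σ E hE0 hlam
  -- `E` is scalar
  have hEO' : dg E hE0 ∈ OD (fd m d) := by
    have h1 : ∀ y, ac (dg E hE0) y = fun i => E i * y i := by
      intro y
      funext i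
      show (diagonal E *ᵥ y) i = _
      rw [mulVec_diagonal]
    intro y z
    rw [h1, h1]
    unfold B
    refine Finset.sum_congr rfl fun i _ => ?_
    have h3 : E i ^ 2 * fd m d i = fd m d i := by
      show (c i * σ (c i)) ^ 2 * fd m d i = _
      have h4 := hcσ i
      have h6 : σ (c i) ^ 2 * σ (fd m d i) = fd m d i := by
        have h7 := congrArg σ h4
        rw [map_mul, map_pow, hσ2] at h7
        exact h7
      calc (c i * σ (c i)) ^ 2 * fd m d i = σ (c i) ^ 2 * (c i ^ 2 * fd m d i) := by ring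
        _ = σ (c i) ^ 2 * σ (fd m d i) := by rw [h4]
        _ = _ := h6
    calc fd m d i * (E i * y i) * (E i * z i) = (E i ^ 2 * fd m d i) * y i * z i := by ring
      _ = _ := by rw [h3]
  obtain ⟨l, hl⟩ := hsc _ hEO' (by
    intro k hk
    obtain ⟨l, hl⟩ := hlam ⟨k, hk⟩
    refine ⟨l, ?_⟩
    ext i j
    have h1 := hl i j
    rw [hσ2] at h1
    have h3 : ((dg E hE0).1 * k.1) i j = E i * k.1 i j := by
      show (diagonal E * k.1) i j = _
      rw [diagonal_mul]
    have h4 : (k.1 * (dg E hE0).1) i j = k.1 i j * E j := by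
      show (k.1 * diagonal E) i j = _
      rw [mul_diagonal]
    rw [Matrix.smul_apply, h3, h4, smul_eq_mul, ← mul_assoc, ← h1,
      inv_mul_cancel_right₀ (hE0 j)])
  have hEl : ∀ i, E i = l := by
    intro i
    have h1 : (dg E hE0).1 i i = E i := by
      show diagonal E i i = _
      rw [diagonal_apply_eq]
    rw [← h1, hl, Matrix.smul_apply, one_apply_eq, smul_eq_mul, mul_one]
  have hc00 : c ⟨0, by omega⟩ ^ 2 = 1 := by
    have h1 := hcσ ⟨0, by omega⟩
    rw [hf1 _ (by show 0 + 1 < m + 1; omega), mul_one, map_one] at h1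
    exact h1
  have hE1 : E ⟨0, by omega⟩ = 1 := by
    show c ⟨0, by omega⟩ * σ (c ⟨0, by omega⟩) = 1
    rcases mul_self_eq_one_iff.1 ((pow_two _).symm.trans hc00) with h | h
    · rw [h, map_one, mul_one]
    · rw [h, map_neg, map_one]; ring
  have hN : c (Fin.last m) * σ (c (Fin.last m)) = 1 := by
    have h1 : E (Fin.last m) = 1 := by rw [hEl, ← hEl ⟨0, by omega⟩, hE1]
    exact h1
  have hσ1 : σ = RingEquiv.refl K := by
    by_contra hne
    refine hK.ns (sq_of_norm hK.odd σ hσ2 hne hd0 ?_ hN)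
    have h1 := hcσ (Fin.last m)
    have h3 : fd m d (Fin.last m) = d := if_pos rfl
    rw [h3] at h1
    exact h1
  subst hσ1
  have hc1 : ∀ i, c i ^ 2 = 1 := by
    intro i
    have h1 := hcσ i
    exact mul_right_cancel₀ (hfne i) (by rw [h1, one_mul]; rfl)
  have hcO : dg c hc0 ∈ OD (fd m d) := by
    have h1 : ∀ y, ac (dg c hc0) y = fun i => c i * y i := by
      intro y
      funext i
      show (diagonal c *ᵥ y) i = _
      rw [mulVec_diagonal]
    intro y z
    rw [h1, h1]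
    unfold B
    refine Finset.sum_congr rfl fun i _ => ?_
    linear_combination (fd m d i * y i * z i) * hc1 i
  set D : ↥(OD (fd m d)) := ⟨dg c hc0, hcO⟩ with hD
  refine ⟨u * D * u⁻¹, ⟨c, hc1, ?_⟩, fun h => ?_⟩
  · have h1 : u⁻¹ * (u * D * u⁻¹) * u = D := by group
    rw [h1]
    rfl
  · have h1 : ε h = ε' (cjD u⁻¹ h) := by rw [hε'v, cj_cj_inv]
    have h3 : T (cjD u⁻¹ h) = cjD D (cjD u⁻¹ h) := by
      apply Subtype.ext
      apply Units.ext
      ext i j
      rw [hTv]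
      have h4 : (cjD D (cjD u⁻¹ h)).1.1 = diagonal c * (cjD u⁻¹ h).1.1 * diagonal (fun i => (c i)⁻¹) :=
        rfl
      rw [h4, mul_diagonal, diagonal_mul]
      rfl
    rw [h1, hxT, h3, hε'v, ← cjD_mul, ← cjD_mul, mul_assoc]

end

end Vale.Agent.P240.R2.H651.DS
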