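import Vale.Agent.P240.R2.H651.Uhl
import Vale.Agent.P240.R2.H472.Nrm

/-!
AUT-SU: avoiding norm values.
-/

set_option autoImplicit false
set_option linter.unusedSectionVars false

namespace Vale.Agent.P240.R2.H651

open Finset
open scoped Classical

universe u

variable {K : Type u} [Field K] [Fintype K] [StarRing K] {q : ℕ}

lemma N_pow (hs : ∀ x : K, star x = x ^ q) (x : K) : N x = x ^ (q + 1) := by
  rw [N, hs, pow_succ']

/-- fewer than `q` values can be avoided by norms -/
lemma exists_N (hK : Nat.card K = q ^ 2) (hs : ∀ x : K, star x = x ^ q) (S : Finset K)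
    (hS : S.card < q) : ∃ x : K, N x ∉ S := by
  by_contra hcon
  push Not at hcon
  rw [Nat.card_eq_fintype_card] at hK
  have h0 : (0 : K) ∈ S := by
    have := hcon 0
    rwa [N_zero] at this
  have hc : Fintype.card K = ∑ c ∈ S, (univ.filter (fun x : K => N x = c)).card := by
    rw [← Finset.card_univ, Finset.card_eq_sum_card_fiberwise (f := N) (t := S)
      (fun x _ => hcon x)]
  rw [← Finset.add_sum_erase S _ h0] at hc
  have h1 : (univ.filter (fun x : K => N x = 0)).card ≤ 1 := by
    rw [Finset.card_le_one]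
    intro a ha b hb
    rw [Finset.mem_filter] at ha hb
    rw [N_eq_zero.1 ha.2, N_eq_zero.1 hb.2]
  have h2 : ∑ c ∈ S.erase 0, (univ.filter (fun x : K => N x = c)).card ≤
      (S.card - 1) * (q + 1) := by
    rw [← Finset.card_erase_of_mem h0]
    apply Finset.sum_le_card_nsmul
    intro c _
    have : (univ.filter (fun x : K => N x = c)) = univ.filter (fun x : K => x ^ (q + 1) = c) := by
      apply Finset.filter_congr
      intro x _
      rw [N_pow hs]
    rw [this]
    exact H472.card_pow_le c
  have h3 : q ^ 2 ≤ 1 + (S.card - 1) * (q + 1) := by omega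
  have h4 : (S.card - 1) ≤ q - 2 := by omega
  have h5 : 1 ≤ S.card := Finset.card_pos.2 ⟨0, h0⟩
  obtain ⟨m, rfl⟩ : ∃ m, q = m + 2 := ⟨q - 2, by omega⟩
  have h6 : (S.card - 1) * (m + 2 + 1) ≤ m * (m + 2 + 1) := Nat.mul_le_mul_right _ (by omega)
  nlinarith

/-- list form -/
lemma exists_N_list (hK : Nat.card K = q ^ 2) (hs : ∀ x : K, star x = x ^ q) (l : List K)
    (hl : l.length < q) : ∃ x : K, ∀ a ∈ l, N x ≠ a := by
  obtain ⟨x, hx⟩ := exists_N hK hs l.toFinset ((List.toFinset_card_le l).trans_lt hl)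
  refine ⟨x, fun a ha h => hx ?_⟩
  rw [h]
  exact List.mem_toFinset.2 ha

end Vale.Agent.P240.R2.H651
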