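import Vale.Agent.P240.R2.H651.Grp2
import Vale.Agent.P240.R2.H651.Avoid

/-!
AUT-SU, group part 3: the map `f` on the lines induced by an element that normalises the image of
`SU` and fixes the coordinate lines; reduction to a formula for `f`.
-/

set_option autoImplicit false
set_option linter.unusedSectionVars false

namespace Vale.Agent.P240.R2.H651

open Finset Matrix Vale.Agent.P240.R2.AS Vale.Agent.P240.R2.H38
open scoped Classical

universe u v

section trans

variable {K : Type u} [Field K] [Fintype K] [StarRing K] {n q : ℕ}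

/-- a diagonal unitary matrix with one entry `d` at `i` -/
noncomputable def D1 (i : Fin n) (d : K) (hd : d * star d = 1) : GU K n :=
  ⟨diagonal (Function.update 1 i d), by
    rw [mem_unitaryGroup_iff, star_eq_conjTranspose, diagonal_conjTranspose,
      diagonal_mul_diagonal, ← diagonal_one]
    congr 1
    funext j
    by_cases hj : j = i
    · subst hj; simp [hd]
    · simp [hj]⟩

lemma D1_det (i : Fin n) (d : K) (hd : d * star d = 1) : (D1 i d hd).1.det = d := by
  show (diagonal (Function.update 1 i d)).det = d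
  rw [det_diagonal, Finset.prod_update_of_mem (Finset.mem_univ i)]
  simp

lemma D1_cj {i j : Fin n} (hij : j ≠ i) (d : K) (hd : d * star d = 1) :
    cj (D1 i d hd) (E j) = E j := by
  apply Subtype.ext
  rw [cj_val, E_val]
  show diagonal (Function.update 1 i d) * single j j 1 * star (diagonal (Function.update 1 i d)) = _
  rw [star_eq_conjTranspose, diagonal_conjTranspose]
  ext a b
  rw [mul_diagonal, diagonal_mul, single_apply]
  by_cases h1 : j = a
  · by_cases h2 : j = b
    · subst h1; subst h2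
      simp [hij]
    · simp [h2]
  · simp [h1]

lemma det_star_mul (g : GU K n) : g.1.det * star g.1.det = 1 := by
  have h := mem_unitaryGroup_iff.1 g.2
  have h2 := congrArg det h
  rw [det_mul, det_one, star_eq_conjTranspose, det_conjTranspose] at h2
  exact h2

/-- `SU` is transitive on the lines -/
lemma exists_SU (hq : 2 ≤ q) (hK : Nat.card K = q ^ 2) (hs : ∀ x : K, star x = x ^ q)
    (hn : 2 ≤ n) (P Q : Ln K n) : ∃ g : SU K n, cj g.1 P = Q := by
  obtain ⟨m, rfl⟩ : ∃ m, n = m + 1 := ⟨n - 1, by omega⟩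
  obtain ⟨A, hA⟩ := exists_unit hq hK hs m P
  obtain ⟨B, hB⟩ := exists_unit hq hK hs m Q
  have h0 : Fin.last m ≠ (0 : Fin (m + 1)) := by
    intro h
    have := congrArg Fin.val h
    simp at this
    omega
  set e : K := (B * A⁻¹).1.det with he
  have he1 : e * star e = 1 := det_star_mul _
  have hd : star e * star (star e) = 1 := by rw [star_star, mul_comm]; exact he1
  refine ⟨⟨B * D1 0 (star e) hd * A⁻¹, ?_⟩, ?_⟩
  · show (B.1 * (D1 0 (star e) hd).1 * (A⁻¹).1).det = 1
    have h1 : e = B.1.det * (A⁻¹).1.det := by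
      rw [he, ← det_mul]; rfl
    rw [det_mul, det_mul, D1_det]
    calc B.1.det * star e * (A⁻¹).1.det = (B.1.det * (A⁻¹).1.det) * star e := by ring
      _ = 1 := by rw [← h1, he1]
  · show cj (B * D1 0 (star e) hd * A⁻¹) P = Q
    rw [cj_mul, cj_mul, ← hA, cj_inv_cj, D1_cj h0, hB]

lemma comm_of_cj {g : GU K n} {Q : Ln K n} (h : cj g Q = Q) : g.1 * Q.1 = Q.1 * g.1 := by
  have h1 := congrArg Subtype.val h
  rw [cj_val] at h1
  calc g.1 * Q.1 = g.1 * Q.1 * (star g.1 * g.1) := by
        rw [mem_unitaryGroup_iff'.1 g.2, Matrix.mul_one]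
    _ = (g.1 * Q.1 * star g.1) * g.1 := by rw [Matrix.mul_assoc (g.1 * Q.1)]
    _ = Q.1 * g.1 := by rw [h1]

/-- a unitary matrix that fixes all lines is scalar -/
lemma scal_of_fix (hq : 3 ≤ q) (hK : Nat.card K = q ^ 2) (hs : ∀ x : K, star x = x ^ q)
    {g : GU K n} (hg : ∀ Q : Ln K n, cj g Q = Q) :
    ∃ l : K, g.1 = l • (1 : Matrix (Fin n) (Fin n) K) := by
  have hoff : ∀ i j : Fin n, i ≠ j → g.1 i j = 0 := by
    intro i j hij
    have h1 := congrFun (congrFun (comm_of_cj (hg (E j))) i) j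
    rw [E_val, Matrix.mul_apply, Matrix.mul_apply, Finset.sum_eq_single j,
      Finset.sum_eq_single j, single_apply_same, mul_one,
      single_apply_of_row_ne (Ne.symm hij), zero_mul] at h1
    · exact h1
    · intro b _ hb
      rw [single_apply_of_row_ne (Ne.symm hij), zero_mul]
    · simp
    · intro b _ hb
      rw [single_apply_of_row_ne (Ne.symm hb), mul_zero]
    · simp
  have hdiag : ∀ i j : Fin n, g.1 i i = g.1 j j := by
    intro i j
    by_cases hij : i = j
    · rw [hij]
    obtain ⟨t, ht⟩ := exists_N_list hK hs [0, -1] (by simp; omega)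
    have ht0 : t ≠ 0 := fun h => ht 0 (by simp) (by rw [h, N_zero])
    have ht1 : 1 + N t ≠ 0 := fun h => ht (-1) (by simp) (by linear_combination h)
    have hv : star (v2 i j t) ⬝ᵥ (v2 i j t) ≠ 0 := by
      have := B_v2_self hij t
      rw [B] at this
      show ∑ k, star (v2 i j t k) * v2 i j t k ≠ 0
      rw [this]
      exact ht1
    obtain ⟨Q, a, ha, _, hQ⟩ := exists_line hK hs hv
    have h1 := congrFun (congrFun (comm_of_cj (hg Q)) i) j
    have hQ2 : Q.1 i j ≠ 0 := by
      rw [hQ, Matrix.smul_apply, vecMulVec_apply, Pi.star_apply, v2_i, v2_j hij, one_mul,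
        smul_eq_mul]
      exact mul_ne_zero (mul_ne_zero ha (star_ne_zero.2 ha)) (star_ne_zero.2 ht0)
    rw [Matrix.mul_apply, Matrix.mul_apply, Finset.sum_eq_single i, Finset.sum_eq_single j] at h1
    · have h2 : Q.1 i j * (g.1 i i - g.1 j j) = 0 := by linear_combination h1
      exact sub_eq_zero.1 ((mul_eq_zero.1 h2).resolve_left hQ2)
    · intro b _ hb
      rw [hoff b j hb, mul_zero]
    · simp
    · intro b _ hb
      rw [hoff i b (Ne.symm hb), zero_mul]
    · simp
  rcases Nat.eq_zero_or_pos n with h0 | h0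
  · subst h0
    exact ⟨1, by ext i; exact i.elim0⟩
  · refine ⟨g.1 ⟨0, h0⟩ ⟨0, h0⟩, ?_⟩
    ext i j
    rw [Matrix.smul_apply, smul_eq_mul]
    by_cases hij : i = j
    · subst hij
      rw [Matrix.one_apply_eq, mul_one]
      exact hdiag _ _
    · rw [Matrix.one_apply_ne hij, mul_zero]
      exact hoff i j hij

end trans

section main

variable {K : Type u} [Field K] [Fintype K] [StarRing K] {n q : ℕ} {ζ c : K}
variable {G : Type v} [Group G] {ε : SU K n →* G}

/-- the map on lines -/
structure FMap (ε : SU K n →* G) (ζ c : K) (x : G) (f : Ln K n → Ln K n)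
    (τ : SU K n → SU K n) : Prop where
  tau : ∀ g, x * ε g * x⁻¹ = ε (τ g)
  line : ∀ P, x * ε (sW ζ c [P]) * x⁻¹ = ε (sW ζ c [f P])
  fix : ∀ i, f (E i) = E i
  equi : ∀ (g : SU K n) (P : Ln K n), f (cj g.1 P) = cj (τ g).1 (f P)
  inj : Function.Injective f
  orth : ∀ P Q : Ln K n, (f P).1 * (f Q).1 = 0 ↔ P.1 * Q.1 = 0

theorem exists_FMap (h : Zc n ζ c) (hn : 3 ≤ n) (hq : 2 ≤ q) (hK : Nat.card K = q ^ 2)
    (hs : ∀ x : K, star x = x ^ q)
    (ker : ∀ g : SU K n, ε g = 1 ↔ ∃ c : K, mt g = c • (1 : Matrix (Fin n) (Fin n) K))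
    (x : G) (hx : ∀ g, ∃ g', x * ε g * x⁻¹ = ε g')
    (hfix : ∀ i, x * ε (sW ζ c [E i]) * x⁻¹ = ε (sW ζ c [E i])) :
    ∃ f τ, FMap ε ζ c x f τ := by
  choose τ hτ using hx
  have key : ∀ (g : SU K n) (P Q : Ln K n),
      x * ε (sW ζ c [P]) * x⁻¹ = ε (sW ζ c [Q]) →
      x * ε (sW ζ c [cj g.1 P]) * x⁻¹ = ε (sW ζ c [cj (τ g).1 Q]) := by
    intro g P Q hPQ
    rw [← sW_cj h, ← sW_cj h, map_mul, map_mul, map_mul, map_mul, map_inv, map_inv, ← hPQ,
      ← hτ]
    group
  have hex : ∀ P : Ln K n, ∃ Q : Ln K n, x * ε (sW ζ c [P]) * x⁻¹ = ε (sW ζ c [Q]) := by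
    intro P
    obtain ⟨g, hg⟩ := exists_SU hq hK hs (by omega) (E ⟨0, by omega⟩) P
    refine ⟨cj (τ g).1 (E ⟨0, by omega⟩), ?_⟩
    rw [← hg]
    exact key g _ _ (hfix _)
  choose f hf using hex
  have hinj : Function.Injective f := by
    intro P Q hPQ
    apply sW_inj h hn ker
    have h1 := hf P
    rw [hPQ, ← hf Q] at h1
    exact mul_left_cancel (mul_right_cancel h1)
  refine ⟨f, τ, hτ, hf, fun i => ?_, fun g P => ?_, hinj, fun P Q => ?_⟩
  · exact sW_inj h hn ker ((hf _).symm.trans (hfix i))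
  · exact sW_inj h hn ker ((hf _).symm.trans (key g _ _ (hf P)))
  · have hcomm : ε (sW ζ c [P]) * ε (sW ζ c [Q]) = ε (sW ζ c [Q]) * ε (sW ζ c [P]) ↔
        ε (sW ζ c [f P]) * ε (sW ζ c [f Q]) = ε (sW ζ c [f Q]) * ε (sW ζ c [f P]) := by
      rw [← hf P, ← hf Q]
      constructor
      · intro h1
        calc _ = x * (ε (sW ζ c [P]) * ε (sW ζ c [Q])) * x⁻¹ := by group
          _ = x * (ε (sW ζ c [Q]) * ε (sW ζ c [P])) * x⁻¹ := by rw [h1]
          _ = _ := by group
      · intro h1
        have h2 : x * (ε (sW ζ c [P]) * ε (sW ζ c [Q])) * x⁻¹ =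
            x * (ε (sW ζ c [Q]) * ε (sW ζ c [P])) * x⁻¹ := by
          calc _ = x * ε (sW ζ c [P]) * x⁻¹ * (x * ε (sW ζ c [Q]) * x⁻¹) := by group
            _ = _ := h1
            _ = _ := by group
        exact mul_left_cancel (mul_right_cancel h2)
    constructor
    · intro h1
      rcases comm_sW h hn ker (hcomm.2 (sW_comm h h1)) with h2 | h2
      · subst h2
        rw [ln_idem] at h1
        exact absurd h1 (ln_ne _)
      · exact h2
    · intro h1
      rcases comm_sW h hn ker (hcomm.1 (sW_comm h h1)) with h2 | h2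
      · have h3 := hinj h2
        subst h3
        rw [ln_idem] at h1
        exact absurd h1 (ln_ne _)
      · exact h2

lemma map_star_mat {σ : K ≃+* K} (hσ : ∀ a, σ (star a) = star (σ a))
    (M : Matrix (Fin n) (Fin n) K) : (star M).map σ = star (M.map σ) := by
  ext i j
  exact hσ _

/-- a formula for `f` gives the action of `x` -/
theorem acts_of_formula (hq : 3 ≤ q) (hK : Nat.card K = q ^ 2)
    (hs : ∀ x : K, star x = x ^ q)
    (ker : ∀ g : SU K n, ε g = 1 ↔ ∃ c : K, mt g = c • (1 : Matrix (Fin n) (Fin n) K))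
    {x : G} {f : Ln K n → Ln K n} {τ : SU K n → SU K n} (hF : FMap ε ζ c x f τ)
    {σ : K ≃+* K} (hσ : ∀ a, σ (star a) = star (σ a)) (u : GU K n)
    (hf : ∀ P, (f P).1 = u.1 * P.1.map σ * star u.1) : Acts ε x u σ := by
  refine ⟨hσ, fun g g' hg => ?_⟩
  have hsurj : Function.Surjective f := Finite.surjective_of_injective hF.inj
  have h1 : ∀ Q : Ln K n, cj (g'⁻¹ * τ g).1 Q = Q := by
    intro Q
    obtain ⟨P, rfl⟩ := hsurj Q
    have h2 : cj (τ g).1 (f P) = cj g'.1 (f P) := by
      rw [← hF.equi]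
      apply Subtype.ext
      rw [hf, cj_val, cj_val, hf]
      show _ = mt g' * _ * star (mt g')
      rw [hg]
      have h3 : (g.1.1 * P.1 * star g.1.1).map σ = (mt g).map σ * P.1.map σ * star ((mt g).map σ) := by
        rw [Matrix.map_mul, Matrix.map_mul, map_star_mat hσ]
        rfl
      rw [h3, star_mul, star_mul, star_star]
      have hu := mem_unitaryGroup_iff'.1 u.2
      calc _ = u.1 * (mt g).map σ * 1 * P.1.map σ * 1 * star ((mt g).map σ) * star u.1 := by
            simp only [Matrix.mul_one, Matrix.mul_assoc]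
        _ = _ := by
            rw [← hu]
            simp only [Matrix.mul_assoc]
    show cj (g'.1⁻¹ * (τ g).1) (f P) = f P
    rw [cj_mul, h2, cj_inv_cj]
  obtain ⟨l, hl⟩ := scal_of_fix hq hK hs h1
  have h4 : ε (g'⁻¹ * τ g) = 1 := (ker _).2 ⟨l, hl⟩
  rw [hF.tau, map_mul, map_inv, inv_mul_eq_one] at *
  exact h4.symm

end main

end Vale.Agent.P240.R2.H651
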