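import Vale.Agent.P240.R2.H651.Nil
import Vale.Agent.P240.R2.H651.Grp3

/-!
AUT for a general subgroup `S` of a unitary group `GU K n`, any star: an element that normalises the
image of `S` modulo scalars and maps the image of one reflection to the image of a reflection acts by
a semilinear map, provided that `S` is transitive on the letters, transitive on the pairs of letters
with a given angle `≠ 1`, and Wigner's theorem holds for the letters.
-/

set_option autoImplicit false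
set_option linter.unusedSectionVars false

namespace Vale.Agent.P240.R2.H651

open Finset Matrix Vale.Agent.P240.R2.AS
open scoped Classical

universe u v

section gen

variable {K : Type u} [Field K] [Fintype K] [StarRing K] {n : ℕ} {ζ c ζ' c' : K}
variable {G : Type v} [Group G] {S : Subgroup (GU K n)} {ε : S →* G} {e e' : Ln K n → S}

/-- the letters, as elements of `S` -/
structure Ev (ζ c : K) (e : Ln K n → S) : Prop where
  z1 : ζ ≠ 1
  z0 : ζ ≠ 0
  c0 : c ≠ 0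
  val : ∀ P, (e P).1.1 = c • (1 + (ζ - 1) • P.1)

/-- the kernel consists of the scalars -/
def Ker (ε : S →* G) : Prop :=
  ∀ g : S, ε g = 1 ↔ ∃ l : K, g.1.1 = l • (1 : Matrix (Fin n) (Fin n) K)

lemma S_mul (a b : S) : (a * b).1.1 = a.1.1 * b.1.1 := rfl

lemma S_inv (a : S) : (a⁻¹).1.1 = star a.1.1 := rfl

lemma S_star_mul (a : S) : star a.1.1 * a.1.1 = 1 := mem_unitaryGroup_iff'.1 a.1.2

lemma S_mul_star (a : S) : a.1.1 * star a.1.1 = 1 := mem_unitaryGroup_iff.1 a.1.2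

lemma S_ext {a b : S} (h : a.1.1 = b.1.1) : a = b := Subtype.ext (Subtype.ext h)

lemma Ker.eq (ker : Ker ε) {a b : S} (h : ε a = ε b) : ∃ l : K, a.1.1 = l • b.1.1 := by
  have h1 : ε (a * b⁻¹) = 1 := by rw [map_mul, map_inv, h, mul_inv_cancel]
  obtain ⟨l, hl⟩ := (ker _).1 h1
  refine ⟨l, ?_⟩
  have h2 : a.1.1 = (a * b⁻¹).1.1 * b.1.1 := by
    rw [← S_mul, inv_mul_cancel_right]
  rw [h2, hl, Matrix.smul_mul, Matrix.one_mul]

lemma Ev.cj (he : Ev ζ c e) (g : S) (P : Ln K n) : g * e P * g⁻¹ = e (cj g.1 P) := by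
  apply S_ext
  rw [S_mul, S_mul, S_inv, he.val, he.val, cj_val, Matrix.mul_smul, Matrix.smul_mul,
    Matrix.mul_add, Matrix.add_mul, Matrix.mul_one, S_mul_star, Matrix.mul_smul, Matrix.smul_mul]

lemma Ev.inj (he : Ev ζ c e) (hn : 3 ≤ n) (ker : Ker ε) {P Q : Ln K n}
    (h : ε (e P) = ε (e Q)) : P = Q := by
  obtain ⟨l, hl⟩ := ker.eq h
  rw [he.val, he.val] at hl
  obtain ⟨v, hv0, hv⟩ := exists_perp [P, Q] (by simp; omega)
  have hP := hv P (by simp)
  have hQ := hv Q (by simp)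
  have h1 := congrArg (fun M => M *ᵥ v) hl
  simp only [smul_mulVec, add_mulVec, one_mulVec, hP, hQ, smul_zero, add_zero, smul_smul] at h1
  have h2 : c = l * c := by
    by_contra hne
    have h3 : (c - l * c) • v = 0 := by rw [sub_smul, h1, sub_self]
    rcases smul_eq_zero.1 h3 with h4 | h4
    · exact hne (sub_eq_zero.1 h4)
    · exact hv0 h4
  rw [smul_smul, ← h2] at hl
  have h5 := congrArg (fun M => c⁻¹ • M) hl
  simp only [smul_smul, inv_mul_cancel₀ he.c0, one_smul] at h5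
  have h6 := add_left_cancel h5
  have h7 := congrArg (fun M => (ζ - 1)⁻¹ • M) h6
  simp only [smul_smul, inv_mul_cancel₀ (sub_ne_zero.2 he.z1), one_smul] at h7
  exact Subtype.ext h7

lemma Ev.comm (he : Ev ζ c e) {P Q : Ln K n} (ho : P.1 * Q.1 = 0) :
    ε (e P) * ε (e Q) = ε (e Q) * ε (e P) := by
  have key : ∀ A B : Matrix (Fin n) (Fin n) K, A * B = 0 →
      (1 + (ζ - 1) • A) * (1 + (ζ - 1) • B) = 1 + (ζ - 1) • B + (ζ - 1) • A := by
    intro A B hAB
    rw [Matrix.add_mul, Matrix.one_mul, Matrix.mul_add, Matrix.mul_one, smul_mul_smul_comm, hAB,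
      smul_zero, add_zero]
  rw [← map_mul, ← map_mul]
  refine congrArg ε (S_ext ?_)
  rw [S_mul, S_mul, he.val, he.val, smul_mul_smul_comm, smul_mul_smul_comm, key _ _ ho,
    key _ _ (ln_symm ho), add_assoc, add_comm ((ζ - 1) • Q.1), ← add_assoc]

lemma Ev.of_comm (he : Ev ζ c e) (hn : 3 ≤ n) (ker : Ker ε) {P Q : Ln K n}
    (h : ε (e P) * ε (e Q) = ε (e Q) * ε (e P)) : P = Q ∨ P.1 * Q.1 = 0 := by
  rw [← map_mul, ← map_mul] at h
  obtain ⟨l, hl⟩ := ker.eq h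
  rw [S_mul, S_mul, he.val, he.val] at hl
  obtain ⟨v, hv0, hv⟩ := exists_perp [P, Q] (by simp; omega)
  have hP := hv P (by simp)
  have hQ := hv Q (by simp)
  have hP2 : (1 + (ζ - 1) • P.1) *ᵥ v = v := by
    rw [add_mulVec, one_mulVec, smul_mulVec, hP, smul_zero, add_zero]
  have hQ2 : (1 + (ζ - 1) • Q.1) *ᵥ v = v := by
    rw [add_mulVec, one_mulVec, smul_mulVec, hQ, smul_zero, add_zero]
  rw [smul_mul_smul_comm, smul_mul_smul_comm, smul_smul] at hl
  have h1 := congrArg (fun M => M *ᵥ v) hl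
  simp only [smul_mulVec, ← mulVec_mulVec, hP2, hQ2] at h1
  have hcc : c * c ≠ 0 := mul_ne_zero he.c0 he.c0
  have h2 : c * c = l * (c * c) := by
    by_contra hne
    have h3 : (c * c - l * (c * c)) • v = 0 := by rw [sub_smul, h1, sub_self]
    rcases smul_eq_zero.1 h3 with h4 | h4
    · exact hne (sub_eq_zero.1 h4)
    · exact hv0 h4
  rw [← h2] at hl
  have h5 := congrArg (fun M => (c * c)⁻¹ • M) hl
  simp only [smul_smul, inv_mul_cancel₀ hcc, one_smul] at h5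
  apply comm_lines
  have hz : ζ - 1 ≠ 0 := sub_ne_zero.2 he.z1
  simp only [Matrix.smul_mul, Matrix.mul_smul, Matrix.add_mul, Matrix.mul_add, Matrix.one_mul,
    Matrix.mul_one, smul_add] at h5
  have h6 : (ζ - 1) • (ζ - 1) • (P.1 * Q.1) = (ζ - 1) • (ζ - 1) • (Q.1 * P.1) := by
    have h7 : ∀ A B C D : Matrix (Fin n) (Fin n) K, 1 + A + (B + C) = 1 + B + (A + D) → C = D := by
      intro A B C D h8
      have h9 : C = (1 + A + (B + C)) - 1 - A - B := by abel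
      rw [h9, h8]
      abel
    exact h7 _ _ _ _ h5
  have h8 := congrArg (fun M => ((ζ - 1) * (ζ - 1))⁻¹ • M) h6
  simp only [smul_smul] at h8
  have hzz : (ζ - 1) * (ζ - 1) ≠ 0 := mul_ne_zero hz hz
  rw [inv_mul_cancel₀ hzz, one_smul, one_smul] at h8
  exact h8

lemma Ev.inv (he : Ev ζ c e) (Q : Ln K n) :
    star (e Q).1.1 = c⁻¹ • (1 + (ζ⁻¹ - 1) • Q.1) := by
  have h1 : (c⁻¹ • (1 + (ζ⁻¹ - 1) • Q.1)) * (e Q).1.1 = 1 := by
    have h2 : (ζ⁻¹ - 1) + (ζ - 1) + (ζ⁻¹ - 1) * (ζ - 1) = 0 := by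
      have := he.z0
      field_simp
      ring
    rw [he.val, smul_mul_smul_comm, inv_mul_cancel₀ he.c0, one_smul, Matrix.add_mul,
      Matrix.mul_add, Matrix.mul_add, Matrix.one_mul, Matrix.mul_one, Matrix.one_mul,
      smul_mul_smul_comm, ln_idem]
    calc 1 + (ζ - 1) • Q.1 + ((ζ⁻¹ - 1) • Q.1 + ((ζ⁻¹ - 1) * (ζ - 1)) • Q.1)
        = 1 + ((ζ⁻¹ - 1) + (ζ - 1) + (ζ⁻¹ - 1) * (ζ - 1)) • Q.1 := by module
      _ = 1 := by rw [h2, zero_smul, add_zero]
  calc star (e Q).1.1 = ((c⁻¹ • (1 + (ζ⁻¹ - 1) • Q.1)) * (e Q).1.1) * star (e Q).1.1 := by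
        rw [h1, Matrix.one_mul]
    _ = _ := by rw [Matrix.mul_assoc, S_mul_star, Matrix.mul_one]

lemma Ev.div (he : Ev ζ c e) (P Q : Ln K n) :
    (e P * (e Q)⁻¹).1.1 = AA (ζ - 1) (ζ⁻¹ - 1) P Q := by
  rw [S_mul, S_inv, he.inv, he.val, smul_mul_smul_comm, mul_inv_cancel₀ he.c0, one_smul, AA]

lemma S_pow (a : S) (m : ℕ) : (a ^ m).1.1 = a.1.1 ^ m := by
  induction m with
  | zero => rfl
  | succ m ih => rw [pow_succ, pow_succ, S_mul, ih]

lemma Ev.pow (he : Ev ζ c e) (hn : 3 ≤ n) (ker : Ker ε) (r : ℕ) [Fact r.Prime] [CharP K r]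
    (P Q : Ln K n) : (ε (e P) * (ε (e Q))⁻¹) ^ (r ^ 2) = 1 ↔ (P.1 * Q.1).trace = 1 := by
  have hab : (ζ - 1) + (ζ⁻¹ - 1) + (ζ - 1) * (ζ⁻¹ - 1) = 0 := by
    have := he.z0
    field_simp
    ring
  rw [← AA_pow (by omega) r hab (sub_ne_zero.2 he.z1) P Q, ← map_inv, ← map_mul, ← map_pow, ker,
    S_pow, he.div]
  constructor
  · rintro ⟨l, hl⟩
    obtain ⟨v, hv0, hv⟩ := exists_perp [P, Q] (by simp; omega)
    have hP := hv P (by simp)
    have hQ := hv Q (by simp)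
    have hP2 : (1 + (ζ - 1) • P.1) *ᵥ v = v := by
      rw [add_mulVec, one_mulVec, smul_mulVec, hP, smul_zero, add_zero]
    have hQ2 : (1 + (ζ⁻¹ - 1) • Q.1) *ᵥ v = v := by
      rw [add_mulVec, one_mulVec, smul_mulVec, hQ, smul_zero, add_zero]
    have h1 : AA (ζ - 1) (ζ⁻¹ - 1) P Q *ᵥ v = v := by
      rw [AA, ← mulVec_mulVec, hQ2, hP2]
    have h2 : ∀ m : ℕ, AA (ζ - 1) (ζ⁻¹ - 1) P Q ^ m *ᵥ v = v := by
      intro m
      induction m with
      | zero => rw [pow_zero, one_mulVec]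
      | succ m ih => rw [pow_succ, ← mulVec_mulVec, h1, ih]
    have h3 := h2 (r ^ 2)
    rw [hl, smul_mulVec, one_mulVec] at h3
    have h4 : l = 1 := by
      by_contra hne
      have h5 : (l - 1) • v = 0 := by rw [sub_smul, one_smul, h3, sub_self]
      rcases smul_eq_zero.1 h5 with h6 | h6
      · exact hne (sub_eq_zero.1 h6)
      · exact hv0 h6
    rw [hl, h4, one_smul]
  · intro h
    exact ⟨1, by rw [h, one_smul]⟩

/-- the map on the letters -/
structure FM (ε : S →* G) (e e' : Ln K n → S) (x : G) (f : Ln K n → Ln K n) (τ : S → S) :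
    Prop where
  tau : ∀ g, x * ε g * x⁻¹ = ε (τ g)
  line : ∀ P, x * ε (e P) * x⁻¹ = ε (e' (f P))
  equi : ∀ (g : S) (P : Ln K n), f (cj g.1 P) = cj (τ g).1 (f P)
  inj : Function.Injective f
  orth : ∀ P Q : Ln K n, (f P).1 * (f Q).1 = 0 ↔ P.1 * Q.1 = 0
  one : ∀ P Q : Ln K n, ((f P).1 * (f Q).1).trace = 1 ↔ (P.1 * Q.1).trace = 1

theorem exists_FM (he : Ev ζ c e) (he' : Ev ζ' c' e') (hn : 3 ≤ n) (ker : Ker ε)
    (r : ℕ) [Fact r.Prime] [CharP K r]
    (hT : ∀ P Q : Ln K n, ∃ g : S, H651.cj g.1 P = Q)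
    (x : G) (hx : ∀ g, ∃ g', x * ε g * x⁻¹ = ε g') {P0 Q0 : Ln K n}
    (h0 : x * ε (e P0) * x⁻¹ = ε (e' Q0)) : ∃ f τ, FM ε e e' x f τ := by
  choose τ hτ using hx
  have key : ∀ (g : S) (P Q : Ln K n), x * ε (e P) * x⁻¹ = ε (e' Q) →
      x * ε (e (H651.cj g.1 P)) * x⁻¹ = ε (e' (H651.cj (τ g).1 Q)) := by
    intro g P Q hPQ
    rw [← he.cj, ← he'.cj, map_mul, map_mul, map_mul, map_mul, map_inv, map_inv, ← hPQ, ← hτ]
    group
  have hex : ∀ P : Ln K n, ∃ Q : Ln K n, x * ε (e P) * x⁻¹ = ε (e' Q) := by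
    intro P
    obtain ⟨g, hg⟩ := hT P0 P
    refine ⟨H651.cj (τ g).1 Q0, ?_⟩
    rw [← hg]
    exact key g _ _ h0
  choose f hf using hex
  have hinj : Function.Injective f := by
    intro P Q hPQ
    apply he.inj hn ker
    have h1 := hf P
    rw [hPQ, ← hf Q] at h1
    exact mul_left_cancel (mul_right_cancel h1)
  refine ⟨f, τ, hτ, hf, fun g P => ?_, hinj, fun P Q => ?_, fun P Q => ?_⟩
  · exact he'.inj hn ker ((hf _).symm.trans (key g _ _ (hf P)))
  · have hcomm : ε (e P) * ε (e Q) = ε (e Q) * ε (e P) ↔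
        ε (e' (f P)) * ε (e' (f Q)) = ε (e' (f Q)) * ε (e' (f P)) := by
      rw [← hf P, ← hf Q]
      constructor
      · intro h1
        calc _ = x * (ε (e P) * ε (e Q)) * x⁻¹ := by group
          _ = x * (ε (e Q) * ε (e P)) * x⁻¹ := by rw [h1]
          _ = _ := by group
      · intro h1
        have h2 : x * (ε (e P) * ε (e Q)) * x⁻¹ = x * (ε (e Q) * ε (e P)) * x⁻¹ := by
          calc _ = x * ε (e P) * x⁻¹ * (x * ε (e Q) * x⁻¹) := by group
            _ = _ := h1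
            _ = _ := by group
        exact mul_left_cancel (mul_right_cancel h2)
    constructor
    · intro h1
      rcases he.of_comm hn ker (hcomm.2 (he'.comm h1)) with h2 | h2
      · subst h2
        rw [ln_idem] at h1
        exact absurd h1 (ln_ne _)
      · exact h2
    · intro h1
      rcases he'.of_comm hn ker (hcomm.1 (he.comm h1)) with h2 | h2
      · have h3 := hinj h2
        subst h3
        rw [ln_idem] at h1
        exact absurd h1 (ln_ne _)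
      · exact h2
  · rw [← he.pow hn ker r P Q, ← he'.pow hn ker r (f P) (f Q), ← hf P, ← hf Q]
    have h1 : (x * ε (e P) * x⁻¹ * (x * ε (e Q) * x⁻¹)⁻¹) ^ (r ^ 2) =
        x * (ε (e P) * (ε (e Q))⁻¹) ^ (r ^ 2) * x⁻¹ := by
      rw [← conj_pow]
      congr 1
      group
    rw [h1, mul_inv_eq_one]
    constructor
    · intro h2
      exact mul_left_cancel (h2.trans (mul_one x).symm)
    · intro h2
      rw [h2, mul_one]

/-- Wigner's theorem for the letters -/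
def Wg (K : Type u) [Field K] [StarRing K] (n : ℕ) : Prop :=
  ∀ (f : Ln K n → Ln K n) (κ : K → K),
    (∀ P Q : Ln K n, ((f P).1 * (f Q).1).trace = κ (P.1 * Q.1).trace) →
    (∀ i, f (E i) = E i) →
    ∃ (σ : K ≃+* K) (u : GU K n), (∀ a, σ (star a) = star (σ a)) ∧
      ∀ P : Ln K n, (f P).1 = u.1 * P.1.map σ * star u.1

lemma trace_cj' (g : GU K n) (P Q : Ln K n) :
    ((H651.cj g P).1 * (H651.cj g Q).1).trace = (P.1 * Q.1).trace := by
  rw [cj_val, cj_val]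
  have h := mem_unitaryGroup_iff'.1 g.2
  calc (g.1 * P.1 * star g.1 * (g.1 * Q.1 * star g.1)).trace
      = (g.1 * P.1 * (star g.1 * g.1) * Q.1 * star g.1).trace := by
        simp only [Matrix.mul_assoc]
    _ = (g.1 * (P.1 * Q.1 * star g.1)).trace := by
        rw [h]; simp only [Matrix.mul_assoc, Matrix.one_mul]
    _ = (P.1 * Q.1 * star g.1 * g.1).trace := trace_mul_comm _ _
    _ = _ := by rw [Matrix.mul_assoc, h, Matrix.mul_one]

lemma FM.kappa {x : G} {f : Ln K n → Ln K n} {τ : S → S} (hF : FM ε e e' x f τ)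
    (hM : ∀ P Q P' Q' : Ln K n, (P.1 * Q.1).trace = (P'.1 * Q'.1).trace →
      (P.1 * Q.1).trace ≠ 1 → ∃ g : S, H651.cj g.1 P = P' ∧ H651.cj g.1 Q = Q') :
    ∃ κ : K → K, ∀ P Q : Ln K n, ((f P).1 * (f Q).1).trace = κ (P.1 * Q.1).trace := by
  refine ⟨fun a => if h : ∃ p : Ln K n × Ln K n, (p.1.1 * p.2.1).trace = a then
    ((f h.choose.1).1 * (f h.choose.2).1).trace else 0, fun P Q => ?_⟩
  have h : ∃ p : Ln K n × Ln K n, (p.1.1 * p.2.1).trace = (P.1 * Q.1).trace := ⟨(P, Q), rfl⟩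
  show _ = dite _ _ _
  rw [dif_pos h]
  have h1 := h.choose_spec
  by_cases h2 : (P.1 * Q.1).trace = 1
  · rw [(hF.one _ _).2 h2, (hF.one _ _).2 (h1.trans h2)]
  · obtain ⟨g, hg1, hg2⟩ := hM P Q h.choose.1 h.choose.2 h1.symm h2
    conv_rhs => rw [← hg1, ← hg2]
    rw [hF.equi, hF.equi, trace_cj']

/-- an orthogonal family of letters is the image of the standard one -/
lemma exists_U {P : Fin n → Ln K n} (h : ∀ i j, i ≠ j → (P i).1 * (P j).1 = 0) :
    ∃ U : GU K n, ∀ i, H651.cj U (E i) = P i := by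
  have ho : Orth (List.ofFn P) := by
    refine List.pairwise_ofFn.2 ?_
    intro i j hij
    exact h i j hij.ne
  obtain ⟨g, hg⟩ := H715.exists_fr (w := List.ofFn P) (by simp) ho
  refine ⟨g, fun i => ?_⟩
  have h1 := List.ofFn_injective hg
  rw [← h1]
  apply Subtype.ext
  rw [cj_val, E_val, single_proj, mul_vecMulVec, vecMulVec_mul, star_eq_conjTranspose,
    ← star_mulVec, mulVec_single_one]
  rfl

lemma FM.formula {x : G} {f : Ln K n → Ln K n} {τ : S → S} (hF : FM ε e e' x f τ)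
    (hM : ∀ P Q P' Q' : Ln K n, (P.1 * Q.1).trace = (P'.1 * Q'.1).trace →
      (P.1 * Q.1).trace ≠ 1 → ∃ g : S, H651.cj g.1 P = P' ∧ H651.cj g.1 Q = Q')
    (hW : Wg K n) : ∃ (σ : K ≃+* K) (u : GU K n), (∀ a, σ (star a) = star (σ a)) ∧
      ∀ P : Ln K n, (f P).1 = u.1 * P.1.map σ * star u.1 := by
  obtain ⟨κ, hκ⟩ := hF.kappa hM
  obtain ⟨U, hU⟩ := exists_U (P := fun i => f (E i)) (fun i j hij => by
    refine (hF.orth _ _).2 ?_
    rw [E_val, E_val, single_mul_single_of_ne _ _ _ _ hij])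
  obtain ⟨σ, u, hσ, hu⟩ := hW (fun P => H651.cj U⁻¹ (f P)) κ (fun P Q => by
    rw [trace_cj', hκ]) (fun i => by rw [← hU i, cj_inv_cj])
  refine ⟨σ, U * u, hσ, fun P => ?_⟩
  have h1 : f P = H651.cj U (H651.cj U⁻¹ (f P)) := by
    rw [← cj_mul, mul_inv_cancel, cj_one]
  have h2 : (U * u).1 = U.1 * u.1 := rfl
  rw [h1, cj_val, hu, h2, star_mul]
  simp only [Matrix.mul_assoc]

theorem FM.acts {x : G} {f : Ln K n → Ln K n} {τ : S → S} (hF : FM ε e e' x f τ) (ker : Ker ε)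
    (hsc : ∀ g : GU K n, (∀ Q : Ln K n, H651.cj g Q = Q) →
      ∃ l : K, g.1 = l • (1 : Matrix (Fin n) (Fin n) K))
    (hsurj : Function.Surjective f)
    {σ : K ≃+* K} (hσ : ∀ a, σ (star a) = star (σ a)) (u : GU K n)
    (hf : ∀ P, (f P).1 = u.1 * P.1.map σ * star u.1) (g g' : S)
    (hg : g'.1.1 = u.1 * g.1.1.map σ * star u.1) : x * ε g * x⁻¹ = ε g' := by
  have h1 : ∀ Q : Ln K n, H651.cj (g'⁻¹ * τ g).1 Q = Q := by
    intro Q
    obtain ⟨P, rfl⟩ := hsurj Q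
    have h2 : H651.cj (τ g).1 (f P) = H651.cj g'.1 (f P) := by
      rw [← hF.equi]
      apply Subtype.ext
      rw [hf, cj_val, cj_val, hf, hg]
      have h3 : (g.1.1 * P.1 * star g.1.1).map σ =
          (g.1.1).map σ * P.1.map σ * star ((g.1.1).map σ) := by
        rw [Matrix.map_mul, Matrix.map_mul, map_star_mat hσ]
      rw [h3, star_mul, star_mul, star_star]
      have hu := mem_unitaryGroup_iff'.1 u.2
      calc _ = u.1 * (g.1.1).map σ * 1 * P.1.map σ * 1 * star ((g.1.1).map σ) * star u.1 := by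
            simp only [Matrix.mul_one, Matrix.mul_assoc]
        _ = _ := by
            rw [← hu]
            simp only [Matrix.mul_assoc]
    show H651.cj (g'.1⁻¹ * (τ g).1) (f P) = f P
    rw [cj_mul, h2, cj_inv_cj]
  obtain ⟨l, hl⟩ := hsc _ h1
  have h4 : ε (g'⁻¹ * τ g) = 1 := (ker _).2 ⟨l, hl⟩
  rw [map_mul, map_inv, inv_mul_eq_one] at h4
  rw [hF.tau, ← h4]

/-- the general theorem -/
theorem gen_acts (he : Ev ζ c e) (he' : Ev ζ' c' e') (hn : 3 ≤ n) (ker : Ker ε)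
    (hT : ∀ P Q : Ln K n, ∃ g : S, H651.cj g.1 P = Q)
    (hM : ∀ P Q P' Q' : Ln K n, (P.1 * Q.1).trace = (P'.1 * Q'.1).trace →
      (P.1 * Q.1).trace ≠ 1 → ∃ g : S, H651.cj g.1 P = P' ∧ H651.cj g.1 Q = Q')
    (hW : Wg K n)
    (hsc : ∀ g : GU K n, (∀ Q : Ln K n, H651.cj g Q = Q) →
      ∃ l : K, g.1 = l • (1 : Matrix (Fin n) (Fin n) K))
    (x : G) (hx : ∀ g, ∃ g', x * ε g * x⁻¹ = ε g') {P0 Q0 : Ln K n}
    (h0 : x * ε (e P0) * x⁻¹ = ε (e' Q0)) :
    ∃ (u : GU K n) (σ : K ≃+* K), (∀ a, σ (star a) = star (σ a)) ∧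
      ∀ g g' : S, g'.1.1 = u.1 * g.1.1.map σ * star u.1 → x * ε g * x⁻¹ = ε g' := by
  obtain ⟨r, hr⟩ := CharP.exists K
  have : Fact r.Prime := ⟨CharP.char_is_prime K r⟩
  obtain ⟨f, τ, hF⟩ := exists_FM he he' hn ker r hT x hx h0
  obtain ⟨σ, u, hσ, hu⟩ := hF.formula hM hW
  have : Finite (Ln K n) := Subtype.finite
  exact ⟨u, σ, hσ, hF.acts ker hsc (Finite.surjective_of_injective hF.inj) hσ u hu⟩

end gen

end Vale.Agent.P240.R2.H651
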