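import Vale.Agent.P240.R2.H651.Grp4
import Vale.Agent.P240.R2.H744.Trans

/-!
AUT-SU: an element that normalises the image of `SU_n(q)` modulo scalars and commutes with the
images of the reflections of a frame acts by a semilinear map.
-/

set_option autoImplicit false

namespace Vale.Agent.P240.R2.H651

open Finset Matrix Vale.Agent.P240.R2.AS Vale.Agent.P240.R2.H38
open scoped Classical

universe u v

variable {K : Type u} [Field K] [Fintype K] [StarRing K] {n q : ℕ} {ζ c : K}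
variable {G : Type v} [Group G] {ε : SU K n →* G}

lemma mv (hn : 3 ≤ n) (hq : 2 ≤ q) (hK : Nat.card K = q ^ 2) (hs : ∀ x : K, star x = x ^ q) :
    Mv K n := by
  intro P Q P' Q' h h1
  obtain ⟨g, hg1, hg2⟩ := H744.exists_move hq hK hs hn P Q P' Q' h h1
  exact ⟨g, Subtype.ext hg1, Subtype.ext hg2⟩

theorem acts_of_fix (hn : 3 ≤ n) (hq : 3 ≤ q) (hK : Nat.card K = q ^ 2)
    (hs : ∀ x : K, star x = x ^ q) (h1 : ζ ≠ 1) (hz : ζ * star ζ = 1) (hc : c * star c = 1)
    (hcn : c ^ n * ζ = 1)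
    (ker : ∀ g : SU K n, ε g = 1 ↔ ∃ c : K, mt g = c • (1 : Matrix (Fin n) (Fin n) K))
    (x : G) (hx : ∀ g, ∃ g', x * ε g * x⁻¹ = ε g') {w : List (Ln K n)} (hw : w ∈ Fr K n)
    (hfix : ∀ P ∈ w, x * ε (sW ζ c [P]) = ε (sW ζ c [P]) * x) :
    ∃ g σ, Acts ε x g σ :=
  acts_of_fix' ⟨h1, hz, hc, hcn⟩ hn hq hK hs (mv hn (by omega) hK hs) ker x hx hw hfix

end Vale.Agent.P240.R2.H651
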