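import Vale.Agent.P240.R2.AS.Stmts5
import Vale.Agent.P240.R2.H651.Grp5
import Vale.Agent.P240.R2.H651.Gen

/-!
`StmtINJ`: the centralizer of `PSU_n(q)` in `PΓU_n(q)` is trivial, `n ≥ 3`, all `q ≥ 3`.
-/

set_option autoImplicit false
set_option linter.unusedSectionVars false

namespace Vale.Agent.P240.R2.H651

open Finset Matrix Vale.Agent.P240.R2.AS
open scoped Classical

universe u v

section inj

variable {K : Type u} [Field K] [Fintype K] [StarRing K] {n q : ℕ} {a : K}

/-- the reflection with the eigenvalue `a` -/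
noncomputable def rf (ha : a * star a = 1) (P : Ln K n) : GU K n :=
  ⟨1 + (a - 1) • P.1, eU_aux ⟨ln_star P, ln_idem P, ha⟩⟩

lemma rf_val (ha : a * star a = 1) (P : Ln K n) : (rf ha P).1 = 1 + (a - 1) • P.1 := rfl

lemma rf_cj (ha : a * star a = 1) (g : GU K n) (P : Ln K n) :
    g * rf ha P * g⁻¹ = rf ha (cj g P) := by
  apply Subtype.ext
  show g.1 * (1 + (a - 1) • P.1) * star g.1 = 1 + (a - 1) • (g.1 * P.1 * star g.1)
  rw [Matrix.mul_add, Matrix.add_mul, Matrix.mul_one, mem_unitaryGroup_iff.1 g.2,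
    Matrix.mul_smul, Matrix.smul_mul]

lemma rf_det (ha : a * star a = 1) (P : Ln K n) : (rf ha P).1.det = a := by
  rw [rf_val, det_refl]

lemma rf_inv (ha : a * star a = 1) (P : Ln K n) : ((rf ha P)⁻¹).1 = 1 + (star a - 1) • P.1 := by
  show star (1 + (a - 1) • P.1) = _
  rw [star_add, star_one, star_smul, ln_star, star_sub, star_one]

/-- `r_P r_Q⁻¹` -/
noncomputable def RR (ha : a * star a = 1) (P Q : Ln K n) : GU K n := rf ha P * (rf ha Q)⁻¹

lemma RR_cj (ha : a * star a = 1) (g : GU K n) (P Q : Ln K n) :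
    g * RR ha P Q * g⁻¹ = RR ha (cj g P) (cj g Q) := by
  rw [RR, RR, ← rf_cj, ← rf_cj]
  group

lemma RR_mul (ha : a * star a = 1) (P Q T : Ln K n) : RR ha P Q * RR ha Q T = RR ha P T := by
  rw [RR, RR, RR]
  group

lemma RR_det (ha : a * star a = 1) (P Q : Ln K n) : (RR ha P Q).1.det = 1 := by
  show ((rf ha P).1 * ((rf ha Q)⁻¹).1).det = 1
  rw [det_mul, rf_det]
  have h : ((rf ha Q)⁻¹).1.det = star a := by
    show (star (rf ha Q).1).det = _
    rw [star_eq_conjTranspose, det_conjTranspose, rf_det]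
  rw [h, ha]

lemma RR_val (ha : a * star a = 1) {P Q : Ln K n} (h : P.1 * Q.1 = 0) :
    (RR ha P Q).1 = 1 + (a - 1) • P.1 + (star a - 1) • Q.1 := by
  show (rf ha P).1 * ((rf ha Q)⁻¹).1 = _
  rw [rf_inv, rf_val, Matrix.add_mul, Matrix.mul_add, Matrix.mul_add, Matrix.one_mul,
    Matrix.mul_one, Matrix.one_mul, smul_mul_smul_comm, h, smul_zero, add_zero]
  abel

/-- a matrix commuting with the reflections is scalar -/
lemma center_scal' (ha : a * star a = 1) (ha1 : a ≠ 1)
    (hsc : ∀ g : GU K n, (∀ Q : Ln K n, cj g Q = Q) →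
      ∃ l : K, g.1 = l • (1 : Matrix (Fin n) (Fin n) K)) (g : GU K n) :
    (QuotientGroup.mk g : PGU K n) = 1 ↔ ∃ l : K, g.1 = l • (1 : Matrix (Fin n) (Fin n) K) := by
  rw [QuotientGroup.eq_one_iff, Subgroup.mem_center_iff]
  constructor
  · intro h
    apply hsc
    intro Q
    have h3 := h (rf ha Q)
    have h4 : g * rf ha Q * g⁻¹ = rf ha Q := by rw [← h3, mul_inv_cancel_right]
    rw [rf_cj] at h4
    have h5 := congrArg Subtype.val h4
    rw [rf_val, rf_val] at h5
    have h6 := add_left_cancel h5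
    exact Subtype.ext (smul_right_injective _ (sub_ne_zero.2 ha1) h6)
  · rintro ⟨l, hl⟩ b
    apply Subtype.ext
    show b.1 * g.1 = g.1 * b.1
    rw [hl, Matrix.mul_smul, Matrix.smul_mul, Matrix.mul_one, Matrix.one_mul]

/-- every letter is part of an orthogonal triple -/
lemma exists_triple (hq : 2 ≤ q) (hK : Nat.card K = q ^ 2) (hs : ∀ x : K, star x = x ^ q)
    (hn : 3 ≤ n) (Q : Ln K n) : ∃ P T : Ln K n, P.1 * Q.1 = 0 ∧ P.1 * T.1 = 0 ∧ Q.1 * T.1 = 0 := by
  obtain ⟨m, rfl⟩ : ∃ m, n = m + 1 := ⟨n - 1, by omega⟩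
  obtain ⟨U, hU⟩ := exists_unit hq hK hs m Q
  have key : ∀ i j : Fin (m + 1), i ≠ j → (cj U (E i)).1 * (cj U (E j)).1 = 0 := by
    intro i j hij
    rw [cj_val, cj_val]
    have h := mem_unitaryGroup_iff'.1 U.2
    calc U.1 * (E i : Ln K (m + 1)).1 * star U.1 * (U.1 * (E j : Ln K (m + 1)).1 * star U.1)
        = U.1 * ((E i : Ln K (m + 1)).1 * (star U.1 * U.1) * (E j : Ln K (m + 1)).1) *
          star U.1 := by simp only [Matrix.mul_assoc]
      _ = 0 := by
        rw [h, Matrix.mul_one, E_val, E_val, single_mul_single_of_ne _ _ _ _ hij,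
          Matrix.mul_zero, Matrix.zero_mul]
  refine ⟨cj U (E ⟨0, by omega⟩), cj U (E ⟨1, by omega⟩), ?_, key _ _ ?_, ?_⟩
  · rw [← hU]
    apply key
    intro h
    have := congrArg Fin.val h
    simp at this
    omega
  · intro h
    have := congrArg Fin.val h
    simp at this
  · rw [← hU]
    apply key
    intro h
    have := congrArg Fin.val h
    simp at this
    omega

/-- the twisted conjugation -/
noncomputable def Ph (g : GU K n) (σ : SA K) : GU K n →* GU K n :=
  (MulAut.conj g).toMonoidHom.comp (mapGU σ)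

lemma Ph_val (g : GU K n) (σ : SA K) (h : GU K n) :
    (Ph g σ h).1 = g.1 * h.1.map σ.1 * star g.1 := rfl

variable {g : GU K n} {σ : SA K}

lemma lam_conj (hn : 0 < n) {k h : GU K n} {κ l : K} (hk : (Ph g σ k).1 = κ • k.1)
    (hh : (Ph g σ h).1 = l • h.1) : (Ph g σ (k * h * k⁻¹)).1 = l • (k * h * k⁻¹).1 := by
  have h1 : κ * star κ = 1 := by
    have h2 := mem_unitaryGroup_iff.1 (Ph g σ k).2
    rw [hk, star_smul, smul_mul_smul_comm, mem_unitaryGroup_iff.1 k.2] at h2
    have h3 := congrFun (congrFun h2 ⟨0, hn⟩) ⟨0, hn⟩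
    rw [Matrix.smul_apply, Matrix.one_apply_eq, smul_eq_mul, mul_one] at h3
    exact h3
  rw [map_mul, map_mul, map_inv]
  show (Ph g σ k).1 * (Ph g σ h).1 * star (Ph g σ k).1 = l • (k.1 * h.1 * star k.1)
  rw [hk, hh, star_smul, smul_mul_smul_comm, smul_mul_smul_comm]
  congr 1
  linear_combination l * h1

lemma cj_eq_of {k : GU K n} {P P' : Ln K n} (h : k.1 * P.1 * star k.1 = P'.1) : cj k P = P' :=
  Subtype.ext h

/-- the multiplier of `R(P, Q)` is `1` -/
lemma lam_one (hq : 3 ≤ q) (hK : Nat.card K = q ^ 2) (hs : ∀ x : K, star x = x ^ q)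
    (hn : 3 ≤ n) (ha : a * star a = 1)
    (key : ∀ h : GU K n, h.1.det = 1 → ∃ l : K, (Ph g σ h).1 = l • h.1)
    {P Q T : Ln K n} (h1 : P.1 * Q.1 = 0) (h2 : P.1 * T.1 = 0) (h3 : Q.1 * T.1 = 0) :
    Ph g σ (RR ha P Q) = RR ha P Q := by
  obtain ⟨l, hl⟩ := key _ (RR_det ha P Q)
  have mv : ∀ P' Q' : Ln K n, P'.1 * Q'.1 = 0 →
      (Ph g σ (RR ha P' Q')).1 = l • (RR ha P' Q').1 := by
    intro P' Q' h4
    obtain ⟨k, hk1, hk2⟩ := H744.exists_move (by omega) hK hs hn P Q P' Q' (by rw [h1, h4])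
      (by rw [h1]; simp)
    obtain ⟨κ, hκ⟩ := key k.1 k.2
    have h5 := lam_conj (by omega) hκ hl
    rwa [RR_cj, cj_eq_of hk1, cj_eq_of hk2] at h5
  have h4 := mv P T h2
  have h5 := mv Q T h3
  have h6 : (Ph g σ (RR ha P T)).1 = (Ph g σ (RR ha P Q)).1 * (Ph g σ (RR ha Q T)).1 := by
    rw [← RR_mul ha P Q T, map_mul]
    rfl
  have h7 : (RR ha P T).1 = (RR ha P Q).1 * (RR ha Q T).1 := by
    rw [← RR_mul ha P Q T]
    rfl
  rw [h4, hl, h5, smul_mul_smul_comm, ← h7] at h6
  have hdet : (RR ha P T).1.det ≠ 0 := by rw [RR_det]; exact one_ne_zero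
  have hne : (RR ha P T).1 ≠ 0 := by
    intro h
    have : Nonempty (Fin n) := ⟨⟨0, by omega⟩⟩
    rw [h, det_zero] at hdet
    exact hdet rfl
  have h8 : l = l * l := by
    have h9 : (l - l * l) • (RR ha P T).1 = 0 := by rw [sub_smul, h6, sub_self]
    rcases smul_eq_zero.1 h9 with h10 | h10
    · exact sub_eq_zero.1 h10
    · exact absurd h10 hne
  have hl0 : l ≠ 0 := by
    rintro rfl
    rw [zero_smul] at hl
    have h9 := mem_unitaryGroup_iff.1 (Ph g σ (RR ha P Q)).2
    rw [hl, Matrix.zero_mul] at h9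
    have h10 := congrFun (congrFun h9 ⟨0, by omega⟩) ⟨0, by omega⟩
    rw [Matrix.one_apply_eq, Matrix.zero_apply] at h10
    exact zero_ne_one h10
  have hl1 : l = 1 := by
    have h9 : l * (l - 1) = 0 := by linear_combination -h8
    exact sub_eq_zero.1 ((mul_eq_zero.1 h9).resolve_left hl0)
  apply Subtype.ext
  rw [hl, hl1, one_smul]

/-- the twisted image of a letter -/
noncomputable def fL (g : GU K n) (σ : SA K) (P : Ln K n) : Ln K n :=
  cj g ⟨P.1.map σ.1, by
    obtain ⟨x, hx, h⟩ := P.2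
    refine ⟨fun i => σ.1 (x i), ?_, ?_⟩
    · have h1 := congrArg σ.1 hx
      rw [map_one] at h1
      rw [← h1]
      simp only [dotProduct, map_sum]
      refine Finset.sum_congr rfl fun i _ => ?_
      rw [map_mul, Pi.star_apply, Pi.star_apply, SA_star]
    · rw [h]
      ext i j
      rw [Matrix.map_apply, vecMulVec_apply, vecMulVec_apply, map_mul, Pi.star_apply,
        Pi.star_apply, SA_star]⟩

lemma fL_val (g : GU K n) (σ : SA K) (P : Ln K n) :
    (fL g σ P).1 = g.1 * P.1.map σ.1 * star g.1 := rfl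

lemma fL_mul (g : GU K n) (σ : SA K) {P Q : Ln K n} (h : P.1 * Q.1 = 0) :
    (fL g σ P).1 * (fL g σ Q).1 = 0 := by
  rw [fL_val, fL_val]
  have h1 := mem_unitaryGroup_iff'.1 g.2
  have h2 : P.1.map σ.1 * Q.1.map σ.1 = 0 := by
    rw [← Matrix.map_mul, h]
    exact Matrix.map_zero _ (map_zero _)
  calc g.1 * P.1.map σ.1 * star g.1 * (g.1 * Q.1.map σ.1 * star g.1)
      = g.1 * (P.1.map σ.1 * (star g.1 * g.1) * Q.1.map σ.1) * star g.1 := by
        simp only [Matrix.mul_assoc]
    _ = 0 := by rw [h1, Matrix.mul_one, h2, Matrix.mul_zero, Matrix.zero_mul]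

lemma Ph_RR (ha : a * star a = 1) {P Q : Ln K n} (h : P.1 * Q.1 = 0) :
    (Ph g σ (RR ha P Q)).1 = 1 + (σ.1 a - 1) • (fL g σ P).1 + (star (σ.1 a) - 1) • (fL g σ Q).1 := by
  have h1 := mem_unitaryGroup_iff.1 g.2
  rw [Ph_val, RR_val ha h, fL_val, fL_val]
  have h2 : (1 + (a - 1) • P.1 + (star a - 1) • Q.1).map σ.1 =
      1 + (σ.1 a - 1) • P.1.map σ.1 + (star (σ.1 a) - 1) • Q.1.map σ.1 := by
    ext i j
    simp only [Matrix.map_apply, Matrix.add_apply, Matrix.smul_apply, smul_eq_mul, map_add,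
      map_mul, map_sub, map_one, SA_star]
    congr 2
    by_cases hij : i = j
    · rw [hij, Matrix.one_apply_eq, map_one]
    · rw [Matrix.one_apply_ne hij, map_zero]
  rw [h2, Matrix.mul_add, Matrix.mul_add, Matrix.add_mul, Matrix.add_mul, Matrix.mul_one, h1,
    Matrix.mul_smul, Matrix.smul_mul, Matrix.mul_smul, Matrix.smul_mul]

lemma sum_eq (ha : a * star a = 1) (ha1 : a ≠ 1) {P Q T P' Q' T' : Ln K n}
    {b : K} (hb1 : b ≠ 1)
    (h3 : Q.1 * T.1 = 0) (h3' : Q'.1 * T'.1 = 0)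
    (e1 : 1 + (b - 1) • P'.1 + (star b - 1) • Q'.1 = 1 + (a - 1) • P.1 + (star a - 1) • Q.1)
    (e2 : 1 + (b - 1) • P'.1 + (star b - 1) • T'.1 = 1 + (a - 1) • P.1 + (star a - 1) • T.1) :
    Q'.1 + T'.1 = Q.1 + T.1 := by
  have hA : star a - 1 ≠ 0 := by
    intro h
    apply ha1
    have h1 : star a = 1 := sub_eq_zero.1 h
    rw [h1, mul_one] at ha
    exact ha
  have hB : star b - 1 ≠ 0 := by
    intro h
    apply hb1
    have h1 : star b = 1 := sub_eq_zero.1 h
    have h2 := congrArg star h1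
    rwa [star_star, star_one] at h2
  have e3 : (star b - 1) • (Q'.1 - T'.1) = (star a - 1) • (Q.1 - T.1) := by
    rw [smul_sub, smul_sub]
    have h1 : (star b - 1) • Q'.1 - (star b - 1) • T'.1 =
        (1 + (b - 1) • P'.1 + (star b - 1) • Q'.1) - (1 + (b - 1) • P'.1 + (star b - 1) • T'.1) := by
      abel
    rw [h1, e1, e2]
    abel
  have e4 : Q'.1 - T'.1 = ((star b - 1)⁻¹ * (star a - 1)) • (Q.1 - T.1) := by
    rw [mul_smul, ← e3, smul_smul, inv_mul_cancel₀ hB, one_smul]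
  set k : K := (star b - 1)⁻¹ * (star a - 1) with hk
  have hsq : ∀ A B : Ln K n, A.1 * B.1 = 0 → (A.1 - B.1) * (A.1 - B.1) = A.1 + B.1 := by
    intro A B h
    rw [Matrix.sub_mul, Matrix.mul_sub, Matrix.mul_sub, ln_idem, ln_idem, h, ln_symm h]
    abel
  have e5 : Q'.1 + T'.1 = (k * k) • (Q.1 + T.1) := by
    rw [← hsq _ _ h3', e4, smul_mul_smul_comm, hsq _ _ h3]
  have hid : ∀ A B : Ln K n, A.1 * B.1 = 0 → (A.1 + B.1) * (A.1 + B.1) = A.1 + B.1 := by
    intro A B h
    rw [Matrix.add_mul, Matrix.mul_add, Matrix.mul_add, ln_idem, ln_idem, h, ln_symm h]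
    abel
  have hk0 : k ≠ 0 := mul_ne_zero (inv_ne_zero hB) hA
  have hne : Q.1 + T.1 ≠ 0 := by
    intro h
    have h4 := congrArg (fun M => Q.1 * M) h
    simp only [Matrix.mul_add, ln_idem, h3, add_zero, Matrix.mul_zero] at h4
    exact ln_ne _ h4
  have e6 := hid _ _ h3'
  rw [e5, smul_mul_smul_comm, hid _ _ h3] at e6
  have e7 : (k * k) * (k * k) = k * k := by
    by_contra hcon
    have h4 : ((k * k) * (k * k) - k * k) • (Q.1 + T.1) = 0 := by rw [sub_smul, e6, sub_self]
    rcases smul_eq_zero.1 h4 with h5 | h5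
    · exact hcon (sub_eq_zero.1 h5)
    · exact hne h5
  have e8 : k * k = 1 := by
    have h4 : (k * k) * (k * k - 1) = 0 := by linear_combination e7
    exact sub_eq_zero.1 ((mul_eq_zero.1 h4).resolve_left (mul_ne_zero hk0 hk0))
  rw [e5, e8, one_smul]

/-- all letters are fixed -/
lemma fL_fix (hq : 3 ≤ q) (hK : Nat.card K = q ^ 2) (hs : ∀ x : K, star x = x ^ q)
    (hn : 3 ≤ n) (key : ∀ h : GU K n, h.1.det = 1 → ∃ l : K, (Ph g σ h).1 = l • h.1)
    (Q : Ln K n) : fL g σ Q = Q := by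
  obtain ⟨a, ha, hne⟩ := H744.exists_phase (by omega) hK hs
  have ha1 : a ≠ 1 := by
    rintro rfl
    exact hne (star_one K)
  have hb1 : σ.1 a ≠ 1 := by
    intro h
    apply ha1
    apply σ.1.injective
    rw [h, map_one]
  obtain ⟨P, T, hPQ, hPT, hQT⟩ := exists_triple (by omega) hK hs hn Q
  have hQP := ln_symm hPQ
  have hTP := ln_symm hPT
  have hTQ := ln_symm hQT
  have main : ∀ A B C : Ln K n, A.1 * B.1 = 0 → A.1 * C.1 = 0 → B.1 * C.1 = 0 →
      1 + (σ.1 a - 1) • (fL g σ A).1 + (star (σ.1 a) - 1) • (fL g σ B).1 =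
        1 + (a - 1) • A.1 + (star a - 1) • B.1 := by
    intro A B C h1 h2 h3
    rw [← Ph_RR ha h1, lam_one hq hK hs hn ha key h1 h2 h3, RR_val ha h1]
  have s1 : (fL g σ Q).1 + (fL g σ T).1 = Q.1 + T.1 :=
    sum_eq ha ha1 hb1 hQT (fL_mul g σ hQT) (main P Q T hPQ hPT hQT) (main P T Q hPT hPQ hTQ)
  have s2 : (fL g σ P).1 + (fL g σ Q).1 = P.1 + Q.1 :=
    sum_eq ha ha1 hb1 hPQ (fL_mul g σ hPQ) (main T P Q hTP hTQ hPQ) (main T Q P hTQ hTP hQP)
  apply Subtype.ext
  have h1 : (fL g σ Q).1 = ((fL g σ P).1 + (fL g σ Q).1) * ((fL g σ Q).1 + (fL g σ T).1) := by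
    rw [Matrix.add_mul, Matrix.mul_add, Matrix.mul_add, ln_idem, fL_mul g σ hPQ,
      fL_mul g σ hPT, fL_mul g σ hQT]
    abel
  rw [h1, s1, s2, Matrix.add_mul, Matrix.mul_add, Matrix.mul_add, ln_idem, hPQ, hPT, hQT]
  abel

lemma v2_dot {i j : Fin n} (hij : i ≠ j) (t : K) : star (v2 i j t) ⬝ᵥ (v2 i j t) = 1 + N t := by
  have := B_v2_self hij t
  rw [B] at this
  show ∑ k, star (v2 i j t k) * v2 i j t k = _
  exact this

/-- `σ` is trivial and `g` is a scalar -/
theorem trivial_of (hq : 3 ≤ q) (hK : Nat.card K = q ^ 2) (hs : ∀ x : K, star x = x ^ q)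
    (hn : 3 ≤ n) (hfix : ∀ Q : Ln K n, fL g σ Q = Q) :
    σ = 1 ∧ ∃ l : K, g.1 = l • (1 : Matrix (Fin n) (Fin n) K) := by
  have h01 : (⟨0, by omega⟩ : Fin n) ≠ ⟨1, by omega⟩ := by
    intro h
    have := congrArg Fin.val h
    simp at this
  set i : Fin n := ⟨0, by omega⟩ with hi
  set j : Fin n := ⟨1, by omega⟩ with hj
  -- the matrix `g` is diagonal
  have hE : ∀ i : Fin n, cj g (E i) = E i := by
    intro i
    apply Subtype.ext
    have h1 := congrArg Subtype.val (hfix (E i))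
    rw [fL_val, E_val] at h1
    have h2 : (single i i (1 : K)).map σ.1 = single i i 1 := by
      ext k l
      rw [Matrix.map_apply]
      by_cases h : i = k ∧ i = l
      · rw [single_apply, if_pos h, map_one]
      · rw [single_apply, if_neg h, map_zero]
    rw [h2] at h1
    exact h1
  have hoff : ∀ i j : Fin n, i ≠ j → g.1 i j = 0 := by
    intro i j hij
    have h1 := congrFun (congrFun (comm_of_cj (hE j)) i) j
    rw [E_val, Matrix.mul_apply, Matrix.mul_apply, Finset.sum_eq_single j,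
      Finset.sum_eq_single j, single_apply_same, mul_one,
      single_apply_of_row_ne (Ne.symm hij), zero_mul] at h1
    · exact h1
    · intro b _ hb
      rw [single_apply_of_row_ne (Ne.symm hij), zero_mul]
    · simp
    · intro b _ hb
      rw [single_apply_of_row_ne (Ne.symm hb), mul_zero]
    · simp
  have hent : ∀ (Q : Ln K n) (k l : Fin n),
      g.1 k k * σ.1 (Q.1 k l) * star (g.1 l l) = Q.1 k l := by
    intro Q k l
    have h1 := congrFun (congrFun (congrArg Subtype.val (hfix Q)) k) l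
    rw [fL_val, Matrix.mul_apply, Finset.sum_eq_single l] at h1
    · rw [Matrix.mul_apply, Finset.sum_eq_single k] at h1
      · exact h1
      · intro b _ hb
        rw [hoff k b (Ne.symm hb), zero_mul]
      · simp
    · intro b _ hb
      rw [Matrix.star_apply, hoff l b (Ne.symm hb), star_zero, mul_zero]
    · simp
  have hgg : ∀ k : Fin n, g.1 k k * star (g.1 k k) = 1 := by
    intro k
    have h1 := congrFun (congrFun (mem_unitaryGroup_iff.1 g.2) k) k
    rw [Matrix.mul_apply, Finset.sum_eq_single k, Matrix.star_apply, Matrix.one_apply_eq] at h1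
    · exact h1
    · intro b _ hb
      rw [hoff k b (Ne.symm hb), zero_mul]
    · simp
  have hdiag : ∀ (Q : Ln K n) (k : Fin n), σ.1 (Q.1 k k) = Q.1 k k := by
    intro Q k
    have h1 := hent Q k k
    have h2 := hgg k
    linear_combination h1 - σ.1 (Q.1 k k) * h2
  -- norms are fixed
  have hlet : ∀ t : K, 1 + N t ≠ 0 → ∃ (Q : Ln K n) (d : K), d ≠ 0 ∧ d * (1 + N t) = 1 ∧
      Q.1 i i = d ∧ Q.1 i j = d * star t := by
    intro t ht
    have hv : star (v2 i j t) ⬝ᵥ (v2 i j t) ≠ 0 := by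
      rw [v2_dot h01]
      exact ht
    obtain ⟨Q, a, ha, ha2, hQ⟩ := exists_line hK hs hv
    rw [v2_dot h01] at ha2
    refine ⟨Q, a * star a, mul_ne_zero ha (star_ne_zero.2 ha), ha2, ?_, ?_⟩
    · rw [hQ, Matrix.smul_apply, vecMulVec_apply, Pi.star_apply, v2_i, star_one, mul_one,
        smul_eq_mul, mul_one]
    · rw [hQ, Matrix.smul_apply, vecMulVec_apply, Pi.star_apply, v2_i, v2_j h01, one_mul,
        smul_eq_mul]
  have hN1 : ∀ t : K, σ.1 (N t) = N t := by
    intro t
    by_cases ht : 1 + N t = 0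
    · have h1 : N t = -1 := by linear_combination ht
      rw [h1, map_neg, map_one]
    · obtain ⟨Q, d, hd, hd2, hQ, _⟩ := hlet t ht
      have h1 := hdiag Q i
      rw [hQ] at h1
      have h2 := congrArg σ.1 hd2
      rw [map_mul, map_one, h1, map_add, map_one] at h2
      have h3 : d * (σ.1 (N t) - N t) = 0 := by linear_combination h2 - hd2
      exact sub_eq_zero.1 ((mul_eq_zero.1 h3).resolve_left hd)
  have hoffd : ∀ t : K, 1 + N t ≠ 0 →
      g.1 i i * star (g.1 j j) * σ.1 (star t) = star t := by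
    intro t ht
    obtain ⟨Q, d, hd, hd2, hQ1, hQ2⟩ := hlet t ht
    have h1 := hdiag Q i
    rw [hQ1] at h1
    have h2 := hent Q i j
    rw [hQ2, map_mul, h1] at h2
    have h3 : d * (g.1 i i * star (g.1 j j) * σ.1 (star t) - star t) = 0 := by
      linear_combination h2
    exact sub_eq_zero.1 ((mul_eq_zero.1 h3).resolve_left hd)
  obtain ⟨t, ht⟩ := exists_N_list hK hs [0, -1] (by simp; omega)
  have ht0 : t ≠ 0 := fun h => ht 0 (by simp) (by rw [h, N_zero])
  have ht1 : 1 + N t ≠ 0 := fun h => ht (-1) (by simp) (by linear_combination h)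
  have hw : ∀ w : K, w * star w = 1 → σ.1 w = w := by
    intro w hw
    have h1 := hoffd t ht1
    have h2 : N (t * star w) = N t := by
      rw [N, N, star_mul', star_star]
      linear_combination t * star t * hw
    have h3 := hoffd (t * star w) (by rw [h2]; exact ht1)
    rw [star_mul', star_star, map_mul] at h3
    have h4 : star t * (σ.1 w - w) = 0 := by linear_combination h3 - σ.1 w * h1
    exact sub_eq_zero.1 ((mul_eq_zero.1 h4).resolve_left (star_ne_zero.2 ht0))
  have hF : ∀ b : K, star b = b → σ.1 b = b := by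
    intro b hb
    by_cases hb0 : b = 0
    · rw [hb0, map_zero]
    obtain ⟨x, hx⟩ := exists_norm hK hs hb0 hb
    have h1 : b = N x := by rw [N, mul_comm, hx]
    rw [h1]
    exact hN1 x
  obtain ⟨w0, hw0, hne⟩ := H744.exists_phase (by omega) hK hs
  have hd0 : w0 - star w0 ≠ 0 := fun h => hne (sub_eq_zero.1 h).symm
  have hid : ∀ z : K, σ.1 z = z := by
    intro z
    have hb : star ((z - star z) / (w0 - star w0)) = (z - star z) / (w0 - star w0) := by
      rw [star_div₀, star_sub, star_sub, star_star, star_star, div_eq_div_iff, ← sub_eq_zero]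
      · ring
      · intro h
        apply hd0
        linear_combination -h
      · exact hd0
    have hz : z = (z - (z - star z) / (w0 - star w0) * w0) + (z - star z) / (w0 - star w0) * w0 := by
      ring
    have ha : star (z - (z - star z) / (w0 - star w0) * w0) =
        z - (z - star z) / (w0 - star w0) * w0 := by
      rw [star_sub, star_mul', hb]
      field_simp
      ring
    rw [hz, map_add, map_mul, hF _ ha, hF _ hb, hw w0 hw0]
  refine ⟨Subtype.ext (RingEquiv.ext hid), scal_of_fix hq hK hs fun Q => ?_⟩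
  have h1 := hfix Q
  apply Subtype.ext
  have h2 := congrArg Subtype.val h1
  rw [fL_val] at h2
  have h3 : Q.1.map σ.1 = Q.1 := by
    ext k l
    rw [Matrix.map_apply, hid]
  rw [h3] at h2
  exact h2

theorem inj_all (hq : 3 ≤ q) (hK : Nat.card K = q ^ 2) (hs : ∀ x : K, star x = x ^ q)
    (hn : 3 ≤ n) (x : PGamU K n) (hx : ∀ y ∈ PSU' K n, x * y = y * x) : x = 1 := by
  obtain ⟨g, hg⟩ := QuotientGroup.mk_surjective x.left
  obtain ⟨a, ha, hne⟩ := H744.exists_phase (by omega) hK hs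
  have ha1 : a ≠ 1 := by
    rintro rfl
    exact hne (star_one K)
  have hsc : ∀ g : GU K n, (∀ Q : Ln K n, cj g Q = Q) →
      ∃ l : K, g.1 = l • (1 : Matrix (Fin n) (Fin n) K) := fun g hg => scal_of_fix hq hK hs hg
  have key : ∀ h : GU K n, h.1.det = 1 → ∃ l : K, (Ph g x.right h).1 = l • h.1 := by
    intro h hh
    have h1 : (SemidirectProduct.inl (QuotientGroup.mk h : PGU K n) : PGamU K n) ∈ PSU' K n :=
      Subgroup.mem_map.2 ⟨QuotientGroup.mk h, Subgroup.mem_map.2 ⟨h, hh, rfl⟩, rfl⟩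
    have h2 := congrArg SemidirectProduct.left (hx _ h1)
    rw [SemidirectProduct.mul_left, SemidirectProduct.mul_left, SemidirectProduct.left_inl,
      SemidirectProduct.right_inl, map_one, MulAut.one_apply, ← hg] at h2
    have h3 : (QuotientGroup.mk (Ph g x.right h * h⁻¹) : PGU K n) = 1 := by
      have h4 : (QuotientGroup.mk (Ph g x.right h * h⁻¹) : PGU K n) =
          QuotientGroup.mk g * act n x.right (QuotientGroup.mk h) * (QuotientGroup.mk g)⁻¹ *
          (QuotientGroup.mk h)⁻¹ := rfl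
      rw [h4, h2]
      group
    obtain ⟨l, hl⟩ := (center_scal' ha ha1 hsc _).1 h3
    refine ⟨l, ?_⟩
    have h5 : Ph g x.right h = Ph g x.right h * h⁻¹ * h := by group
    rw [h5]
    show (Ph g x.right h * h⁻¹).1 * h.1 = _
    rw [hl, Matrix.smul_mul, Matrix.one_mul]
  obtain ⟨h1, l, hl⟩ := trivial_of hq hK hs hn (fL_fix hq hK hs hn key)
  apply SemidirectProduct.ext
  · rw [← hg, SemidirectProduct.one_left]
    exact (center_scal' ha ha1 hsc g).2 ⟨l, hl⟩
  · rw [h1, SemidirectProduct.one_right]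

theorem stmtINJ : StmtINJ.{u} := by
  intro K _ _ _ q hq hK hs _ n hn x hx
  exact inj_all hq hK hs hn x hx

end inj

end Vale.Agent.P240.R2.H651
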