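import Vale.Agent.P240.R2.H651.GenO2
import Vale.Agent.P240.R2.H38.V1

/-!
`PHom` for `Ω_n(q)`, `n` odd.
-/

set_option autoImplicit false
set_option linter.unusedSectionVars false

namespace Vale.Agent.P240.R2.H651

open Finset Matrix Vale.Agent.P240.R2.AS Vale.Agent.P240.R2.H38
open scoped Classical

universe u v

section gen

variable {K : Type u} [Field K] [Fintype K] [StarRing K] {n p : ℕ} {ζ c : K}
variable {G : Type v} [Group G] {S : Subgroup (GU K n)} {ε : S →* G}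

lemma ev_of_SGood (hS : SGood p ζ c S) (hp : p ≠ 0) {w : List (Ln K n)} (hw : w ∈ Fr K n) :
    Ev ζ c (fun P => sS S ζ c [P]) := by
  have hn := hS.hn
  refine ⟨hS.ne, ?_, ?_, fun P => ?_⟩
  · rintro rfl
    have := hS.pow
    rw [zero_pow hp] at this
    exact zero_ne_one this
  · rintro rfl
    have h1 := hS.full w hw
    rw [sM, ((mem_Fr K).1 hw).1, zero_pow (by omega), zero_smul] at h1
    have h2 := congrFun (congrFun h1 ⟨0, by omega⟩) ⟨0, by omega⟩
    rw [Matrix.one_apply_eq, Matrix.zero_apply] at h2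
    exact zero_ne_one h2
  · have h1 : mx (sS S ζ c [P]) = sM ζ c [P] := mx_sS hS (by simp [Orth])
    show mx (sS S ζ c [P]) = _
    rw [h1, sM, H651.sm_cons, H651.sm_nil, add_zero]
    simp

theorem sem_of_gen (hS : SGood p ζ c S) (hp : p ≠ 0)
    (hT : ∀ P Q : Ln K n, ∃ g : S, cj g.1 P = Q)
    (hM : ∀ P Q P' Q' : Ln K n, (P.1 * Q.1).trace = (P'.1 * Q'.1).trace →
      (P.1 * Q.1).trace ≠ 1 → ∃ g : S, cj g.1 P = P' ∧ cj g.1 Q = Q')
    (hW : Wg K n)
    (hsc : ∀ g : GU K n, (∀ Q : Ln K n, cj g Q = Q) →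
      ∃ l : K, g.1 = l • (1 : Matrix (Fin n) (Fin n) K))
    {L : Subgroup G} (hr : ε.range = L)
    (ker : ∀ g : S, ε g = 1 ↔ ∃ a : K, mx g = a • (1 : Matrix (Fin n) (Fin n) K)) :
    PHom p ζ c L ε := by
  refine ⟨hr, ker, fun w hw x hx _ hfix => ?_⟩
  have he := ev_of_SGood hS hp hw
  have hn := hS.hn
  obtain ⟨P, hP⟩ : ∃ P, P ∈ w := by
    apply List.exists_mem_of_ne_nil
    rintro rfl
    have := ((mem_Fr K).1 hw).1
    simp at this
    omega
  have hx' : ∀ g : S, ∃ g' : S, x * ε g * x⁻¹ = ε g' := by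
    intro g
    have h1 : ε g ∈ L := by rw [← hr]; exact ⟨g, rfl⟩
    have h2 := (Subgroup.mem_normalizer_iff.1 hx (ε g)).1 h1
    rw [← hr] at h2
    obtain ⟨g', hg'⟩ := h2
    exact ⟨g', hg'.symm⟩
  obtain ⟨u, σ, hσ, hact⟩ := gen_acts he he hn ker hT hM hW hsc x hx' (P0 := P) (Q0 := P)
    (by rw [hfix P hP, mul_assoc, mul_inv_cancel, mul_one])
  exact ⟨u, σ, hσ, fun h h' hh => hact h h' hh⟩

end gen

section orth

variable {K : Type u} [Field K] [Fintype K] [StarRing K] {n : ℕ}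
variable {G : Type v} [Group G]

theorem pHom_Om (hO6a : StmtO6a.{u}) (hs : ∀ x : K, star x = x) (hq : Odd (Nat.card K))
    (h7 : 7 ≤ Nat.card K) (hn : 5 ≤ n) (hodd : Odd n) {p : ℕ} (hp : p ≠ 0) {ζ c : K}
    (hS : SGood p ζ c (OmS K n))
    {L : Subgroup G} {ε : OmS K n →* G} (hr : ε.range = L)
    (ker : ∀ g : OmS K n, ε g = 1 ↔ ∃ a : K, mx g = a • (1 : Matrix (Fin n) (Fin n) K)) :
    PHom p ζ c L ε := by
  have hM : ∀ P Q P' Q' : Ln K n, (P.1 * Q.1).trace = (P'.1 * Q'.1).trace →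
      (P.1 * Q.1).trace ≠ 1 → ∃ g : OmS K n, cj g.1 P = P' ∧ cj g.1 Q = Q' := by
    intro P Q P' Q' h h1
    obtain ⟨g, hg, hg1, hg2⟩ := hO6a K hs hq n hodd hn P Q P' Q' h h1
    exact ⟨⟨g, hg⟩, Subtype.ext hg1, Subtype.ext hg2⟩
  exact sem_of_gen hS hp (hT_of_hM hs hq (by omega) hM) hM (wg_o hs hq h7 hn)
    (scal_of_fix_o hs hq (by omega)) hr ker

/-- the homomorphism `OmS → L` for `L` isomorphic to `Ω_n(q)` -/
theorem exists_pHom_Om (hO6a : StmtO6a.{u}) (hs : ∀ x : K, star x = x) (hq : Odd (Nat.card K))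
    (h7 : 7 ≤ Nat.card K) (hn : 5 ≤ n) (hodd : Odd n) {p : ℕ} (hp : p ≠ 0) {ζ c : K}
    (hS : SGood p ζ c (OmS K n)) (L : Subgroup G) (φ : ↥(commutator (PGU K n)) ≃* ↥L) :
    ∃ ε : OmS K n →* G, PHom p ζ c L ε := by
  let π : OmS K n →* ↥(commutator (PGU K n)) :=
    { toFun := fun g => ⟨QuotientGroup.mk g.1, g.2⟩
      map_one' := rfl
      map_mul' := fun a b => rfl }
  let ε : OmS K n →* G := L.subtype.comp (φ.toMonoidHom.comp π)
  have hsc := scal_of_fix_o (n := n) hs hq (by omega)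
  refine ⟨ε, pHom_Om hO6a hs hq h7 hn hodd hp hS ?_ ?_⟩
  · ext y
    constructor
    · rintro ⟨g, rfl⟩
      exact (φ (π g)).2
    · intro hy
      obtain ⟨z, hz⟩ := φ.surjective ⟨y, hy⟩
      obtain ⟨g, hg⟩ := QuotientGroup.mk_surjective z.1
      refine ⟨⟨g, by rw [mem_OmS, hg]; exact z.2⟩, ?_⟩
      have h1 : π ⟨g, by rw [mem_OmS, hg]; exact z.2⟩ = z := Subtype.ext hg
      show ((φ (π _) : ↥L) : G) = y
      rw [h1, hz]
  · intro g
    have h1 : ε g = 1 ↔ (QuotientGroup.mk g.1 : PGU K n) = 1 := by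
      constructor
      · intro h
        have h2 : φ (π g) = 1 := Subtype.ext h
        have h3 : π g = 1 := by
          apply φ.injective
          rw [h2, map_one]
        exact congrArg Subtype.val h3
      · intro h
        have h3 : π g = 1 := Subtype.ext h
        show ((φ (π g) : ↥L) : G) = 1
        rw [h3, map_one]
        rfl
    rw [h1, center_scal hsc (two_ne hq) g.1]
    rfl

end orth

end Vale.Agent.P240.R2.H651
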