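import Vale.Agent.P240.R2.H651.GenP
import Vale.Agent.P240.R2.H145.OTr

/-!
`StmtO6c`.
-/

set_option autoImplicit false

namespace Vale.Agent.P240.R2.H651

open Finset Matrix Vale.Agent.P240.R2.AS Vale.Agent.P240.R2.H38

universe u v

theorem stmtO6c : StmtO6c.{u} := o6c_of H145.stmtO6a

end Vale.Agent.P240.R2.H651
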