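import Vale.Agent.P240.R2.H651.Gen

/-!
Automorphisms that fix the planes of four orthogonal letters: the induced map on the letters.
-/

set_option autoImplicit false
set_option linter.unusedSectionVars false

namespace Vale.Agent.P240.R2.H651

open Finset Matrix Vale.Agent.P240.R2.AS
open scoped Classical

universe u v

section chow

variable {K : Type u} [Field K] [Fintype K] [StarRing K] {n : ℕ}
variable {G : Type v} [Group G] {S : Subgroup (GU K n)} {ε : S →* G}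

/-- the products of two reflections, as elements of `S` -/
structure Pr (pr : Ln K n → Ln K n → S) : Prop where
  two : (2 : K) ≠ 0
  val : ∀ P Q, (pr P Q).1.1 = AA (-2) (-2) P Q

lemma AA_orth {P Q : Ln K n} (h : P.1 * Q.1 = 0) :
    AA (-2 : K) (-2) P Q = 1 + (-2 : K) • (P.1 + Q.1) := by
  rw [AA, Matrix.add_mul, Matrix.mul_add, Matrix.mul_add, Matrix.one_mul, Matrix.mul_one,
    Matrix.one_mul, smul_mul_smul_comm, h, smul_zero, add_zero, smul_add]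
  abel

lemma AA_cj (g : GU K n) (P Q : Ln K n) :
    AA (-2 : K) (-2) (cj g P) (cj g Q) = g.1 * AA (-2) (-2) P Q * star g.1 := by
  have h1 : ∀ P : Ln K n, 1 + (-2 : K) • (cj g P).1 = g.1 * (1 + (-2 : K) • P.1) * star g.1 := by
    intro P
    rw [cj_val, Matrix.mul_add, Matrix.add_mul, Matrix.mul_one, mem_unitaryGroup_iff.1 g.2,
      Matrix.mul_smul, Matrix.smul_mul]
  rw [AA, AA, h1, h1]
  have h := mem_unitaryGroup_iff'.1 g.2
  calc g.1 * (1 + (-2 : K) • P.1) * star g.1 * (g.1 * (1 + (-2 : K) • Q.1) * star g.1)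
      = g.1 * (1 + (-2 : K) • P.1) * (star g.1 * g.1) * (1 + (-2 : K) • Q.1) * star g.1 := by
        simp only [Matrix.mul_assoc]
    _ = _ := by rw [h, Matrix.mul_one]; simp only [Matrix.mul_assoc]

variable {pr : Ln K n → Ln K n → S}

lemma Pr.cj (hp : Pr pr) (g : S) (P Q : Ln K n) :
    g * pr P Q * g⁻¹ = pr (H651.cj g.1 P) (H651.cj g.1 Q) := by
  apply S_ext
  rw [S_mul, S_mul, S_inv, hp.val, hp.val, AA_cj]

lemma refl_sq (R : Ln K n) : (1 + (-2 : K) • R.1) * (1 + (-2 : K) • R.1) = 1 := by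
  rw [Matrix.add_mul, Matrix.mul_add, Matrix.mul_add, Matrix.one_mul, Matrix.mul_one,
    Matrix.one_mul, smul_mul_smul_comm, ln_idem]
  module

lemma Pr.mul (hp : Pr pr) (P R Q : Ln K n) : pr P R * pr R Q = pr P Q := by
  apply S_ext
  rw [S_mul, hp.val, hp.val, hp.val, AA, AA, AA]
  calc (1 + (-2 : K) • P.1) * (1 + (-2 : K) • R.1) * ((1 + (-2 : K) • R.1) * (1 + (-2 : K) • Q.1))
      = (1 + (-2 : K) • P.1) * ((1 + (-2 : K) • R.1) * (1 + (-2 : K) • R.1)) *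
        (1 + (-2 : K) • Q.1) := by simp only [Matrix.mul_assoc]
    _ = _ := by rw [refl_sq, Matrix.mul_one]

lemma Pr.symm (hp : Pr pr) {P Q : Ln K n} (h : P.1 * Q.1 = 0) : pr P Q = pr Q P := by
  apply S_ext
  rw [hp.val, hp.val, AA_orth h, AA_orth (ln_symm h), add_comm P.1]

/-- the image of a plane determines the plane -/
lemma Pr.inj (hp : Pr pr) (hn : 5 ≤ n) (ker : Ker ε) {P Q P' Q' : Ln K n} (h : P.1 * Q.1 = 0)
    (h' : P'.1 * Q'.1 = 0) (he : ε (pr P Q) = ε (pr P' Q')) : P.1 + Q.1 = P'.1 + Q'.1 := by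
  obtain ⟨l, hl⟩ := ker.eq he
  rw [hp.val, hp.val, AA_orth h, AA_orth h'] at hl
  obtain ⟨v, hv0, hv⟩ := exists_perp [P, Q, P', Q'] (by simp; omega)
  have hP := hv P (by simp)
  have hQ := hv Q (by simp)
  have hP' := hv P' (by simp)
  have hQ' := hv Q' (by simp)
  have h1 := congrArg (fun M => M *ᵥ v) hl
  simp only [smul_mulVec, add_mulVec, one_mulVec, hP, hQ, hP', hQ', smul_zero, add_zero] at h1
  have h2 : l = 1 := by
    by_contra hne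
    have h3 : (1 - l) • v = 0 := by rw [sub_smul, one_smul, ← h1, sub_self]
    rcases smul_eq_zero.1 h3 with h4 | h4
    · exact hne (sub_eq_zero.1 h4).symm
    · exact hv0 h4
  rw [h2, one_smul] at hl
  exact smul_right_injective _ (neg_ne_zero.2 hp.two) (add_left_cancel hl)

/-- orthogonal triples -/
def O3 (P Q R : Ln K n) : Prop := P.1 * Q.1 = 0 ∧ P.1 * R.1 = 0 ∧ Q.1 * R.1 = 0

/-- the geometric hypotheses -/
structure Geo (S : Subgroup (GU K n)) (W : Fin 4 → Ln K n) : Prop where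
  hn : 5 ≤ n
  orth : ∀ i j, i ≠ j → (W i).1 * (W j).1 = 0
  tr : ∀ A : Fin 4 → Ln K n, (∀ i j, i ≠ j → (A i).1 * (A j).1 = 0) →
    ∃ g : S, ∀ i, cj g.1 (W i) = A i
  u0 : ∀ P Q : Ln K n, ∃ R : Ln K n, P.1 * R.1 = 0 ∧ Q.1 * R.1 = 0
  u1 : ∀ P Q R : Ln K n, P.1 * Q.1 = 0 → P.1 * R.1 = 0 →
    ∃ V : Ln K n, P.1 * V.1 = 0 ∧ Q.1 * V.1 = 0 ∧ R.1 * V.1 = 0
  u2 : ∀ P Q R T : Ln K n, O3 P Q R → O3 P Q T →
    ∃ V : Ln K n, P.1 * V.1 = 0 ∧ Q.1 * V.1 = 0 ∧ R.1 * V.1 = 0 ∧ T.1 * V.1 = 0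

variable {W : Fin 4 → Ln K n} {x : G} {τ : S → S}

/-- `x` maps the plane `P + Q` to the plane `P' + Q'` -/
def Pl (ε : S →* G) (pr : Ln K n → Ln K n → S) (x : G) (P Q P' Q' : Ln K n) : Prop :=
  P'.1 * Q'.1 = 0 ∧ x * ε (pr P Q) * x⁻¹ = ε (pr P' Q')

/-- the image of `P`, with respect to an orthogonal triple -/
def F3 (ε : S →* G) (pr : Ln K n → Ln K n → S) (x : G) (P Q R P' : Ln K n) : Prop :=
  ∃ Q' R' : Ln K n, O3 P' Q' R' ∧ Pl ε pr x P Q P' Q' ∧ Pl ε pr x P R P' R'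

lemma F3.symm {P Q R P' : Ln K n} (h : F3 ε pr x P Q R P') : F3 ε pr x P R Q P' := by
  obtain ⟨Q', R', ⟨h1, h2, h3⟩, h4, h5⟩ := h
  exact ⟨R', Q', ⟨h2, h1, ln_symm h3⟩, h5, h4⟩

lemma F3.uniq (hp : Pr pr) (hn : 5 ≤ n) (ker : Ker ε) {P Q R P' P'' : Ln K n}
    (h : F3 ε pr x P Q R P') (h' : F3 ε pr x P Q R P'') : P' = P'' := by
  obtain ⟨Q', R', ⟨h1, h2, h3⟩, ⟨_, h4⟩, ⟨_, h5⟩⟩ := h
  obtain ⟨Q'', R'', ⟨k1, k2, k3⟩, ⟨_, k4⟩, ⟨_, k5⟩⟩ := h'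
  have e1 := hp.inj hn ker h1 k1 (h4.symm.trans k4)
  have e2 := hp.inj hn ker h2 k2 (h5.symm.trans k5)
  have key : ∀ P Q R : Ln K n, O3 P Q R → (P.1 + Q.1) * (P.1 + R.1) = P.1 := by
    rintro P Q R ⟨h1, h2, h3⟩
    rw [Matrix.add_mul, Matrix.mul_add, Matrix.mul_add, ln_idem, h2, ln_symm h1, h3]
    abel
  apply Subtype.ext
  rw [← key P' Q' R' ⟨h1, h2, h3⟩, e1, e2, key P'' Q'' R'' ⟨k1, k2, k3⟩]

/-- orthogonal quadruples -/
def O4 (A : Fin 4 → Ln K n) : Prop := ∀ i j, i ≠ j → (A i).1 * (A j).1 = 0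

lemma o4_mk {P Q R T : Ln K n} (h : O3 P Q R) (h1 : P.1 * T.1 = 0) (h2 : Q.1 * T.1 = 0)
    (h3 : R.1 * T.1 = 0) : O4 ![P, Q, R, T] := by
  obtain ⟨k1, k2, k3⟩ := h
  intro i j hij
  fin_cases i <;> fin_cases j <;>
    first
    | exact absurd rfl hij
    | exact k1
    | exact k2
    | exact k3
    | exact h1
    | exact h2
    | exact h3
    | exact ln_symm k1
    | exact ln_symm k2
    | exact ln_symm k3
    | exact ln_symm h1
    | exact ln_symm h2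
    | exact ln_symm h3

lemma cj_orth (g : GU K n) {P Q : Ln K n} (h : P.1 * Q.1 = 0) : (cj g P).1 * (cj g Q).1 = 0 := by
  rw [cj_val, cj_val]
  have h1 := mem_unitaryGroup_iff'.1 g.2
  calc g.1 * P.1 * star g.1 * (g.1 * Q.1 * star g.1)
      = g.1 * (P.1 * (star g.1 * g.1) * Q.1) * star g.1 := by simp only [Matrix.mul_assoc]
    _ = 0 := by rw [h1, Matrix.mul_one, h, Matrix.mul_zero, Matrix.zero_mul]

lemma Pl.cj (hp : Pr pr) (hτ : ∀ g, x * ε g * x⁻¹ = ε (τ g)) {P Q P' Q' : Ln K n}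
    (h : Pl ε pr x P Q P' Q') (g : S) :
    Pl ε pr x (H651.cj g.1 P) (H651.cj g.1 Q) (H651.cj (τ g).1 P') (H651.cj (τ g).1 Q') := by
  refine ⟨cj_orth _ h.1, ?_⟩
  rw [← hp.cj, ← hp.cj, map_mul, map_mul, map_mul, map_mul, map_inv, map_inv, ← h.2, ← hτ]
  group

/-- quadruples -/
lemma quad (hp : Pr pr) (hG : Geo S W) (hτ : ∀ g, x * ε g * x⁻¹ = ε (τ g))
    (hfix : ∀ i j, i ≠ j → x * ε (pr (W i) (W j)) * x⁻¹ = ε (pr (W i) (W j)))
    {A : Fin 4 → Ln K n} (hA : O4 A) : ∃ B : Fin 4 → Ln K n, O4 B ∧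
      ∀ i j, i ≠ j → Pl ε pr x (A i) (A j) (B i) (B j) := by
  obtain ⟨g, hg⟩ := hG.tr A hA
  refine ⟨fun i => cj (τ g).1 (W i), fun i j hij => cj_orth _ (hG.orth i j hij), fun i j hij => ?_⟩
  rw [← hg i, ← hg j]
  exact Pl.cj hp hτ ⟨hG.orth i j hij, hfix i j hij⟩ g

lemma quad3 {A B : Fin 4 → Ln K n} (hB : O4 B)
    (h : ∀ i j, i ≠ j → Pl ε pr x (A i) (A j) (B i) (B j)) {i j k : Fin 4} (hij : i ≠ j)
    (hik : i ≠ k) (hjk : j ≠ k) : F3 ε pr x (A i) (A j) (A k) (B i) :=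
  ⟨B j, B k, ⟨hB _ _ hij, hB _ _ hik, hB _ _ hjk⟩, h _ _ hij, h _ _ hik⟩

section fixed

variable (hp : Pr pr) (hG : Geo S W) (ker : Ker ε) (hτ : ∀ g, x * ε g * x⁻¹ = ε (τ g))
  (hfix : ∀ i j, i ≠ j → x * ε (pr (W i) (W j)) * x⁻¹ = ε (pr (W i) (W j)))

include hp hG ker hτ hfix

lemma step4 {P Q R T P' : Ln K n} (h : O3 P Q R) (h1 : P.1 * T.1 = 0) (h2 : Q.1 * T.1 = 0)
    (h3 : R.1 * T.1 = 0) (hF : F3 ε pr x P Q R P') : F3 ε pr x P Q T P' := by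
  obtain ⟨B, hB, hPl⟩ := quad hp hG hτ hfix (o4_mk h h1 h2 h3)
  have e1 : F3 ε pr x P Q R (B 0) :=
    quad3 hB hPl (i := 0) (j := 1) (k := 2) (by decide) (by decide) (by decide)
  have e2 : F3 ε pr x P Q T (B 0) :=
    quad3 hB hPl (i := 0) (j := 1) (k := 3) (by decide) (by decide) (by decide)
  rw [F3.uniq hp hG.hn ker hF e1]
  exact e2

lemma step2 {P Q R T P' : Ln K n} (h : O3 P Q R) (h' : O3 P Q T) (hF : F3 ε pr x P Q R P') :
    F3 ε pr x P Q T P' := by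
  obtain ⟨V, h1, h2, h3, h4⟩ := hG.u2 P Q R T h h'
  have e1 : F3 ε pr x P Q V P' := step4 hp hG ker hτ hfix h h1 h2 h3 hF
  exact step4 hp hG ker hτ hfix ⟨h.1, h1, h2⟩ h'.2.1 h'.2.2 (ln_symm h4) e1

lemma step3 {P Q R Q' R' P' : Ln K n} (h : O3 P Q R) (h' : O3 P Q' R')
    (hF : F3 ε pr x P Q R P') : F3 ε pr x P Q' R' P' := by
  obtain ⟨V, h1, h2, h3⟩ := hG.u1 P Q Q' h.1 h'.1
  have e1 : F3 ε pr x P Q V P' := step2 hp hG ker hτ hfix h ⟨h.1, h1, h2⟩ hF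
  have e2 : F3 ε pr x P V Q' P' :=
    step2 hp hG ker hτ hfix ⟨h1, h.1, ln_symm h2⟩ ⟨h1, h'.1, ln_symm h3⟩ e1.symm
  exact step2 hp hG ker hτ hfix ⟨h'.1, h1, h3⟩ h' e2.symm

/-- the map on the letters -/
lemma exists_f : ∃ f : Ln K n → Ln K n, ∀ P Q R, O3 P Q R → F3 ε pr x P Q R (f P) := by
  have hex : ∀ P : Ln K n, ∃ P' : Ln K n, ∀ Q R, O3 P Q R → F3 ε pr x P Q R P' := by
    intro P
    obtain ⟨Q, hQ, _⟩ := hG.u0 P P
    obtain ⟨R, hR1, hR2, _⟩ := hG.u1 P Q Q hQ hQ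
    have h3 : O3 P Q R := ⟨hQ, hR1, hR2⟩
    obtain ⟨T, h1, h2, h4, _⟩ := hG.u2 P Q R R h3 h3
    obtain ⟨B, hB, hPl⟩ := quad hp hG hτ hfix (o4_mk h3 h1 h2 h4)
    have e1 : F3 ε pr x P Q R (B 0) :=
      quad3 hB hPl (i := 0) (j := 1) (k := 2) (by decide) (by decide) (by decide)
    exact ⟨B 0, fun Q' R' h' => step3 hp hG ker hτ hfix h3 h' e1⟩
  choose f hf using hex
  exact ⟨f, hf⟩

variable {f : Ln K n → Ln K n} (hf : ∀ P Q R, O3 P Q R → F3 ε pr x P Q R (f P))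
include hf

lemma f_plane {P Q : Ln K n} (h : P.1 * Q.1 = 0) :
    (f P).1 * (f Q).1 = 0 ∧ x * ε (pr P Q) * x⁻¹ = ε (pr (f P) (f Q)) := by
  obtain ⟨R, hR1, hR2, _⟩ := hG.u1 P Q Q h h
  have h3 : O3 P Q R := ⟨h, hR1, hR2⟩
  obtain ⟨T, h1, h2, h4, _⟩ := hG.u2 P Q R R h3 h3
  obtain ⟨B, hB, hPl⟩ := quad hp hG hτ hfix (o4_mk h3 h1 h2 h4)
  have e1 : F3 ε pr x P Q R (B 0) :=
    quad3 hB hPl (i := 0) (j := 1) (k := 2) (by decide) (by decide) (by decide)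
  have e2 : F3 ε pr x Q P R (B 1) :=
    quad3 hB hPl (i := 1) (j := 0) (k := 2) (by decide) (by decide) (by decide)
  rw [← F3.uniq hp hG.hn ker e1 (hf P Q R h3),
    ← F3.uniq hp hG.hn ker e2 (hf Q P R ⟨ln_symm h, hR2, hR1⟩)]
  exact ⟨hB 0 1 (by decide), (hPl 0 1 (by decide)).2⟩

lemma f_mul (P Q : Ln K n) : x * ε (pr P Q) * x⁻¹ = ε (pr (f P) (f Q)) := by
  obtain ⟨R, h1, h2⟩ := hG.u0 P Q
  have e1 := (f_plane hp hG ker hτ hfix hf h1).2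
  have e2 := (f_plane hp hG ker hτ hfix hf (ln_symm h2)).2
  rw [← hp.mul P R Q, ← hp.mul (f P) (f R) (f Q), map_mul, map_mul, ← e1, ← e2]
  group

lemma f_equi (g : S) (P : Ln K n) : f (cj g.1 P) = cj (τ g).1 (f P) := by
  obtain ⟨Q, hQ, _⟩ := hG.u0 P P
  obtain ⟨R, hR1, hR2, _⟩ := hG.u1 P Q Q hQ hQ
  have h3 : O3 P Q R := ⟨hQ, hR1, hR2⟩
  obtain ⟨Q', R', ⟨k1, k2, k3⟩, h4, h5⟩ := hf P Q R h3
  have e1 : F3 ε pr x (cj g.1 P) (cj g.1 Q) (cj g.1 R) (cj (τ g).1 (f P)) :=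
    ⟨cj (τ g).1 Q', cj (τ g).1 R', ⟨cj_orth _ k1, cj_orth _ k2, cj_orth _ k3⟩,
      Pl.cj hp hτ h4 g, Pl.cj hp hτ h5 g⟩
  exact F3.uniq hp hG.hn ker (hf _ _ _ ⟨cj_orth _ hQ, cj_orth _ hR1, cj_orth _ hR2⟩) e1

end fixed

theorem chow_FM (hp : Pr pr) (hG : Geo S W) (ker : Ker ε) (x : G)
    (hx : ∀ g, ∃ g', x * ε g * x⁻¹ = ε g') (hx' : ∀ g, ∃ g', x⁻¹ * ε g * x = ε g')
    (hfix : ∀ i j, i ≠ j → x * ε (pr (W i) (W j)) = ε (pr (W i) (W j)) * x) :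
    ∃ f τ, FM ε (fun _ => 1) (fun _ => 1) x f τ := by
  obtain ⟨r, hr⟩ := CharP.exists K
  have : Fact r.Prime := ⟨CharP.char_is_prime K r⟩
  choose τ hτ using hx
  choose τ' hτ' using hx'
  have hfix1 : ∀ i j, i ≠ j → x * ε (pr (W i) (W j)) * x⁻¹ = ε (pr (W i) (W j)) := by
    intro i j hij
    rw [hfix i j hij, mul_assoc, mul_inv_cancel, mul_one]
  have hfix2 : ∀ i j, i ≠ j → x⁻¹ * ε (pr (W i) (W j)) * x⁻¹⁻¹ = ε (pr (W i) (W j)) := by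
    intro i j hij
    rw [inv_inv, mul_assoc, ← hfix i j hij, inv_mul_cancel_left]
  have hτ2 : ∀ g, x⁻¹ * ε g * x⁻¹⁻¹ = ε (τ' g) := by
    intro g
    rw [inv_inv, hτ']
  obtain ⟨f, hf⟩ := exists_f hp hG ker hτ hfix1
  obtain ⟨f', hf'⟩ := exists_f hp hG ker hτ2 hfix2
  have hleft : ∀ P, f' (f P) = P := by
    intro P
    obtain ⟨Q, hQ, _⟩ := hG.u0 P P
    obtain ⟨R, hR1, hR2, _⟩ := hG.u1 P Q Q hQ hQ
    have e1 := f_plane hp hG ker hτ hfix1 hf hQ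
    have e2 := f_plane hp hG ker hτ hfix1 hf hR1
    have e3 := f_plane hp hG ker hτ hfix1 hf hR2
    have back : ∀ A B A' B' : Ln K n, x * ε (pr A B) * x⁻¹ = ε (pr A' B') →
        x⁻¹ * ε (pr A' B') * x⁻¹⁻¹ = ε (pr A B) := by
      intro A B A' B' h
      rw [← h]
      group
    have k1 : F3 ε pr x⁻¹ (f P) (f Q) (f R) P :=
      ⟨Q, R, ⟨hQ, hR1, hR2⟩, ⟨hQ, back _ _ _ _ e1.2⟩, ⟨hR1, back _ _ _ _ e2.2⟩⟩
    exact (F3.uniq hp hG.hn ker (hf' _ _ _ ⟨e1.1, e2.1, e3.1⟩) k1)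
  have hright : ∀ P, f (f' P) = P := by
    intro P
    obtain ⟨Q, hQ, _⟩ := hG.u0 P P
    obtain ⟨R, hR1, hR2, _⟩ := hG.u1 P Q Q hQ hQ
    have e1 := f_plane hp hG ker hτ2 hfix2 hf' hQ
    have e2 := f_plane hp hG ker hτ2 hfix2 hf' hR1
    have e3 := f_plane hp hG ker hτ2 hfix2 hf' hR2
    have back : ∀ A B A' B' : Ln K n, x⁻¹ * ε (pr A B) * x⁻¹⁻¹ = ε (pr A' B') →
        x * ε (pr A' B') * x⁻¹ = ε (pr A B) := by
      intro A B A' B' h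
      rw [← h]
      group
    have k1 : F3 ε pr x (f' P) (f' Q) (f' R) P :=
      ⟨Q, R, ⟨hQ, hR1, hR2⟩, ⟨hQ, back _ _ _ _ e1.2⟩, ⟨hR1, back _ _ _ _ e2.2⟩⟩
    exact (F3.uniq hp hG.hn ker (hf _ _ _ ⟨e1.1, e2.1, e3.1⟩) k1)
  have hab : (-2 : K) + (-2) + (-2) * (-2) = 0 := by ring
  have hpow : ∀ P Q : Ln K n, ε (pr P Q) ^ (r ^ 2) = 1 ↔ (P.1 * Q.1).trace = 1 := by
    intro P Q
    have hn := hG.hn
    rw [← AA_pow (by omega) r hab (neg_ne_zero.2 hp.two) P Q, ← map_pow, ker, S_pow, hp.val]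
    constructor
    · rintro ⟨l, hl⟩
      obtain ⟨v, hv0, hv⟩ := exists_perp [P, Q] (by simp; omega)
      have hP := hv P (by simp)
      have hQ := hv Q (by simp)
      have hP2 : (1 + (-2 : K) • P.1) *ᵥ v = v := by
        rw [add_mulVec, one_mulVec, smul_mulVec, hP, smul_zero, add_zero]
      have hQ2 : (1 + (-2 : K) • Q.1) *ᵥ v = v := by
        rw [add_mulVec, one_mulVec, smul_mulVec, hQ, smul_zero, add_zero]
      have h1 : AA (-2 : K) (-2) P Q *ᵥ v = v := by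
        rw [AA, ← mulVec_mulVec, hQ2, hP2]
      have h2 : ∀ m : ℕ, AA (-2 : K) (-2) P Q ^ m *ᵥ v = v := by
        intro m
        induction m with
        | zero => rw [pow_zero, one_mulVec]
        | succ m ih => rw [pow_succ, ← mulVec_mulVec, h1, ih]
      have h3 := h2 (r ^ 2)
      rw [hl, smul_mulVec, one_mulVec] at h3
      have h4 : l = 1 := by
        by_contra hne
        have h5 : (l - 1) • v = 0 := by rw [sub_smul, one_smul, h3, sub_self]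
        rcases smul_eq_zero.1 h5 with h6 | h6
        · exact hne (sub_eq_zero.1 h6)
        · exact hv0 h6
      rw [hl, h4, one_smul]
    · intro h
      exact ⟨1, by rw [h, one_smul]⟩
  refine ⟨f, τ, hτ, fun P => ?_, f_equi hp hG ker hτ hfix1 hf, ?_, fun P Q => ?_, fun P Q => ?_⟩
  · rw [map_one, mul_one, mul_inv_cancel]
  · intro P Q h
    rw [← hleft P, h, hleft Q]
  · constructor
    · intro h
      have h1 := (f_plane hp hG ker hτ2 hfix2 hf' h).1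
      rwa [hleft, hleft] at h1
    · intro h
      exact (f_plane hp hG ker hτ hfix1 hf h).1
  · rw [← hpow, ← hpow, ← f_mul hp hG ker hτ hfix1 hf P Q]
    rw [conj_pow, mul_inv_eq_one]
    constructor
    · intro h2
      exact mul_left_cancel (h2.trans (mul_one x).symm)
    · intro h2
      rw [h2, mul_one]

end chow

end Vale.Agent.P240.R2.H651
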