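import Vale.Agent.P240.R2.H651.Gen
import Vale.Agent.P240.R2.H472.O6b
import Vale.Agent.P240.R2.H221.B3
import Vale.Agent.P240.R2.H744.Wig0

/-!
The automorphisms of `Ω_n(q)`, `n` odd, that map a reflection to a reflection.
-/

set_option autoImplicit false
set_option linter.unusedSectionVars false

namespace Vale.Agent.P240.R2.H651

open Finset Matrix Vale.Agent.P240.R2.AS
open scoped Classical

universe u v

section gen

variable {K : Type u} [Field K] [Fintype K] [StarRing K] {n : ℕ}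

/-- a unitary matrix that fixes all letters is scalar -/
lemma scal_of (hex : ∀ i j : Fin n, i ≠ j → ∃ Q : Ln K n, Q.1 i j ≠ 0)
    {g : GU K n} (hg : ∀ Q : Ln K n, cj g Q = Q) :
    ∃ l : K, g.1 = l • (1 : Matrix (Fin n) (Fin n) K) := by
  have hoff : ∀ i j : Fin n, i ≠ j → g.1 i j = 0 := by
    intro i j hij
    have h1 := congrFun (congrFun (comm_of_cj (hg (E j))) i) j
    rw [E_val, Matrix.mul_apply, Matrix.mul_apply, Finset.sum_eq_single j,
      Finset.sum_eq_single j, single_apply_same, mul_one,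
      single_apply_of_row_ne (Ne.symm hij), zero_mul] at h1
    · exact h1
    · intro b _ hb
      rw [single_apply_of_row_ne (Ne.symm hij), zero_mul]
    · simp
    · intro b _ hb
      rw [single_apply_of_row_ne (Ne.symm hb), mul_zero]
    · simp
  have hdiag : ∀ i j : Fin n, g.1 i i = g.1 j j := by
    intro i j
    by_cases hij : i = j
    · rw [hij]
    obtain ⟨Q, hQ⟩ := hex i j hij
    have h1 := congrFun (congrFun (comm_of_cj (hg Q)) i) j
    rw [Matrix.mul_apply, Matrix.mul_apply, Finset.sum_eq_single i, Finset.sum_eq_single j] at h1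
    · have h2 : Q.1 i j * (g.1 i i - g.1 j j) = 0 := by linear_combination h1
      exact sub_eq_zero.1 ((mul_eq_zero.1 h2).resolve_left hQ)
    · intro b _ hb
      rw [hoff b j hb, mul_zero]
    · simp
    · intro b _ hb
      rw [hoff i b (Ne.symm hb), zero_mul]
    · simp
  rcases Nat.eq_zero_or_pos n with h0 | h0
  · subst h0
    exact ⟨1, by ext i; exact i.elim0⟩
  · refine ⟨g.1 ⟨0, h0⟩ ⟨0, h0⟩, ?_⟩
    ext i j
    rw [Matrix.smul_apply, smul_eq_mul]
    by_cases hij : i = j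
    · subst hij
      rw [Matrix.one_apply_eq, mul_one]
      exact hdiag _ _
    · rw [Matrix.one_apply_ne hij, mul_zero]
      exact hoff i j hij

end gen

section orth

variable {K : Type u} [Field K] [Fintype K] [StarRing K] {n : ℕ}

lemma two_ne (hq : Odd (Nat.card K)) : (2 : K) ≠ 0 := by
  intro h2
  have h3 : CharP K 2 := by
    have h4 : ((2 : ℕ) : K) = 0 := by exact_mod_cast h2
    exact CharTwo.of_one_ne_zero_of_two_eq_zero one_ne_zero (by exact_mod_cast h2)
  obtain ⟨m, _, hm⟩ := FiniteField.card K 2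
  rw [Nat.card_eq_fintype_card, hm] at hq
  have : Even (2 ^ (m : ℕ)) := (Nat.even_pow.2 ⟨even_two, m.pos.ne'⟩)
  exact (Nat.not_even_iff_odd.2 hq) this

/-- a rational point of the circle with nonzero coordinates -/
lemma exists_circle (h2 : (2 : K) ≠ 0) (h7 : 6 ≤ Nat.card K) :
    ∃ a b : K, a * a + b * b = 1 ∧ a ≠ 0 ∧ b ≠ 0 := by
  have hpoly : ((Polynomial.X : Polynomial K) * (Polynomial.X ^ 2 - 1) * (Polynomial.X ^ 2 + 1)) ≠
      0 := by
    intro h
    have h3 := congrArg (Polynomial.eval (0 : K)) h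
    have h4 : (Polynomial.X : Polynomial K) ≠ 0 := Polynomial.X_ne_zero
    have h5 : (Polynomial.X ^ 2 - 1 : Polynomial K) ≠ 0 := by
      intro h6
      have h7 := congrArg (Polynomial.eval (0 : K)) h6
      simp at h7
    have h6 : (Polynomial.X ^ 2 + 1 : Polynomial K) ≠ 0 := by
      intro h6
      have h7 := congrArg (Polynomial.eval (0 : K)) h6
      simp at h7
    exact mul_ne_zero (mul_ne_zero h4 h5) h6 h
  have hex : ∃ t : K, Polynomial.eval t ((Polynomial.X : Polynomial K) *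
      (Polynomial.X ^ 2 - 1) * (Polynomial.X ^ 2 + 1)) ≠ 0 := by
    by_contra hcon
    push Not at hcon
    have h3 : Fintype.card K ≤ 5 := by
      have h5 : (Finset.univ : Finset K) ⊆ ((Polynomial.X : Polynomial K) *
          (Polynomial.X ^ 2 - 1) * (Polynomial.X ^ 2 + 1)).roots.toFinset := by
        intro x _
        rw [Multiset.mem_toFinset, Polynomial.mem_roots hpoly]
        exact hcon x
      calc Fintype.card K = (Finset.univ : Finset K).card := rfl
        _ ≤ _ := Finset.card_le_card h5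
        _ ≤ Multiset.card _ := Multiset.toFinset_card_le _
        _ ≤ _ := Polynomial.card_roots' _
        _ ≤ 5 := by compute_degree
    rw [Nat.card_eq_fintype_card] at h7
    omega
  obtain ⟨t, ht⟩ := hex
  simp only [Polynomial.eval_mul, Polynomial.eval_X, Polynomial.eval_sub, Polynomial.eval_pow,
    Polynomial.eval_one, Polynomial.eval_add] at ht
  have h3 : t ≠ 0 := fun h => ht (by rw [h]; ring)
  have h4 : t ^ 2 - 1 ≠ 0 := fun h => ht (by rw [h]; ring)
  have h5 : t ^ 2 + 1 ≠ 0 := fun h => ht (by rw [h]; ring)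
  refine ⟨2 * t / (t ^ 2 + 1), (t ^ 2 - 1) / (t ^ 2 + 1), ?_, ?_, ?_⟩
  · field_simp
    ring
  · exact div_ne_zero (mul_ne_zero h2 h3) h5
  · exact div_ne_zero h4 h5

lemma scal_of_fix_o (hs : ∀ x : K, star x = x) (hq : Odd (Nat.card K)) (h7 : 6 ≤ Nat.card K)
    (g : GU K n) (hg : ∀ Q : Ln K n, cj g Q = Q) :
    ∃ l : K, g.1 = l • (1 : Matrix (Fin n) (Fin n) K) := by
  refine scal_of (fun i j hij => ?_) hg
  obtain ⟨a, b, hab, ha, hb⟩ := exists_circle (two_ne hq) h7
  have hst : star (Pi.single i a + Pi.single j b : Fin n → K) = Pi.single i a + Pi.single j b := by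
    funext k
    exact hs _
  have hv : star (Pi.single i a + Pi.single j b : Fin n → K) ⬝ᵥ (Pi.single i a + Pi.single j b) =
      1 := by
    rw [hst, add_dotProduct, dotProduct_add, dotProduct_add, single_dotProduct,
      single_dotProduct, single_dotProduct, single_dotProduct, Pi.single_eq_same,
      Pi.single_eq_same, Pi.single_eq_of_ne hij, Pi.single_eq_of_ne hij.symm, ← hab]
    ring
  refine ⟨⟨_, _, hv, rfl⟩, ?_⟩
  show vecMulVec _ _ i j ≠ 0
  rw [vecMulVec_apply, hst, Pi.add_apply, Pi.add_apply, Pi.single_eq_same, Pi.single_eq_same,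
    Pi.single_eq_of_ne hij, Pi.single_eq_of_ne hij.symm, add_zero, zero_add]
  exact mul_ne_zero ha hb

/-- every letter is the image of the letter `E i` -/
lemma exists_refl_o (hs : ∀ x : K, star x = x) (hq : Odd (Nat.card K)) (i : Fin n) (P : Ln K n) :
    ∃ g : GU K n, cj g (E i) = P := by
  obtain ⟨x, hx, hP⟩ := P.2
  have hy : star (Pi.single i (1 : K) : Fin n → K) ⬝ᵥ Pi.single i 1 = 1 := by simp
  have key : ∀ x : Fin n → K, star x ⬝ᵥ x = 1 → P.1 = vecMulVec x (star x) →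
      star x ⬝ᵥ (Pi.single i (1 : K) : Fin n → K) ≠ 1 → ∃ g : GU K n, cj g (E i) = P := by
    intro x hx hP h1
    obtain ⟨g, hg⟩ := H744.exists_refl hx hy h1
    refine ⟨g, Subtype.ext ?_⟩
    rw [cj_val, E_val, single_proj, mul_vecMulVec, vecMulVec_mul, star_eq_conjTranspose,
      ← star_mulVec, hg, hP]
  by_cases h1 : star x ⬝ᵥ (Pi.single i (1 : K) : Fin n → K) = 1
  · refine key (-x) ?_ ?_ ?_
    · rw [star_neg, neg_dotProduct, dotProduct_neg, neg_neg, hx]
    · rw [hP, star_neg, neg_vecMulVec, vecMulVec_neg, neg_neg]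
    · rw [star_neg, neg_dotProduct, h1]
      intro h2
      apply two_ne hq
      linear_combination -h2
  · exact key x hx hP h1

lemma exists_perp_o (hs : ∀ x : K, star x = x) (hq : Odd (Nat.card K)) (hn : 2 ≤ n)
    (P : Ln K n) : ∃ Q : Ln K n, P.1 * Q.1 = 0 := by
  have h01 : (⟨0, by omega⟩ : Fin n) ≠ ⟨1, by omega⟩ := by
    intro h
    have := congrArg Fin.val h
    simp at this
  obtain ⟨g, hg⟩ := exists_refl_o hs hq ⟨0, by omega⟩ P
  refine ⟨cj g (E ⟨1, by omega⟩), ?_⟩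
  rw [← hg, cj_val, cj_val]
  have h := mem_unitaryGroup_iff'.1 g.2
  calc g.1 * (E ⟨0, by omega⟩ : Ln K n).1 * star g.1 * (g.1 * (E ⟨1, by omega⟩ : Ln K n).1 *
        star g.1) = g.1 * ((E ⟨0, by omega⟩ : Ln K n).1 * (star g.1 * g.1) *
        (E ⟨1, by omega⟩ : Ln K n).1) * star g.1 := by simp only [Matrix.mul_assoc]
    _ = 0 := by
      rw [h, Matrix.mul_one, E_val, E_val, single_mul_single_of_ne _ _ _ _ h01, Matrix.mul_zero,
        Matrix.zero_mul]

lemma hT_of_hM {S : Subgroup (GU K n)} (hs : ∀ x : K, star x = x) (hq : Odd (Nat.card K))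
    (hn : 2 ≤ n)
    (hM : ∀ P Q P' Q' : Ln K n, (P.1 * Q.1).trace = (P'.1 * Q'.1).trace →
      (P.1 * Q.1).trace ≠ 1 → ∃ g : S, cj g.1 P = P' ∧ cj g.1 Q = Q') (P P' : Ln K n) :
    ∃ g : S, cj g.1 P = P' := by
  obtain ⟨Q, hQ⟩ := exists_perp_o hs hq hn P
  obtain ⟨Q', hQ'⟩ := exists_perp_o hs hq hn P'
  obtain ⟨g, hg, _⟩ := hM P Q P' Q' (by rw [hQ, hQ']) (by rw [hQ]; simp)
  exact ⟨g, hg⟩

lemma wg_o (hs : ∀ x : K, star x = x) (hq : Odd (Nat.card K)) (h7 : 7 ≤ Nat.card K)
    (hn : 5 ≤ n) : Wg K n := by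
  intro f κ hf hE
  obtain ⟨σ, d, hd, hfd⟩ := H472.stmtO6b K hs hq h7 n hn f κ hf (fun i P hP => by
    have h1 : P = E i := Subtype.ext hP
    rw [h1, hE i])
  have hst : star (diagonal d) = diagonal d := by
    rw [star_eq_conjTranspose, diagonal_conjTranspose]
    congr 1
    funext i
    exact hs _
  refine ⟨σ, ⟨diagonal d, ?_⟩, fun a => by rw [hs, hs], fun P => ?_⟩
  · rw [mem_unitaryGroup_iff, hst, diagonal_mul_diagonal, ← diagonal_one]
    congr 1
    funext i
    exact hd i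
  · rw [hfd P]
    show _ = diagonal d * P.1.map σ * star (diagonal d)
    rw [hst]

/-- `Ω_n(q)`, with the scalars -/
def OmS (K : Type u) [Field K] [StarRing K] (n : ℕ) : Subgroup (GU K n) :=
  (commutator (PGU K n)).comap (QuotientGroup.mk' _)

lemma mem_OmS {g : GU K n} : g ∈ OmS K n ↔
    (QuotientGroup.mk g : PGU K n) ∈ commutator (PGU K n) := Iff.rfl

theorem acts_Om (hO6a : StmtO6a.{u}) {G : Type v} [Group G] {ε : OmS K n →* G} {c c' : K}
    {e e' : Ln K n → OmS K n} (hs : ∀ x : K, star x = x) (hq : Odd (Nat.card K))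
    (h7 : 7 ≤ Nat.card K) (hn : 5 ≤ n) (hodd : Odd n)
    (he : Ev (-1) c e) (he' : Ev (-1) c' e') (ker : Ker ε) (x : G)
    (hx : ∀ g, ∃ g', x * ε g * x⁻¹ = ε g') {P0 Q0 : Ln K n}
    (h0 : x * ε (e P0) * x⁻¹ = ε (e' Q0)) :
    ∃ (u : GU K n) (σ : K ≃+* K), (∀ a, σ (star a) = star (σ a)) ∧
      ∀ g g' : OmS K n, g'.1.1 = u.1 * g.1.1.map σ * star u.1 → x * ε g * x⁻¹ = ε g' := by
  have hM : ∀ P Q P' Q' : Ln K n, (P.1 * Q.1).trace = (P'.1 * Q'.1).trace →
      (P.1 * Q.1).trace ≠ 1 → ∃ g : OmS K n, cj g.1 P = P' ∧ cj g.1 Q = Q' := by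
    intro P Q P' Q' h h1
    obtain ⟨g, hg, hg1, hg2⟩ := hO6a K hs hq n hodd hn P Q P' Q' h h1
    exact ⟨⟨g, hg⟩, Subtype.ext hg1, Subtype.ext hg2⟩
  exact gen_acts he he' (by omega) ker (hT_of_hM hs hq (by omega) hM) hM (wg_o hs hq h7 hn)
    (scal_of_fix_o hs hq (by omega)) x hx h0

end orth

end Vale.Agent.P240.R2.H651
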