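import Vale.Agent.P240.R2.H651.GenO

/-!
`StmtO6c`: the automorphisms of `Ω_n(q)` that centralize the group of the standard frame.
-/

set_option autoImplicit false
set_option linter.unusedSectionVars false

namespace Vale.Agent.P240.R2.H651

open Finset Matrix Vale.Agent.P240.R2.AS
open scoped Classical

universe u v

section orth

variable {K : Type u} [Field K] [Fintype K] [StarRing K] {n : ℕ}

/-- `u` commutes with all letters if it is central -/
lemma center_scal (hsc : ∀ g : GU K n, (∀ Q : Ln K n, cj g Q = Q) →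
      ∃ l : K, g.1 = l • (1 : Matrix (Fin n) (Fin n) K)) (h2 : (2 : K) ≠ 0) (g : GU K n) :
    (QuotientGroup.mk g : PGU K n) = 1 ↔ ∃ l : K, g.1 = l • (1 : Matrix (Fin n) (Fin n) K) := by
  rw [QuotientGroup.eq_one_iff, Subgroup.mem_center_iff]
  constructor
  · intro h
    apply hsc
    intro Q
    apply Subtype.ext
    have hz : (-1 : K) * star (-1) = 1 := by simp
    have h1 : star (sm [Q]) = sm [Q] ∧ sm [Q] * sm [Q] = sm [Q] ∧ (-1 : K) * star (-1) = 1 := by
      rw [sm_cons, sm_nil, add_zero]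
      exact ⟨ln_star Q, ln_idem Q, hz⟩
    have h3 := h (eU (-1) (sm [Q]))
    have h4 := congrArg Subtype.val h3
    rw [eU, dif_pos h1] at h4
    have h5 : (1 + ((-1 : K) - 1) • sm [Q]) * g.1 = g.1 * (1 + ((-1 : K) - 1) • sm [Q]) := h4
    rw [sm_cons, sm_nil, add_zero, Matrix.add_mul, Matrix.mul_add, Matrix.one_mul,
      Matrix.mul_one, Matrix.smul_mul, Matrix.mul_smul] at h5
    have h6 := add_left_cancel h5
    have hne : ((-1 : K) - 1) ≠ 0 := by
      intro h7
      apply h2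
      linear_combination -h7
    have h7 : Q.1 * g.1 = g.1 * Q.1 := smul_right_injective _ hne h6
    rw [cj_val, ← h7, Matrix.mul_assoc, mem_unitaryGroup_iff.1 g.2, Matrix.mul_one]
  · rintro ⟨l, hl⟩ a
    apply Subtype.ext
    show a.1 * g.1 = g.1 * a.1
    rw [hl, Matrix.mul_smul, Matrix.smul_mul, Matrix.mul_one, Matrix.one_mul]

/-- the reflection in a letter -/
noncomputable def rO (hs : ∀ x : K, star x = x) (hq : Odd (Nat.card K)) (hodd : Odd n) (P : Ln K n) :
    OmS K n :=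
  ⟨eU (-1) (sm [P]), H221.stmtB3 K hs hq n hodd [P] (by simp [Orth])⟩

lemma rO_ev (hs : ∀ x : K, star x = x) (hq : Odd (Nat.card K)) (hodd : Odd n) :
    Ev (-1) 1 (rO hs hq hodd) := by
  have h2 := two_ne hq
  refine ⟨?_, ?_, one_ne_zero, fun P => ?_⟩
  · intro h
    apply h2
    linear_combination -h
  · exact neg_ne_zero.2 one_ne_zero
  · show (eU (-1 : K) (sm [P])).1 = _
    have h1 : star (sm [P]) = sm [P] ∧ sm [P] * sm [P] = sm [P] ∧ (-1 : K) * star (-1) = 1 := by
      rw [sm_cons, sm_nil, add_zero]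
      exact ⟨ln_star P, ln_idem P, by simp⟩
    rw [eU, dif_pos h1, one_smul]
    show 1 + ((-1 : K) - 1) • sm [P] = _
    rw [sm_cons, sm_nil, add_zero]

/-- `Ω_n(q)`, as the quotient of `OmS` -/
def omI (K : Type u) [Field K] [Fintype K] [StarRing K] (n : ℕ) : OmS K n →* Om K n where
  toFun g := ⟨SemidirectProduct.inl (QuotientGroup.mk g.1),
    Subgroup.mem_map.2 ⟨QuotientGroup.mk g.1, g.2, rfl⟩⟩
  map_one' := Subtype.ext (map_one SemidirectProduct.inl)
  map_mul' a b := Subtype.ext (map_mul (SemidirectProduct.inl : PGU K n →* PGamU K n)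
    (QuotientGroup.mk a.1) (QuotientGroup.mk b.1))

lemma omI_surj (y : Om K n) : ∃ g : OmS K n, omI K n g = y := by
  obtain ⟨y, hy⟩ := y
  obtain ⟨z, hz, rfl⟩ := Subgroup.mem_map.1 hy
  obtain ⟨g, rfl⟩ := QuotientGroup.mk_surjective z
  exact ⟨⟨g, hz⟩, rfl⟩

theorem o6c_of (hO6a : StmtO6a.{u}) : StmtO6c.{u} := by
  intro K _ _ _ hs hq h7 n hodd hn β hβ
  let ε : OmS K n →* (Om K n ⋊[MonoidHom.id (MulAut (Om K n))] MulAut (Om K n)) :=
    SemidirectProduct.inl.comp (omI K n)
  have hsc := scal_of_fix_o (n := n) hs hq (by omega)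
  have ker : Ker ε := by
    intro g
    rw [← center_scal hsc (two_ne hq) g.1]
    show SemidirectProduct.inl (omI K n g) = 1 ↔ _
    rw [← map_one SemidirectProduct.inl, SemidirectProduct.inl_inj]
    constructor
    · intro h
      have h1 := congrArg Subtype.val h
      have h2 : (SemidirectProduct.inl (QuotientGroup.mk g.1 : PGU K n) : PGamU K n) =
        SemidirectProduct.inl 1 := by
        rw [map_one]
        exact h1
      exact SemidirectProduct.inl_inj.1 h2
    · intro h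
      apply Subtype.ext
      show (SemidirectProduct.inl (QuotientGroup.mk g.1 : PGU K n) : PGamU K n) = 1
      rw [h, map_one]
  have hconj : ∀ a : Om K n, (SemidirectProduct.inr β : (Om K n ⋊[MonoidHom.id (MulAut (Om K n))] MulAut (Om K n))) *
      SemidirectProduct.inl a * (SemidirectProduct.inr β)⁻¹ = SemidirectProduct.inl (β a) := by
    intro a
    rw [← map_inv]
    exact (SemidirectProduct.inl_aut β a).symm
  have hx : ∀ g : OmS K n, ∃ g' : OmS K n,
      (SemidirectProduct.inr β : (Om K n ⋊[MonoidHom.id (MulAut (Om K n))] MulAut (Om K n))) *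
      ε g * (SemidirectProduct.inr β)⁻¹ = ε g' := by
    intro g
    obtain ⟨g', hg'⟩ := omI_surj (β (omI K n g))
    refine ⟨g', ?_⟩
    show _ * SemidirectProduct.inl (omI K n g) * _ = SemidirectProduct.inl (omI K n g')
    rw [hconj, hg']
  have he := rO_ev (n := n) hs hq hodd
  have h0 : (SemidirectProduct.inr β : (Om K n ⋊[MonoidHom.id (MulAut (Om K n))] MulAut (Om K n))) *
      ε (rO hs hq hodd (E ⟨0, by omega⟩)) * (SemidirectProduct.inr β)⁻¹ =
      ε (rO hs hq hodd (E ⟨0, by omega⟩)) := by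
    show _ * SemidirectProduct.inl (omI K n _) * _ = SemidirectProduct.inl (omI K n _)
    rw [hconj]
    congr 1
    exact hβ (E ⟨0, by omega⟩) ⟨0, by omega⟩ _ rfl rfl
  obtain ⟨u, σ, hσ, hact⟩ := acts_Om hO6a hs hq h7 hn hodd he he ker _ hx h0
  refine ⟨SemidirectProduct.inl (QuotientGroup.mk u) * SemidirectProduct.inr ⟨σ, hσ⟩, fun x => ?_⟩
  obtain ⟨g, rfl⟩ := omI_surj x
  have hg' : u * mapGU ⟨σ, hσ⟩ g.1 * u⁻¹ ∈ OmS K n := by
    rw [mem_OmS]
    have h1 : (QuotientGroup.mk (u * mapGU ⟨σ, hσ⟩ g.1 * u⁻¹) : PGU K n) =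
        QuotientGroup.mk u * act n ⟨σ, hσ⟩ (QuotientGroup.mk g.1) * (QuotientGroup.mk u)⁻¹ := rfl
    rw [h1]
    have h2 : act n ⟨σ, hσ⟩ (QuotientGroup.mk g.1 : PGU K n) ∈ commutator (PGU K n) := by
      have h3 := (Subgroup.characteristic_iff_map_eq (H := commutator (PGU K n))).1 inferInstance
        (act n ⟨σ, hσ⟩)
      rw [← h3]
      exact Subgroup.mem_map.2 ⟨_, g.2, rfl⟩
    exact (inferInstance : (commutator (PGU K n)).Normal).conj_mem _ h2 _
  have h3 := hact g ⟨_, hg'⟩ rfl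
  have h4 : β (omI K n g) = omI K n ⟨_, hg'⟩ := by
    have h5 := (hconj (omI K n g)).symm.trans h3
    exact SemidirectProduct.inl_inj.1 h5
  rw [h4]
  show (SemidirectProduct.inl (QuotientGroup.mk (u * mapGU ⟨σ, hσ⟩ g.1 * u⁻¹) : PGU K n) : PGamU K n) =
    SemidirectProduct.inl (QuotientGroup.mk u) * SemidirectProduct.inr ⟨σ, hσ⟩ *
      SemidirectProduct.inl (QuotientGroup.mk g.1) * _
  have h6 : (SemidirectProduct.inl (act n ⟨σ, hσ⟩ (QuotientGroup.mk g.1 : PGU K n)) : PGamU K n) =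
      SemidirectProduct.inr ⟨σ, hσ⟩ * SemidirectProduct.inl (QuotientGroup.mk g.1) *
      SemidirectProduct.inr (⟨σ, hσ⟩ : SA K)⁻¹ := SemidirectProduct.inl_aut _ _
  have h7 : (QuotientGroup.mk (u * mapGU ⟨σ, hσ⟩ g.1 * u⁻¹) : PGU K n) =
        QuotientGroup.mk u * act n ⟨σ, hσ⟩ (QuotientGroup.mk g.1) * (QuotientGroup.mk u)⁻¹ := rfl
  rw [h7, map_mul, map_mul, h6, map_inv, map_inv]
  group

end orth

end Vale.Agent.P240.R2.H651
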