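import Vale.Agent.P240.R2.H651.GenQ
import Vale.Agent.P240.R2.H275.OGood

/-!
`PHom` for `Ω_n(q)`, `n` odd `≥ 5`, `q` odd `≥ 7`, unconditional.
-/

set_option autoImplicit false

namespace Vale.Agent.P240.R2.H651

open Finset Matrix Vale.Agent.P240.R2.AS Vale.Agent.P240.R2.H38
open Vale.Agent.P240.R2.H296.O (SOm)
open scoped Classical

universe u v

variable {K : Type u} [Field K] [Fintype K] [StarRing K] {n : ℕ}
variable {G : Type v} [Group G]

theorem phom_of_range (hs : ∀ x : K, star x = x) (hq : Odd (Nat.card K))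
    (h7 : 7 ≤ Nat.card K) (hodd : Odd n) (hn : 5 ≤ n) {L : Subgroup G} {ε : SOm K n →* G}
    (hr : ε.range = L)
    (ker : ∀ g : SOm K n, ε g = 1 ↔ ∃ a : K, mx g = a • (1 : Matrix (Fin n) (Fin n) K)) :
    PHom 2 (-1 : K) (-1) L ε :=
  pHom_Om H145.stmtO6a hs hq h7 hn hodd two_ne_zero
    (H275.sgood_Om hs hq h7 hodd (by omega)) hr ker

theorem phom_Om (hs : ∀ x : K, star x = x) (hq : Odd (Nat.card K))
    (h7 : 7 ≤ Nat.card K) (hodd : Odd n) (hn : 5 ≤ n) (L : Subgroup G)
    (e : ↥(commutator (PGU K n)) ≃* ↥L) :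
    ∃ ε : SOm K n →* G, PHom 2 (-1 : K) (-1) L ε ∧
      ∀ g : SOm K n, ε g = ((e ⟨QuotientGroup.mk g.1, g.2⟩ : ↥L) : G) := by
  let π : SOm K n →* ↥(commutator (PGU K n)) :=
    { toFun := fun g => ⟨QuotientGroup.mk g.1, g.2⟩
      map_one' := rfl
      map_mul' := fun a b => rfl }
  let ε : SOm K n →* G := L.subtype.comp (e.toMonoidHom.comp π)
  have hsc := scal_of_fix_o (n := n) hs hq (by omega)
  refine ⟨ε, phom_of_range hs hq h7 hodd hn ?_ ?_, fun g => rfl⟩
  · ext y
    constructor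
    · rintro ⟨g, rfl⟩
      exact (e (π g)).2
    · intro hy
      obtain ⟨z, hz⟩ := e.surjective ⟨y, hy⟩
      obtain ⟨g, hg⟩ := QuotientGroup.mk_surjective z.1
      have hmem : g ∈ SOm K n := by
        show (QuotientGroup.mk g : PGU K n) ∈ commutator (PGU K n)
        rw [hg]
        exact z.2
      refine ⟨⟨g, hmem⟩, ?_⟩
      have h1 : π ⟨g, hmem⟩ = z := Subtype.ext hg
      show ((e (π _) : ↥L) : G) = y
      rw [h1, hz]
  · intro g
    have h1 : ε g = 1 ↔ (QuotientGroup.mk g.1 : PGU K n) = 1 := by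
      constructor
      · intro h
        have h2 : e (π g) = 1 := Subtype.ext h
        have h3 : π g = 1 := by
          apply e.injective
          rw [h2, map_one]
        exact congrArg Subtype.val h3
      · intro h
        have h3 : π g = 1 := Subtype.ext h
        show ((e (π g) : ↥L) : G) = 1
        rw [h3, map_one]
        rfl
    rw [h1, center_scal hsc (two_ne hq) g.1]
    rfl

end Vale.Agent.P240.R2.H651
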