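import Vale.Agent.P240.R2.H38.UDefs
import Vale.Agent.P240.R2.H715.CardU
import Vale.Agent.P240.R2.H472.Nrm

/-!
AUT-SU, group part 1: lines, transitivity of `SU_n` on nondegenerate lines.
-/

set_option autoImplicit false
set_option linter.unusedSectionVars false

namespace Vale.Agent.P240.R2.H651

open Finset Matrix Vale.Agent.P240.R2.AS Vale.Agent.P240.R2.H38
open scoped Classical

universe u v

section lines

variable {K : Type u} [Field K] [StarRing K] {n : ℕ}

lemma ln_idem (P : Ln K n) : P.1 * P.1 = P.1 := by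
  obtain ⟨x, hx, hP⟩ := P.2
  rw [hP, vecMulVec_mul_vecMulVec, hx]
  simp

lemma ln_star (P : Ln K n) : star P.1 = P.1 := by
  obtain ⟨x, hx, hP⟩ := P.2
  rw [hP, star_eq_conjTranspose, conjTranspose_vecMulVec, star_star]

lemma ln_ne (P : Ln K n) : P.1 ≠ 0 := by
  obtain ⟨x, hx, hP⟩ := P.2
  intro h
  have h2 := congrArg (fun M => star x ⬝ᵥ (M *ᵥ x)) h
  simp only [hP, vecMulVec_mulVec, zero_mulVec, dotProduct_zero] at h2
  rw [hx] at h2
  simp only [MulOpposite.op_one, one_smul] at h2
  rw [hx] at h2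
  exact one_ne_zero h2

lemma ln_symm {P Q : Ln K n} (h : P.1 * Q.1 = 0) : Q.1 * P.1 = 0 := by
  have := congrArg star h
  rw [star_mul, ln_star, ln_star, star_zero] at this
  exact this

lemma single_proj (i : Fin n) :
    (single i i (1 : K)) = vecMulVec (Pi.single i 1) (star (Pi.single i 1)) := by
  rw [← Pi.single_star, star_one]
  exact single_eq_single_vecMulVec_single i i

/-- the coordinate lines -/
noncomputable def E (i : Fin n) : Ln K n :=
  ⟨single i i 1, Pi.single i 1, by simp, single_proj i⟩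

lemma E_val (i : Fin n) : (E i : Ln K n).1 = single i i 1 := rfl

/-- `SU` acts on the lines -/
noncomputable def cj (g : GU K n) (P : Ln K n) : Ln K n :=
  ⟨g.1 * P.1 * star g.1, by
    obtain ⟨x, hx, hP⟩ := P.2
    refine ⟨g.1 *ᵥ x, ?_, ?_⟩
    · rw [star_mulVec, dotProduct_mulVec, vecMul_vecMul, ← star_eq_conjTranspose,
        mem_unitaryGroup_iff'.1 g.2, vecMul_one, hx]
    · rw [hP, mul_vecMulVec, vecMulVec_mul, star_mulVec, star_eq_conjTranspose]⟩

lemma cj_val (g : GU K n) (P : Ln K n) : (cj g P).1 = g.1 * P.1 * star g.1 := rfl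

lemma cj_mul (g h : GU K n) (P : Ln K n) : cj (g * h) P = cj g (cj h P) := by
  apply Subtype.ext
  rw [cj_val, cj_val, cj_val]
  have : (g * h).1 = g.1 * h.1 := rfl
  rw [this, star_mul]
  simp only [Matrix.mul_assoc]

lemma cj_one (P : Ln K n) : cj 1 P = P := by
  apply Subtype.ext
  rw [cj_val]
  have : (1 : GU K n).1 = 1 := rfl
  rw [this, star_one, Matrix.mul_one, Matrix.one_mul]

lemma cj_inv_cj (g : GU K n) (P : Ln K n) : cj g⁻¹ (cj g P) = P := by
  rw [← cj_mul, inv_mul_cancel, cj_one]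

end lines

section trans

variable {K : Type u} [Field K] [Fintype K] [StarRing K] {n q : ℕ}

lemma exists_tr (hq : 2 ≤ q) (hK : Nat.card K = q ^ 2) (hs : ∀ x : K, star x = x ^ q) :
    ∃ u : K, u + star u ≠ 0 := by
  by_contra hcon
  push Not at hcon
  have h1 : (1 : K) + 1 = 0 := by
    have := hcon 1
    rwa [star_one] at this
  have h2 : ∀ x : K, x ^ q = x := by
    intro x
    have h3 := hcon x
    rw [hs] at h3
    linear_combination h3 - x * h1
  have hne : (Polynomial.X ^ q - Polynomial.X : Polynomial K) ≠ 0 :=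
    FiniteField.X_pow_card_sub_X_ne_zero K (by omega)
  have h4 : Fintype.card K ≤ q := by
    have h5 : (Finset.univ : Finset K) ⊆ (Polynomial.X ^ q - Polynomial.X : Polynomial K).roots.toFinset := by
      intro x _
      rw [Multiset.mem_toFinset, Polynomial.mem_roots hne]
      simp [h2 x]
    calc Fintype.card K = (Finset.univ : Finset K).card := rfl
      _ ≤ _ := Finset.card_le_card h5
      _ ≤ Multiset.card _ := Multiset.toFinset_card_le _
      _ ≤ _ := Polynomial.card_roots' _
      _ = q := FiniteField.X_pow_card_sub_X_natDegree_eq K (by omega)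
  rw [Nat.card_eq_fintype_card] at hK
  rw [hK] at h4
  nlinarith

lemma exists_aniso (hq : 2 ≤ q) (hK : Nat.card K = q ^ 2) (hs : ∀ x : K, star x = x ^ q)
    {M : Matrix (Fin n) (Fin n) K} (hM : star M = M) (h0 : M ≠ 0) :
    ∃ v : Fin n → K, star v ⬝ᵥ (M *ᵥ v) ≠ 0 := by
  by_contra hcon
  push Not at hcon
  have hst : ∀ i j, star (M i j) = M j i := by
    intro i j
    have := congrFun (congrFun hM j) i
    rw [← this]
    rfl
  have key : ∀ (i j : Fin n) (a b : K), star (a • Pi.single i (1 : K) + b • Pi.single j 1) ⬝ᵥ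
      (M *ᵥ (a • Pi.single i (1 : K) + b • Pi.single j 1)) =
      star a * a * M i i + star a * b * M i j + star b * a * M j i + star b * b * M j j := by
    intro i j a b
    simp only [star_add, star_smul, mulVec_add, mulVec_smul, mulVec_single_one, add_dotProduct,
      dotProduct_add, smul_dotProduct, dotProduct_smul, smul_eq_mul, ← Pi.single_star, star_one,
      single_one_dotProduct, col_apply]
    ring
  have hd : ∀ i, M i i = 0 := by
    intro i
    have := key i i 1 0
    rw [hcon] at this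
    simpa using this.symm
  apply h0
  ext i j
  by_contra hij
  rw [Matrix.zero_apply] at hij
  obtain ⟨u, hu⟩ := exists_tr hq hK hs
  have h1 := key i j 1 (u / M i j)
  rw [hcon, hd, hd, ← hst i j] at h1
  apply hu
  have h2 : star (M i j) ≠ 0 := star_ne_zero.2 hij
  rw [star_div₀, star_one] at h1
  have e1 : u / M i j * M i j = u := div_mul_cancel₀ _ hij
  have e2 : star u / star (M i j) * star (M i j) = star u := div_mul_cancel₀ _ h2
  linear_combination -h1 - e1 - e2

/-- norm surjectivity -/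
lemma exists_norm (hK : Nat.card K = q ^ 2) (hs : ∀ x : K, star x = x ^ q)
    {c : K} (h0 : c ≠ 0) (hc : star c = c) : ∃ x : K, star x * x = c := by
  rw [Nat.card_eq_fintype_card] at hK
  rw [hs] at hc
  obtain ⟨x, hx⟩ := H472.exists_pow hK h0 hc
  exact ⟨x, by rw [hs, ← pow_succ, hx]⟩

lemma exists_line (hK : Nat.card K = q ^ 2) (hs : ∀ x : K, star x = x ^ q) {v : Fin n → K}
    (hv : star v ⬝ᵥ v ≠ 0) : ∃ Q : Ln K n, ∃ a : K, a ≠ 0 ∧ a * star a * (star v ⬝ᵥ v) = 1 ∧
      Q.1 = (a * star a) • vecMulVec v (star v) := by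
  have h1 : star (star v ⬝ᵥ v) = star v ⬝ᵥ v := by rw [← star_dotProduct_star, star_star]
  obtain ⟨a, ha⟩ := exists_norm hK hs (inv_ne_zero hv) (by rw [star_inv₀, h1])
  have ha0 : a ≠ 0 := by
    rintro rfl
    rw [mul_zero] at ha
    exact inv_ne_zero hv ha.symm
  have h2 : a * star a * (star v ⬝ᵥ v) = 1 := by
    rw [mul_comm a, ha, inv_mul_cancel₀ hv]
  refine ⟨⟨(a * star a) • vecMulVec v (star v), a • v, ?_, ?_⟩, a, ha0, h2, rfl⟩
  · rw [star_smul, smul_dotProduct, dotProduct_smul, smul_eq_mul, smul_eq_mul, ← mul_assoc,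
      mul_comm (star a), h2]
  · rw [star_smul, smul_vecMulVec, vecMulVec_smul, smul_smul]

lemma sm_cons (P : Ln K n) (w : List (Ln K n)) : sm (P :: w) = P.1 + sm w := by
  simp [sm]

lemma sm_nil : sm ([] : List (Ln K n)) = 0 := rfl

lemma star_sm (w : List (Ln K n)) : star (sm w) = sm w := by
  induction w with
  | nil => rw [sm_nil, star_zero]
  | cons P w ih => rw [sm_cons, star_add, ih, ln_star]

lemma mul_sm {w : List (Ln K n)} (hw : Orth w) {P : Ln K n} (hP : P ∈ w) :
    P.1 * sm w = P.1 := by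
  induction w with
  | nil => simp at hP
  | cons Q w ih =>
    have h1 := List.pairwise_cons.1 hw
    rw [sm_cons, Matrix.mul_add]
    rcases List.mem_cons.1 hP with rfl | hP
    · have : P.1 * sm w = 0 := by
        have h2 : ∀ R ∈ w, P.1 * R.1 = 0 := h1.1
        clear ih hP h1 hw
        induction w with
        | nil => rw [sm_nil, Matrix.mul_zero]
        | cons R w ih2 =>
          rw [sm_cons, Matrix.mul_add, h2 R (by simp), ih2 (fun S hS => h2 S (by simp [hS])),
            add_zero]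
      rw [this, ln_idem, add_zero]
    · rw [ih h1.2 hP, ln_symm (h1.1 P hP), zero_add]

lemma sm_idem {w : List (Ln K n)} (hw : Orth w) : sm w * sm w = sm w := by
  induction w with
  | nil => rw [sm_nil, Matrix.mul_zero]
  | cons P w ih =>
    have h1 := List.pairwise_cons.1 hw
    have h2 : P.1 * sm w = 0 := by
      have h3 := mul_sm hw (List.mem_cons_self (a := P) (l := w))
      rw [sm_cons, Matrix.mul_add, ln_idem] at h3
      simpa using h3
    have h4 : sm w * P.1 = 0 := by
      have := congrArg star h2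
      rw [star_mul, ln_star, star_sm, star_zero] at this
      exact this
    rw [sm_cons, Matrix.mul_add, Matrix.add_mul, Matrix.add_mul, ln_idem, h2, h4,
      ih h1.2]
    simp

lemma exists_perp (w : List (Ln K n)) (hl : w.length < n) :
    ∃ v : Fin n → K, v ≠ 0 ∧ ∀ P ∈ w, P.1 *ᵥ v = 0 := by
  have h1 : ∀ i : Fin w.length, ∃ x : Fin n → K, (w.get i).1 = vecMulVec x (star x) := by
    intro i
    obtain ⟨x, _, h⟩ := (w.get i).2
    exact ⟨x, h⟩
  choose x hx using h1
  let A : Matrix (Fin w.length) (Fin n) K := Matrix.of (fun i => star (x i))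
  have h2 : A.mulVecLin.ker ≠ ⊥ := LinearMap.ker_ne_bot_of_finrank_lt (by simp [hl])
  obtain ⟨v, hv, hv0⟩ := Submodule.exists_mem_ne_zero_of_ne_bot h2
  refine ⟨v, hv0, fun P hP => ?_⟩
  obtain ⟨i, rfl⟩ := List.get_of_mem hP
  rw [hx, vecMulVec_mulVec]
  have h3 : star (x i) ⬝ᵥ v = 0 := congrFun hv i
  rw [h3]
  simp

lemma sm_mulVec {w : List (Ln K n)} {v : Fin n → K} (h : ∀ P ∈ w, P.1 *ᵥ v = 0) :
    sm w *ᵥ v = 0 := by
  induction w with
  | nil => rw [sm_nil, zero_mulVec]
  | cons P w ih =>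
    rw [sm_cons, add_mulVec, h P (by simp), ih (fun Q hQ => h Q (by simp [hQ])), add_zero]

lemma sm_ne_one {w : List (Ln K n)} (hl : w.length < n) : sm w ≠ 1 := by
  intro h
  obtain ⟨v, hv0, hv⟩ := exists_perp w hl
  have h1 := sm_mulVec hv
  rw [h, one_mulVec] at h1
  exact hv0 h1

lemma exists_next (hq : 2 ≤ q) (hK : Nat.card K = q ^ 2) (hs : ∀ x : K, star x = x ^ q)
    {w : List (Ln K n)} (hw : Orth w) (hl : w.length < n) : ∃ Q : Ln K n, Orth (Q :: w) := by
  have h1 : star (1 - sm w) = 1 - sm w := by rw [star_sub, star_one, star_sm]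
  have h2 : 1 - sm w ≠ 0 := fun h => sm_ne_one hl (sub_eq_zero.1 h).symm
  obtain ⟨v, hv⟩ := exists_aniso hq hK hs h1 h2
  have h3 : (1 - sm w) * (1 - sm w) = 1 - sm w := by
    rw [Matrix.mul_sub, Matrix.sub_mul, Matrix.sub_mul, sm_idem hw]
    simp
  have h4 : star ((1 - sm w) *ᵥ v) ⬝ᵥ ((1 - sm w) *ᵥ v) ≠ 0 := by
    rw [star_mulVec, dotProduct_mulVec, vecMul_vecMul, ← star_eq_conjTranspose, h1, h3,
      ← dotProduct_mulVec]
    exact hv
  obtain ⟨Q, a, ha, _, hQ⟩ := exists_line hK hs h4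
  refine ⟨Q, List.pairwise_cons.2 ⟨fun P hP => ?_, hw⟩⟩
  rw [hQ, smul_mul, vecMulVec_mul, star_mulVec, vecMul_vecMul, ← star_eq_conjTranspose, h1]
  have h5 : (1 - sm w) * P.1 = 0 := by
    have := congrArg star (mul_sm hw hP)
    rw [star_mul, star_sm, ln_star] at this
    rw [Matrix.sub_mul, this, Matrix.one_mul, sub_self]
  rw [h5, vecMul_zero, vecMulVec_zero, smul_zero]

lemma exists_frame (hq : 2 ≤ q) (hK : Nat.card K = q ^ 2) (hs : ∀ x : K, star x = x ^ q)
    (P : Ln K n) : ∀ k : ℕ, k < n → ∃ w : List (Ln K n), w.length = k ∧ Orth (w ++ [P]) := by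
  intro k
  induction k with
  | zero => exact fun _ => ⟨[], rfl, by simp [Orth]⟩
  | succ k ih =>
    intro hk
    obtain ⟨w, hw, ho⟩ := ih (by omega)
    obtain ⟨Q, hQ⟩ := exists_next hq hK hs ho (by simp [hw]; omega)
    exact ⟨Q :: w, by simp [hw], hQ⟩

/-- every line is the last line of a frame -/
lemma exists_unit (hq : 2 ≤ q) (hK : Nat.card K = q ^ 2) (hs : ∀ x : K, star x = x ^ q)
    (m : ℕ) (P : Ln K (m + 1)) : ∃ g : GU K (m + 1), cj g (E (Fin.last m)) = P := by
  obtain ⟨w, hw, ho⟩ := exists_frame hq hK hs P m (by omega)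
  obtain ⟨g, hg⟩ := H715.exists_fr (w := w ++ [P]) (by simp [hw]) ho
  refine ⟨g, ?_⟩
  have hlen : (H715.fr g).length = m + 1 := List.length_ofFn
  have h1 : (H715.fr g)[m]'(by omega) = P := by
    rw [List.getElem_of_eq hg]
    simp [← hw]
  have h0 : ∀ (l : List (Ln K (m + 1))) (f : Fin (m + 1) → Ln K (m + 1)) (_ : l = List.ofFn f)
      (h : m < l.length), l[m] = f (Fin.last m) := by
    rintro _ f rfl h
    rw [List.getElem_ofFn]
    rfl
  have h2 := h0 (H715.fr g) _ rfl (by omega)
  rw [← h1, h2]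
  apply Subtype.ext
  rw [cj_val, E_val, single_proj, mul_vecMulVec, vecMulVec_mul, star_eq_conjTranspose,
    ← star_mulVec, mulVec_single_one]
  rfl

end trans

end Vale.Agent.P240.R2.H651
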