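import Vale.Agent.P240.R2.H651.Grp1

/-!
AUT-SU, group part 2: the map on lines.
-/

set_option autoImplicit false
set_option linter.unusedSectionVars false

namespace Vale.Agent.P240.R2.H651

open Finset Matrix Vale.Agent.P240.R2.AS Vale.Agent.P240.R2.H38
open scoped Classical

universe u v

section mats

variable {K : Type u} [Field K] [Fintype K] [StarRing K] {n q : ℕ} {ζ c : K}

/-- hypotheses on the scalars -/
structure Zc (n : ℕ) (ζ c : K) : Prop where
  z1 : ζ ≠ 1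
  zz : ζ * star ζ = 1
  cc : c * star c = 1
  cn : c ^ n * ζ = 1

lemma Zc.c0 (h : Zc n ζ c) : c ≠ 0 := by
  rintro rfl
  have := h.cc
  rw [zero_mul] at this
  exact zero_ne_one this

lemma mt_mul (a b : SU K n) : mt (a * b) = mt a * mt b := rfl

lemma mt_inv (a : SU K n) : mt a⁻¹ = star (mt a) := rfl

lemma mt_star_mul (a : SU K n) : star (mt a) * mt a = 1 := mem_unitaryGroup_iff'.1 a.1.2

lemma mt_mul_star (a : SU K n) : mt a * star (mt a) = 1 := mem_unitaryGroup_iff.1 a.1.2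

lemma sM_one (P : Ln K n) : sM ζ c [P] = c • (1 + (ζ - 1) • P.1) := by
  rw [sM, sm_cons, sm_nil, add_zero]
  simp

lemma det_refl (P : Ln K n) : (1 + (ζ - 1) • P.1).det = ζ := by
  obtain ⟨x, hx, hP⟩ := P.2
  rw [hP, vecMulVec_eq Unit, ← Matrix.smul_mul]
  have : (ζ - 1) • replicateCol Unit x = replicateCol Unit ((ζ - 1) • x) := by
    ext i j
    simp
  rw [this, det_one_add_replicateCol_mul_replicateRow, dotProduct_smul, hx]
  simp

lemma mt_sW (h : Zc n ζ c) (P : Ln K n) : mt (sW ζ c [P]) = c • (1 + (ζ - 1) • P.1) := by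
  have h1 : (1 + (ζ - 1) • P.1) ∈ unitaryGroup (Fin n) K := eU_aux ⟨ln_star P, ln_idem P, h.zz⟩
  have h2 : c • (1 + (ζ - 1) • P.1) ∈ unitaryGroup (Fin n) K := by
    rw [mem_unitaryGroup_iff] at h1 ⊢
    rw [star_smul, smul_mul_smul_comm, h1, h.cc, one_smul]
  have h3 : (c • (1 + (ζ - 1) • P.1)).det = 1 := by
    rw [det_smul, Fintype.card_fin, det_refl, h.cn]
  have hex : ∃ g : SU K n, mt g = sM ζ c [P] := ⟨⟨⟨_, h2⟩, h3⟩, (sM_one P).symm⟩
  rw [sW, dif_pos hex, hex.choose_spec, sM_one]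

lemma sW_cj (h : Zc n ζ c) (g : SU K n) (P : Ln K n) :
    g * sW ζ c [P] * g⁻¹ = sW ζ c [cj g.1 P] := by
  apply mt_inj
  rw [mt_mul, mt_mul, mt_inv, mt_sW h, mt_sW h, cj_val, Matrix.mul_smul, Matrix.smul_mul,
    Matrix.mul_add, Matrix.add_mul, Matrix.mul_one, mt_mul_star, Matrix.mul_smul, Matrix.smul_mul]
  rfl

lemma op_smul_vec (a : K) (x : Fin n → K) : MulOpposite.op a • x = a • x := by
  funext i
  simp [mul_comm]

lemma mul_lines {x y : Fin n → K} :
    vecMulVec x (star x) * vecMulVec y (star y) = (star x ⬝ᵥ y) • vecMulVec x (star y) := by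
  rw [vecMulVec_mul_vecMulVec, vecMulVec_smul]

/-- rank one projections that commute are equal or orthogonal -/
lemma comm_lines {P Q : Ln K n} (h : P.1 * Q.1 = Q.1 * P.1) : P = Q ∨ P.1 * Q.1 = 0 := by
  obtain ⟨x, hx, hP⟩ := P.2
  obtain ⟨y, hy, hQ⟩ := Q.2
  by_cases h0 : star x ⬝ᵥ y = 0
  · right
    rw [hP, hQ, mul_lines, h0, zero_smul]
  · left
    rw [hP, hQ, mul_lines, mul_lines] at h
    have h1 := congrArg (fun M => M *ᵥ y) h
    simp only [smul_mulVec, vecMulVec_mulVec, hy, op_smul_vec, one_smul, smul_smul] at h1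
    have h2 : x = (star y ⬝ᵥ x) • y := by
      have h3 := congrArg (fun v => (star x ⬝ᵥ y)⁻¹ • v) h1
      simp only [smul_smul] at h3
      rw [inv_mul_cancel₀ h0, one_smul] at h3
      have h9 : (star x ⬝ᵥ y)⁻¹ * (star y ⬝ᵥ x * star x ⬝ᵥ y) = star y ⬝ᵥ x := by
        field_simp
      rw [h9] at h3
      exact h3
    have h4 : star (star y ⬝ᵥ x) * (star y ⬝ᵥ x) = 1 := by
      have h5 := hx
      nth_rewrite 1 [h2] at h5
      nth_rewrite 2 [h2] at h5
      rw [star_smul, smul_dotProduct, dotProduct_smul, hy] at h5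
      simpa using h5
    apply Subtype.ext
    rw [hP, hQ, h2]
    exact H715.smul_proj h4

end mats

section grp

variable {K : Type u} [Field K] [Fintype K] [StarRing K] {n q : ℕ} {ζ c : K}
variable {G : Type v} [Group G] {ε : SU K n →* G}

lemma eps_eq (ker : ∀ g : SU K n, ε g = 1 ↔ ∃ c : K, mt g = c • (1 : Matrix (Fin n) (Fin n) K))
    {a b : SU K n} (h : ε a = ε b) : ∃ l : K, mt a = l • mt b := by
  have h1 : ε (a * b⁻¹) = 1 := by rw [map_mul, map_inv, h, mul_inv_cancel]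
  obtain ⟨l, hl⟩ := (ker _).1 h1
  refine ⟨l, ?_⟩
  have h2 : mt a = mt (a * b⁻¹) * mt b := by
    rw [← mt_mul, inv_mul_cancel_right]
  rw [h2, hl, Matrix.smul_mul, Matrix.one_mul]

lemma sW_inj (h : Zc n ζ c) (hn : 3 ≤ n)
    (ker : ∀ g : SU K n, ε g = 1 ↔ ∃ c : K, mt g = c • (1 : Matrix (Fin n) (Fin n) K))
    {P Q : Ln K n} (he : ε (sW ζ c [P]) = ε (sW ζ c [Q])) : P = Q := by
  obtain ⟨l, hl⟩ := eps_eq ker he
  rw [mt_sW h, mt_sW h] at hl
  obtain ⟨v, hv0, hv⟩ := exists_perp [P, Q] (by simp; omega)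
  have hP := hv P (by simp)
  have hQ := hv Q (by simp)
  have h1 := congrArg (fun M => M *ᵥ v) hl
  simp only [smul_mulVec, add_mulVec, one_mulVec, hP, hQ, smul_zero, add_zero, smul_smul] at h1
  have h2 : c = l * c := by
    by_contra hne
    have h3 : (c - l * c) • v = 0 := by rw [sub_smul, h1, sub_self]
    rcases smul_eq_zero.1 h3 with h4 | h4
    · exact hne (sub_eq_zero.1 h4)
    · exact hv0 h4
  rw [smul_smul, ← h2] at hl
  have h5 := congrArg (fun M => c⁻¹ • M) hl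
  simp only [smul_smul, inv_mul_cancel₀ h.c0, one_smul] at h5
  have h6 := add_left_cancel h5
  have h7 := congrArg (fun M => (ζ - 1)⁻¹ • M) h6
  simp only [smul_smul, inv_mul_cancel₀ (sub_ne_zero.2 h.z1), one_smul] at h7
  exact Subtype.ext h7

lemma sW_comm (h : Zc n ζ c) {P Q : Ln K n} (ho : P.1 * Q.1 = 0) :
    ε (sW ζ c [P]) * ε (sW ζ c [Q]) = ε (sW ζ c [Q]) * ε (sW ζ c [P]) := by
  have key : ∀ A B : Matrix (Fin n) (Fin n) K, A * B = 0 →
      (1 + (ζ - 1) • A) * (1 + (ζ - 1) • B) = 1 + (ζ - 1) • B + (ζ - 1) • A := by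
    intro A B hAB
    rw [Matrix.add_mul, Matrix.one_mul, Matrix.mul_add, Matrix.mul_one, smul_mul_smul_comm, hAB,
      smul_zero, add_zero]
  rw [← map_mul, ← map_mul]
  refine congrArg ε (mt_inj ?_)
  rw [mt_mul, mt_mul, mt_sW h, mt_sW h, smul_mul_smul_comm, smul_mul_smul_comm, key _ _ ho,
    key _ _ (ln_symm ho), add_assoc, add_comm ((ζ - 1) • Q.1), ← add_assoc]

lemma comm_sW (h : Zc n ζ c) (hn : 3 ≤ n)
    (ker : ∀ g : SU K n, ε g = 1 ↔ ∃ c : K, mt g = c • (1 : Matrix (Fin n) (Fin n) K))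
    {P Q : Ln K n}
    (he : ε (sW ζ c [P]) * ε (sW ζ c [Q]) = ε (sW ζ c [Q]) * ε (sW ζ c [P])) :
    P = Q ∨ P.1 * Q.1 = 0 := by
  rw [← map_mul, ← map_mul] at he
  obtain ⟨l, hl⟩ := eps_eq ker he
  rw [mt_mul, mt_mul, mt_sW h, mt_sW h] at hl
  obtain ⟨v, hv0, hv⟩ := exists_perp [P, Q] (by simp; omega)
  have hP := hv P (by simp)
  have hQ := hv Q (by simp)
  have hP2 : (1 + (ζ - 1) • P.1) *ᵥ v = v := by
    rw [add_mulVec, one_mulVec, smul_mulVec, hP, smul_zero, add_zero]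
  have hQ2 : (1 + (ζ - 1) • Q.1) *ᵥ v = v := by
    rw [add_mulVec, one_mulVec, smul_mulVec, hQ, smul_zero, add_zero]
  rw [smul_mul_smul_comm, smul_mul_smul_comm, smul_smul] at hl
  have h1 := congrArg (fun M => M *ᵥ v) hl
  simp only [smul_mulVec, ← mulVec_mulVec, hP2, hQ2] at h1
  have hcc : c * c ≠ 0 := mul_ne_zero h.c0 h.c0
  have h2 : c * c = l * (c * c) := by
    by_contra hne
    have h3 : (c * c - l * (c * c)) • v = 0 := by rw [sub_smul, h1, sub_self]
    rcases smul_eq_zero.1 h3 with h4 | h4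
    · exact hne (sub_eq_zero.1 h4)
    · exact hv0 h4
  rw [← h2] at hl
  have h5 := congrArg (fun M => (c * c)⁻¹ • M) hl
  simp only [smul_smul, inv_mul_cancel₀ hcc, one_smul] at h5
  apply comm_lines
  have hz : ζ - 1 ≠ 0 := sub_ne_zero.2 h.z1
  simp only [Matrix.smul_mul, Matrix.mul_smul, Matrix.add_mul, Matrix.mul_add, Matrix.one_mul,
    Matrix.mul_one, smul_add] at h5
  have h6 : (ζ - 1) • (ζ - 1) • (P.1 * Q.1) = (ζ - 1) • (ζ - 1) • (Q.1 * P.1) := by
    have h7 : ∀ A B C D : Matrix (Fin n) (Fin n) K, 1 + A + (B + C) = 1 + B + (A + D) → C = D := by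
      intro A B C D h8
      have h9 : C = (1 + A + (B + C)) - 1 - A - B := by abel
      rw [h9, h8]
      abel
    exact h7 _ _ _ _ h5
  have h8 := congrArg (fun M => ((ζ - 1) * (ζ - 1))⁻¹ • M) h6
  simp only [smul_smul] at h8
  have hzz : (ζ - 1) * (ζ - 1) ≠ 0 := mul_ne_zero hz hz
  rw [inv_mul_cancel₀ hzz, one_smul, one_smul] at h8
  exact h8

end grp

end Vale.Agent.P240.R2.H651
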