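import Vale.Agent.P240.R2.H651.Grp3
import Vale.Agent.P240.R2.H744.Wig

/-!
AUT-SU, group part 4: the map `f` on the lines changes the transition probabilities by a function;
`acts_of_fix`.
-/

set_option autoImplicit false
set_option linter.unusedSectionVars false

namespace Vale.Agent.P240.R2.H651

open Finset Matrix Vale.Agent.P240.R2.AS Vale.Agent.P240.R2.H38
open scoped Classical

universe u v

section main

variable {K : Type u} [Field K] [Fintype K] [StarRing K] {n q : ℕ} {ζ c : K}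
variable {G : Type v} [Group G] {ε : SU K n →* G}

instance : Finite (Ln K n) := Subtype.finite

lemma trace_cj (g : GU K n) (P Q : Ln K n) :
    ((cj g P).1 * (cj g Q).1).trace = (P.1 * Q.1).trace := by
  rw [cj_val, cj_val]
  have h := mem_unitaryGroup_iff'.1 g.2
  calc (g.1 * P.1 * star g.1 * (g.1 * Q.1 * star g.1)).trace
      = (g.1 * P.1 * (star g.1 * g.1) * Q.1 * star g.1).trace := by
        simp only [Matrix.mul_assoc]
    _ = (g.1 * (P.1 * Q.1 * star g.1)).trace := by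
        rw [h]; simp only [Matrix.mul_assoc, Matrix.one_mul]
    _ = (P.1 * Q.1 * star g.1 * g.1).trace := trace_mul_comm _ _
    _ = _ := by rw [Matrix.mul_assoc, h, Matrix.mul_one]

/-- two-point transitivity -/
def Mv (K : Type u) [Field K] [Fintype K] [StarRing K] (n : ℕ) : Prop :=
  ∀ P Q P' Q' : Ln K n, (P.1 * Q.1).trace = (P'.1 * Q'.1).trace → (P.1 * Q.1).trace ≠ 1 →
    ∃ g : SU K n, cj g.1 P = P' ∧ cj g.1 Q = Q'

/-- `1 - a` is a norm -/
lemma exists_norm0 (hq : 2 ≤ q) (hK : Nat.card K = q ^ 2) (hs : ∀ x : K, star x = x ^ q)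
    {a : K} (hc : star a = a) : ∃ x : K, star x * x = a := by
  by_cases h0 : a = 0
  · exact ⟨0, by rw [h0, mul_zero]⟩
  · exact exists_norm hK hs h0 hc

lemma exists_pt (hq : 2 ≤ q) (hK : Nat.card K = q ^ 2) (hs : ∀ x : K, star x = x ^ q)
    {a : K} (ha : star a = a) {i j : Fin n} (hij : i ≠ j) :
    ∃ Q : Ln K n, Q.1 i i = a ∧ ∀ k, k ≠ i → k ≠ j → (E k : Ln K n).1 * Q.1 = 0 := by
  obtain ⟨x, hx⟩ := exists_norm0 hq hK hs ha
  obtain ⟨y, hy⟩ := exists_norm0 hq hK hs (a := 1 - a) (by rw [star_sub, star_one, ha])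
  have hv : star (Pi.single i x + Pi.single j y : Fin n → K) ⬝ᵥ (Pi.single i x + Pi.single j y) = 1 := by
    rw [star_add, ← Pi.single_star, ← Pi.single_star]
    rw [add_dotProduct, dotProduct_add, dotProduct_add, single_dotProduct, single_dotProduct,
      single_dotProduct, single_dotProduct, Pi.single_eq_same, Pi.single_eq_same,
      Pi.single_eq_of_ne hij, Pi.single_eq_of_ne hij.symm, hx, hy]
    ring
  refine ⟨⟨_, _, hv, rfl⟩, ?_, fun k hki hkj => ?_⟩
  · show vecMulVec _ _ i i = a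
    rw [vecMulVec_apply, Pi.star_apply, Pi.add_apply, Pi.single_eq_same,
      Pi.single_eq_of_ne hij, add_zero, mul_comm, hx]
  · show single k k 1 * vecMulVec _ _ = 0
    rw [mul_vecMulVec]
    have : (single k k (1 : K)) *ᵥ (Pi.single i x + Pi.single j y) = 0 := by
      rw [mulVec_add, mulVec_single, mulVec_single]
      ext l
      simp [single_apply, hki, hkj]
    rw [this, zero_vecMulVec]

lemma E_mul_zero {k : Fin n} {Q : Ln K n} (h : (E k : Ln K n).1 * Q.1 = 0) (l : Fin n) :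
    Q.1 k l = 0 := by
  have h1 := congrFun (congrFun h k) l
  rw [E_val, Matrix.mul_apply, Finset.sum_eq_single k, single_apply_same, one_mul] at h1
  · exact h1
  · intro b _ hb
    rw [single_apply_of_col_ne _ _ (Ne.symm hb), zero_mul]
  · simp

lemma trace_E (i : Fin n) (Q : Ln K n) : ((E i : Ln K n).1 * Q.1).trace = Q.1 i i := by
  rw [E_val, trace_mul_comm]
  exact H744.trace_E Q.1 i

lemma ne_one (hn : 2 ≤ n) (hq : 2 ≤ q) (hK : Nat.card K = q ^ 2)
    (hs : ∀ x : K, star x = x ^ q) (hM : Mv K n)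
    {x : G} {f : Ln K n → Ln K n} {τ : SU K n → SU K n} (hF : FMap ε ζ c x f τ)
    {P Q : Ln K n} (h : (P.1 * Q.1).trace ≠ 1) : ((f P).1 * (f Q).1).trace ≠ 1 := by
  have h01 : (⟨0, by omega⟩ : Fin n) ≠ ⟨1, by omega⟩ := by
    intro h
    have := congrArg Fin.val h
    simp at this
  set i : Fin n := ⟨0, by omega⟩ with hi
  set j : Fin n := ⟨1, by omega⟩ with hj
  have ha : star (P.1 * Q.1).trace = (P.1 * Q.1).trace := H744.trace_fix P Q
  obtain ⟨Q0, hQ0, hQ1⟩ := exists_pt hq hK hs ha h01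
  obtain ⟨g, hg1, hg2⟩ := hM (E i) Q0 P Q (by rw [trace_E, hQ0]) (by rw [trace_E, hQ0]; exact h)
  rw [← hg1, ← hg2, hF.equi, hF.equi, trace_cj, hF.fix, trace_E]
  intro h1
  have h2 : ∀ k, k ≠ i → k ≠ j → ∀ l, (f Q0).1 k l = 0 := by
    intro k hki hkj
    apply E_mul_zero
    rw [← hF.fix k]
    exact (hF.orth _ _).2 (hQ1 k hki hkj)
  have h3 : (f Q0).1 j j = 0 := by
    have h4 := H744.Ln_trace (f Q0)
    have h5 : (f Q0).1.trace = (f Q0).1 i i + (f Q0).1 j j := by
      have h6 := Finset.sum_pair (f := fun k => (f Q0).1 k k) h01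
      show ∑ k, (f Q0).1 k k = _
      refine Eq.trans ?_ h6
      symm
      apply Finset.sum_subset (Finset.subset_univ _)
      intro k _ hk
      simp only [Finset.mem_insert, Finset.mem_singleton, not_or] at hk
      exact h2 k hk.1 hk.2 k
    rw [h5, h1] at h4
    linear_combination h4
  have h6 : f Q0 = E i := by
    apply Subtype.ext
    ext k l
    rw [E_val]
    by_cases hk : k = i
    · by_cases hl : l = i
      · rw [hk, hl, h1, single_apply_same]
      · rw [hk, single_apply_of_col_ne _ _ (Ne.symm hl)]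
        by_cases hl2 : l = j
        · rw [hl2]
          exact H744.Ln_zero' _ h3 _
        · exact H744.Ln_zero' _ (h2 l hl hl2 l) _
    · rw [single_apply_of_row_ne (Ne.symm hk)]
      by_cases hk2 : k = j
      · rw [hk2]
        exact H744.Ln_zero _ h3 _
      · exact h2 k hk hk2 l
  have h7 : Q0 = E i := hF.inj (h6.trans (hF.fix i).symm)
  rw [h7, E_val, single_apply_same] at hQ0
  exact h hQ0.symm

lemma eq_one (hn : 2 ≤ n) (hq : 2 ≤ q) (hK : Nat.card K = q ^ 2)
    (hs : ∀ x : K, star x = x ^ q) (hM : Mv K n)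
    {x : G} {f : Ln K n → Ln K n} {τ : SU K n → SU K n} (hF : FMap ε ζ c x f τ)
    {P Q : Ln K n} (h : (P.1 * Q.1).trace = 1) : ((f P).1 * (f Q).1).trace = 1 := by
  by_contra hcon
  let A := {p : Ln K n × Ln K n // (p.1.1 * p.2.1).trace ≠ 1}
  let F : A → A := fun p => ⟨(f p.1.1, f p.1.2), ne_one hn hq hK hs hM hF p.2⟩
  have hinj : Function.Injective F := by
    intro p p' hp
    have h1 := congrArg (fun r : A => r.1) hp
    have h2 := Prod.ext_iff.1 h1
    exact Subtype.ext (Prod.ext (hF.inj h2.1) (hF.inj h2.2))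
  obtain ⟨p, hp⟩ := Finite.surjective_of_injective hinj ⟨(f P, f Q), hcon⟩
  have h2 := Prod.ext_iff.1 (congrArg (fun r : A => r.1) hp)
  have h3 : p.1.1 = P := hF.inj h2.1
  have h4 : p.1.2 = Q := hF.inj h2.2
  exact p.2 (by rw [h3, h4, h])

lemma exists_kappa (hn : 2 ≤ n) (hq : 2 ≤ q) (hK : Nat.card K = q ^ 2)
    (hs : ∀ x : K, star x = x ^ q) (hM : Mv K n)
    {x : G} {f : Ln K n → Ln K n} {τ : SU K n → SU K n} (hF : FMap ε ζ c x f τ) :
    ∃ κ : K → K, ∀ P Q : Ln K n, ((f P).1 * (f Q).1).trace = κ (P.1 * Q.1).trace := by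
  refine ⟨fun a => if h : ∃ p : Ln K n × Ln K n, (p.1.1 * p.2.1).trace = a then
    ((f h.choose.1).1 * (f h.choose.2).1).trace else 0, fun P Q => ?_⟩
  have h : ∃ p : Ln K n × Ln K n, (p.1.1 * p.2.1).trace = (P.1 * Q.1).trace := ⟨(P, Q), rfl⟩
  show _ = dite _ _ _
  rw [dif_pos h]
  have h1 := h.choose_spec
  by_cases h2 : (P.1 * Q.1).trace = 1
  · rw [eq_one hn hq hK hs hM hF h2, eq_one hn hq hK hs hM hF (h1.trans h2)]
  · obtain ⟨g, hg1, hg2⟩ := hM P Q h.choose.1 h.choose.2 h1.symm h2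
    conv_rhs => rw [← hg1, ← hg2]
    rw [hF.equi, hF.equi, trace_cj]

theorem acts_std (h : Zc n ζ c) (hn : 3 ≤ n) (hq : 3 ≤ q) (hK : Nat.card K = q ^ 2)
    (hs : ∀ x : K, star x = x ^ q) (hM : Mv K n)
    (ker : ∀ g : SU K n, ε g = 1 ↔ ∃ c : K, mt g = c • (1 : Matrix (Fin n) (Fin n) K))
    (x : G) (hx : ∀ g, ∃ g', x * ε g * x⁻¹ = ε g')
    (hfix : ∀ i, x * ε (sW ζ c [E i]) * x⁻¹ = ε (sW ζ c [E i])) :
    ∃ g σ, Acts ε x g σ := by
  obtain ⟨f, τ, hF⟩ := exists_FMap h hn (by omega) hK hs ker x hx hfix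
  obtain ⟨κ, hκ⟩ := exists_kappa (by omega) (by omega) hK hs hM hF
  obtain ⟨σ, d, hσ, hd, hf⟩ := H744.wigner hq hK hs hn f κ hκ (fun i => by
    have h1 : (H744.E i : Ln K n) = E i := Subtype.ext rfl
    rw [h1, hF.fix i, E_val])
  refine ⟨⟨diagonal d, ?_⟩, σ, acts_of_formula hq hK hs ker hF hσ _ hf⟩
  rw [mem_unitaryGroup_iff, star_eq_conjTranspose, diagonal_conjTranspose, diagonal_mul_diagonal,
    ← diagonal_one]
  congr 1
  funext i
  exact hd i

/-- every frame is the image of the standard frame under an element of `SU` -/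
lemma exists_SU_frame (hn : 1 ≤ n) {w : List (Ln K n)} (hw : w ∈ Fr K n) :
    ∃ U : SU K n, ∀ i : Fin n, cj U.1 (E i) ∈ w := by
  obtain ⟨hl, ho⟩ := (mem_Fr K).1 hw
  obtain ⟨g, hg⟩ := H715.exists_fr hl ho
  have h1 : ∀ (g : GU K n) (i : Fin n), cj g (E i) ∈ H715.fr g := by
    intro g i
    refine (List.mem_ofFn' _ _).2 ⟨i, ?_⟩
    symm
    apply Subtype.ext
    rw [cj_val, E_val, single_proj, mul_vecMulVec, vecMulVec_mul, star_eq_conjTranspose,
      ← star_mulVec, mulVec_single_one]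
    rfl
  set e : K := g.1.det with he
  have he1 : e * star e = 1 := det_star_mul _
  have hd : star e * star (star e) = 1 := by rw [star_star, mul_comm]; exact he1
  have h2 : ∀ i : Fin n, cj (D1 (⟨0, hn⟩ : Fin n) (star e) hd) (E i) = E i := by
    intro i
    by_cases hi : i = ⟨0, hn⟩
    · apply Subtype.ext
      rw [cj_val, E_val]
      show diagonal (Function.update 1 (⟨0, hn⟩ : Fin n) (star e)) * single i i 1 *
        star (diagonal (Function.update 1 (⟨0, hn⟩ : Fin n) (star e))) = _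
      rw [star_eq_conjTranspose, diagonal_conjTranspose]
      ext a b
      rw [mul_diagonal, diagonal_mul, single_apply]
      by_cases h1 : i = a
      · by_cases h2 : i = b
        · subst h1; subst h2
          rw [hi]
          simp only [and_self, if_true, Function.update_self, Pi.star_apply, mul_one]
          exact hd
        · simp [h2]
      · simp [h1]
    · exact D1_cj hi _ _
  refine ⟨⟨g * D1 (⟨0, hn⟩ : Fin n) (star e) hd, ?_⟩, fun i => ?_⟩
  · show (g.1 * (D1 _ (star e) hd).1).det = 1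
    rw [det_mul, D1_det, he1]
  · show cj (g * D1 _ (star e) hd) (E i) ∈ w
    rw [cj_mul, h2, ← hg]
    exact h1 g i

theorem acts_of_fix' (h : Zc n ζ c) (hn : 3 ≤ n) (hq : 3 ≤ q) (hK : Nat.card K = q ^ 2)
    (hs : ∀ x : K, star x = x ^ q) (hM : Mv K n)
    (ker : ∀ g : SU K n, ε g = 1 ↔ ∃ c : K, mt g = c • (1 : Matrix (Fin n) (Fin n) K))
    (x : G) (hx : ∀ g, ∃ g', x * ε g * x⁻¹ = ε g') {w : List (Ln K n)} (hw : w ∈ Fr K n)
    (hfix : ∀ P ∈ w, x * ε (sW ζ c [P]) = ε (sW ζ c [P]) * x) :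
    ∃ g σ, Acts ε x g σ := by
  obtain ⟨U, hU⟩ := exists_SU_frame (by omega) hw
  have hx' : ∀ g, ∃ g', (ε U)⁻¹ * x * ε U * ε g * ((ε U)⁻¹ * x * ε U)⁻¹ = ε g' := by
    intro g
    obtain ⟨g', hg'⟩ := hx (U * g * U⁻¹)
    refine ⟨U⁻¹ * g' * U, ?_⟩
    rw [map_mul, map_mul, ← hg', map_mul, map_mul, map_inv]
    group
  have hfix' : ∀ i, (ε U)⁻¹ * x * ε U * ε (sW ζ c [E i]) * ((ε U)⁻¹ * x * ε U)⁻¹ =
      ε (sW ζ c [E i]) := by
    intro i
    have h1 := hfix _ (hU i)
    rw [← sW_cj h, map_mul, map_mul, map_inv] at h1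
    have h2 : x * (ε U * ε (sW ζ c [E i]) * (ε U)⁻¹) * x⁻¹ = ε U * ε (sW ζ c [E i]) * (ε U)⁻¹ := by
      rw [h1, mul_assoc, mul_inv_cancel, mul_one]
    calc (ε U)⁻¹ * x * ε U * ε (sW ζ c [E i]) * ((ε U)⁻¹ * x * ε U)⁻¹
        = (ε U)⁻¹ * (x * (ε U * ε (sW ζ c [E i]) * (ε U)⁻¹) * x⁻¹) * ε U := by group
      _ = _ := by rw [h2]; group
  obtain ⟨u, σ, hσ, hact⟩ := acts_std h hn hq hK hs hM ker _ hx' hfix'
  have hUs : ((U.1.1).map σ) * star ((U.1.1).map σ) = 1 := by
    rw [← map_star_mat hσ, ← Matrix.map_mul, mem_unitaryGroup_iff.1 U.1.2]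
    exact Matrix.map_one _ (map_zero σ) (map_one σ)
  have hUs' : star ((U.1.1).map σ) * ((U.1.1).map σ) = 1 := by
    rw [← map_star_mat hσ, ← Matrix.map_mul, mem_unitaryGroup_iff'.1 U.1.2]
    exact Matrix.map_one _ (map_zero σ) (map_one σ)
  let V : GU K n := ⟨star ((U.1.1).map σ), by
    rw [mem_unitaryGroup_iff, star_star, hUs']⟩
  refine ⟨U.1 * u * V, σ, hσ, fun a a' ha => ?_⟩
  have h1 : mt (U⁻¹ * a' * U) = u.1 * (mt (U⁻¹ * a * U)).map σ * star u.1 := by
    have hmt : (mt (U⁻¹ * a * U)).map σ =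
        star (U.1.1.map σ) * (mt a).map σ * (U.1.1).map σ := by
      rw [mt_mul, mt_mul, mt_inv, Matrix.map_mul, Matrix.map_mul, map_star_mat hσ]
      rfl
    have hV : (U.1 * u * V).1 = U.1.1 * u.1 * star (U.1.1.map σ) := rfl
    have hsU : star (mt U) * mt U = 1 := mt_star_mul U
    rw [hmt, mt_mul, mt_mul, mt_inv, ha, hV, star_mul, star_mul, star_star]
    show star (mt U) * (mt U * u.1 * star (U.1.1.map σ) * (mt a).map σ *
      (U.1.1.map σ * (star u.1 * star (mt U)))) * mt U = _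
    calc _ = (star (mt U) * mt U) * u.1 * star (U.1.1.map σ) * (mt a).map σ *
          (U.1.1.map σ * star u.1 * (star (mt U) * mt U)) := by simp only [Matrix.mul_assoc]
      _ = _ := by
          rw [hsU]
          simp only [Matrix.mul_assoc, Matrix.one_mul, Matrix.mul_one]
  have h2 := hact _ _ h1
  rw [map_mul, map_mul, map_mul, map_mul, map_inv] at h2
  calc x * ε a * x⁻¹ = ε U * ((ε U)⁻¹ * x * ε U * ((ε U)⁻¹ * ε a * ε U) *
        ((ε U)⁻¹ * x * ε U)⁻¹) * (ε U)⁻¹ := by group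
    _ = ε a' := by rw [h2]; group

end main

end Vale.Agent.P240.R2.H651
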