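import Vale.Agent.P240.R2.H651.Grp2

/-!
Products of a reflection and the inverse of a reflection: unipotent if and only if the centres have
the angle `1`.
-/

set_option autoImplicit false
set_option linter.unusedSectionVars false

namespace Vale.Agent.P240.R2.H651

open Finset Matrix Vale.Agent.P240.R2.AS
open scoped Classical

universe u v

section nil

variable {K : Type u} [Field K] [StarRing K] {n : ℕ}

lemma ln_sandwich (P Q : Ln K n) : P.1 * Q.1 * P.1 = (P.1 * Q.1).trace • P.1 := by
  obtain ⟨x, hx, hP⟩ := P.2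
  obtain ⟨y, hy, hQ⟩ := Q.2
  have h1 : ∀ u v : Fin n → K, vecMulVec u (star u) * vecMulVec v (star v) =
      (star u ⬝ᵥ v) • vecMulVec u (star v) := by
    intro u v
    rw [vecMulVec_mul_vecMulVec, vecMulVec_smul]
  rw [hP, hQ, h1, Matrix.smul_mul, vecMulVec_mul_vecMulVec, trace_smul, trace_vecMulVec,
    vecMulVec_smul, smul_smul, smul_eq_mul, dotProduct_comm x (star y)]

/-- the product of two reflections -/
noncomputable def AA (a b : K) (P Q : Ln K n) : Matrix (Fin n) (Fin n) K :=
  (1 + a • P.1) * (1 + b • Q.1)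

lemma AA_sub (a b : K) (P Q : Ln K n) :
    AA a b P Q - 1 = a • P.1 + b • Q.1 + (a * b) • (P.1 * Q.1) := by
  rw [AA, Matrix.add_mul, Matrix.mul_add, Matrix.mul_add, Matrix.one_mul, Matrix.mul_one,
    Matrix.one_mul, smul_mul_smul_comm]
  abel

lemma trace_one_ln (P : Ln K n) : P.1.trace = 1 := by
  obtain ⟨x, hx, hP⟩ := P.2
  rw [hP, trace_vecMulVec, dotProduct_comm, hx]

lemma AA_trace {a b : K} (hab : a + b + a * b = 0) (P Q : Ln K n) :
    (AA a b P Q - 1).trace = a * b * ((P.1 * Q.1).trace - 1) := by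
  rw [AA_sub, trace_add, trace_add, trace_smul, trace_smul, trace_smul, trace_one_ln, trace_one_ln,
    smul_eq_mul, smul_eq_mul, smul_eq_mul]
  linear_combination hab

lemma AA_cube {a b : K} (hab : a + b + a * b = 0) {P Q : Ln K n} (h : (P.1 * Q.1).trace = 1) :
    (AA a b P Q - 1) ^ 3 = 0 := by
  have hPQP : P.1 * Q.1 * P.1 = P.1 := by rw [ln_sandwich, h, one_smul]
  have hQPQ : Q.1 * P.1 * Q.1 = Q.1 := by rw [ln_sandwich, trace_mul_comm, h, one_smul]
  have hP := ln_idem P
  have hQ := ln_idem Q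
  rw [AA_sub]
  generalize P.1 = p at *
  generalize Q.1 = r at *
  have h1 : p * (r * p) = p := by rw [← Matrix.mul_assoc, hPQP]
  have h2 : r * (p * r) = r := by rw [← Matrix.mul_assoc, hQPQ]
  have h3 : p * (p * r) = p * r := by rw [← Matrix.mul_assoc, hP]
  have h4 : r * (r * p) = r * p := by rw [← Matrix.mul_assoc, hQ]
  have hN2 : (a • p + b • r + (a * b) • (p * r)) * (a • p + b • r + (a * b) • (p * r)) =
      (a * b) • (p * r + r * p - p - r) := by
    have e1 : (a • p + b • r + (a * b) • (p * r)) * (a • p + b • r + (a * b) • (p * r)) =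
        (a * a + a * a * b) • p + (a * b + a * a * b + a * b * b + a * b * (a * b)) • (p * r) +
        (a * b) • (r * p) + (b * b + a * b * b) • r := by
      simp only [Matrix.add_mul, Matrix.mul_add, smul_mul_smul_comm, Matrix.mul_assoc, hP, hQ, h1,
        h2, h3]
      module
    rw [e1]
    have c1 : a * a + a * a * b = -(a * b) := by linear_combination a * hab
    have c2 : a * b + a * a * b + a * b * b + a * b * (a * b) = a * b := by
      linear_combination (a * b) * hab
    have c3 : b * b + a * b * b = -(a * b) := by linear_combination b * hab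
    rw [c1, c2, c3]
    module
  have hM : (p * r + r * p - p - r) * (a • p + b • r + (a * b) • (p * r)) = 0 := by
    simp only [Matrix.add_mul, Matrix.sub_mul, Matrix.mul_add, Matrix.mul_smul, Matrix.mul_assoc,
      hP, hQ, h1, h2, h3]
    module
  rw [pow_succ, pow_two, hN2, Matrix.smul_mul, hM, smul_zero]

lemma AA_pow {a b : K} (hn : 0 < n) (r : ℕ) [Fact r.Prime] [CharP K r]
    (hab : a + b + a * b = 0) (ha : a ≠ 0) (P Q : Ln K n) :
    AA a b P Q ^ (r ^ 2) = 1 ↔ (P.1 * Q.1).trace = 1 := by
  have : Nonempty (Fin n) := ⟨⟨0, hn⟩⟩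
  have hb : b ≠ 0 := by
    rintro rfl
    apply ha
    linear_combination hab
  have hr : 3 ≤ r ^ 2 := by
    have := (Fact.out : r.Prime).two_le
    nlinarith
  have hexp : (AA a b P Q - 1) ^ (r ^ 2) = AA a b P Q ^ (r ^ 2) - 1 := by
    rw [sub_pow_char_pow_of_commute r 2 (Commute.one_right (AA a b P Q)), one_pow]
  constructor
  · intro h
    have h1 : (AA a b P Q - 1) ^ (r ^ 2) = 0 := by rw [hexp, h, sub_self]
    have h2 : IsNilpotent (AA a b P Q - 1) := ⟨_, h1⟩
    have h3 := (Matrix.isNilpotent_trace_of_isNilpotent h2).eq_zero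
    rw [AA_trace hab] at h3
    exact sub_eq_zero.1 ((mul_eq_zero.1 h3).resolve_left (mul_ne_zero ha hb))
  · intro h
    have h1 : (AA a b P Q - 1) ^ (r ^ 2) = 0 := by
      obtain ⟨m, hm⟩ := Nat.exists_eq_add_of_le hr
      rw [hm, pow_add, AA_cube hab h, zero_mul]
    rw [hexp] at h1
    exact sub_eq_zero.1 h1

end nil

end Vale.Agent.P240.R2.H651
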