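import Mathlib

/-!
AUT-SU, algebraic part (Uhlhorn's theorem over a finite field with involution): a map on vectors
that preserves orthogonality of nondegenerate vectors and the coordinate lines is semilinear
diagonal on nondegenerate lines.
-/

set_option autoImplicit false
set_option linter.unusedSectionVars false

namespace Vale.Agent.P240.R2.H651

open Finset
open scoped Classical

universe u v

section basics

variable {K : Type u} [Field K] [StarRing K] {ι : Type v} [Fintype ι]

/-- the hermitian form -/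
def B (v w : ι → K) : K := ∑ k, star (v k) * w k

/-- the norm -/
def N (x : K) : K := x * star x

lemma N_mul (x y : K) : N (x * y) = N x * N y := by
  simp only [N, star_mul]; ring

lemma N_one : N (1 : K) = 1 := by simp [N]

lemma N_zero : N (0 : K) = 0 := by simp [N]

lemma N_eq_zero {x : K} : N x = 0 ↔ x = 0 := by
  simp [N]

lemma N_inv (x : K) : N x⁻¹ = (N x)⁻¹ := by
  simp only [N, star_inv₀, mul_inv]

lemma N_div (x y : K) : N (x / y) = N x / N y := by
  rw [div_eq_mul_inv, N_mul, N_inv, div_eq_mul_inv]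

lemma N_star (x : K) : N (star x) = N x := by
  simp only [N, star_star]; ring

lemma N_neg (x : K) : N (-x) = N x := by
  simp only [N, star_neg]; ring

lemma star_N (x : K) : star (N x) = N x := by
  simp only [N, star_mul, star_star]

lemma B_star (v w : ι → K) : star (B v w) = B w v := by
  simp only [B, star_sum, star_mul, star_star]

lemma B_supp2 {i j : ι} (hij : i ≠ j) {w : ι → K} (hw : ∀ l, l ≠ i → l ≠ j → w l = 0)
    (v : ι → K) : B w v = star (w i) * v i + star (w j) * v j := by
  rw [B, ← Finset.sum_subset (Finset.subset_univ {i, j}), Finset.sum_pair hij]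
  intro l _ hl
  simp only [Finset.mem_insert, Finset.mem_singleton, not_or] at hl
  rw [hw l hl.1 hl.2, star_zero, zero_mul]

lemma B_supp3 {i j k : ι} (hij : i ≠ j) (hik : i ≠ k) (hjk : j ≠ k) {w : ι → K}
    (hw : ∀ l, l ≠ i → l ≠ j → l ≠ k → w l = 0)
    (v : ι → K) : B w v = star (w i) * v i + star (w j) * v j + star (w k) * v k := by
  rw [B, ← Finset.sum_subset (Finset.subset_univ {i, j, k}), Finset.sum_insert,
    Finset.sum_pair hjk, add_assoc]
  · simp [hij, hik]
  · intro l _ hl
    simp only [Finset.mem_insert, Finset.mem_singleton, not_or] at hl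
    rw [hw l hl.1 hl.2.1 hl.2.2, star_zero, zero_mul]

/-- the vector with entries `x, y, z` at `i, j, k` -/
noncomputable def v3 (i j k : ι) (x y z : K) : ι → K :=
  fun l => if l = i then x else if l = j then y else if l = k then z else 0

lemma v3_i {i j k : ι} (x y z : K) : v3 i j k x y z i = x := by simp [v3]

lemma v3_j {i j k : ι} (hij : i ≠ j) (x y z : K) : v3 i j k x y z j = y := by
  simp [v3, hij.symm]

lemma v3_k {i j k : ι} (hik : i ≠ k) (hjk : j ≠ k) (x y z : K) : v3 i j k x y z k = z := by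
  simp [v3, hik.symm, hjk.symm]

lemma v3_l {i j k l : ι} (h1 : l ≠ i) (h2 : l ≠ j) (h3 : l ≠ k) (x y z : K) :
    v3 i j k x y z l = 0 := by
  simp [v3, h1, h2, h3]

/-- the vector with entries `1, t` at `i, j` -/
noncomputable def v2 (i j : ι) (t : K) : ι → K :=
  fun l => if l = i then 1 else if l = j then t else 0

lemma v2_i {i j : ι} (t : K) : v2 i j t i = 1 := by simp [v2]

lemma v2_j {i j : ι} (hij : i ≠ j) (t : K) : v2 i j t j = t := by simp [v2, hij.symm]

lemma v2_l {i j l : ι} (h1 : l ≠ i) (h2 : l ≠ j) (t : K) : v2 i j t l = 0 := by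
  simp [v2, h1, h2]

lemma B_v2 {i j : ι} (hij : i ≠ j) (t : K) (v : ι → K) :
    B (v2 i j t) v = v i + star t * v j := by
  rw [B_supp2 hij (fun l h1 h2 => v2_l h1 h2 t), v2_i, v2_j hij, star_one, one_mul]

lemma B_v2_self {i j : ι} (hij : i ≠ j) (t : K) : B (v2 i j t) (v2 i j t) = 1 + N t := by
  rw [B_v2 hij, v2_i, v2_j hij, N, mul_comm]

lemma B_v3 {i j k : ι} (hij : i ≠ j) (hik : i ≠ k) (hjk : j ≠ k) (x y z : K) (v : ι → K) :
    B (v3 i j k x y z) v = star x * v i + star y * v j + star z * v k := by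
  rw [B_supp3 hij hik hjk (fun l h1 h2 h3 => v3_l h1 h2 h3 x y z), v3_i, v3_j hij, v3_k hik hjk]

lemma B_v3_self {i j k : ι} (hij : i ≠ j) (hik : i ≠ k) (hjk : j ≠ k) (x y z : K) :
    B (v3 i j k x y z) (v3 i j k x y z) = N x + N y + N z := by
  rw [B_v3 hij hik hjk, v3_i, v3_j hij, v3_k hik hjk, N, N, N]; ring

/-- orthogonality preserving maps -/
structure Orthy (F : (ι → K) → (ι → K)) : Prop where
  nd : ∀ v, B v v ≠ 0 → B (F v) (F v) ≠ 0
  orth : ∀ v w, B v v ≠ 0 → B w w ≠ 0 → (B v w = 0 ↔ B (F v) (F w) = 0)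
  single : ∀ i j, j ≠ i → F (Pi.single i 1) j = 0

variable {F : (ι → K) → (ι → K)}

lemma B_single (i : ι) (v : ι → K) : B (Pi.single i 1) v = v i := by
  rw [B, Finset.sum_eq_single i]
  · simp
  · intro b _ hb
    simp [hb]
  · simp

lemma Orthy.supp (h : Orthy F) {v : ι → K} (hv : B v v ≠ 0) (i : ι) : F v i = 0 ↔ v i = 0 := by
  have hs : B (Pi.single i (1 : K)) (Pi.single i 1) ≠ 0 := by
    rw [B_single]; simp
  have h1 := h.orth _ _ hs hv
  rw [B_single] at h1
  have h2 : ∀ w : ι → K, B (F (Pi.single i 1)) w = star (F (Pi.single i 1) i) * w i := by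
    intro w
    rw [B, Finset.sum_eq_single i]
    · intro b _ hb
      rw [h.single i b hb, star_zero, zero_mul]
    · simp
  have h3 : F (Pi.single i 1) i ≠ 0 := by
    intro h0
    have := h.nd _ hs
    rw [h2, h0, star_zero, zero_mul] at this
    exact this rfl
  rw [h1, h2]
  constructor
  · intro h0; rw [h0, mul_zero]
  · intro h0
    rcases mul_eq_zero.1 h0 with h4 | h4
    · exact absurd (star_eq_zero.1 h4) h3
    · exact h4

/-- `F [e_i + t e_j] = [e_i + G i j t e_j]` -/
noncomputable def G (F : (ι → K) → (ι → K)) (i j : ι) (t : K) : K := F (v2 i j t) j / F (v2 i j t) i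

lemma Orthy.v2i (h : Orthy F) {i j : ι} (hij : i ≠ j) {t : K} (ht : 1 + N t ≠ 0) :
    F (v2 i j t) i ≠ 0 := by
  rw [Ne, h.supp (by rw [B_v2_self hij]; exact ht), v2_i]
  exact one_ne_zero

lemma Orthy.G_ne (h : Orthy F) {i j : ι} (hij : i ≠ j) {t : K} (ht : 1 + N t ≠ 0) (ht0 : t ≠ 0) :
    G F i j t ≠ 0 := by
  refine div_ne_zero ?_ (h.v2i hij ht)
  rw [Ne, h.supp (by rw [B_v2_self hij]; exact ht), v2_j hij]
  exact ht0

lemma Orthy.B_Fv2 (h : Orthy F) {i j : ι} (hij : i ≠ j) {t : K} (ht : 1 + N t ≠ 0) (w : ι → K) :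
    B (F (v2 i j t)) w = star (F (v2 i j t) i) * (w i + star (G F i j t) * w j) := by
  have h1 : B (v2 i j t) (v2 i j t) ≠ 0 := by rw [B_v2_self hij]; exact ht
  rw [B_supp2 hij (fun l h2 h3 => (h.supp h1 l).2 (v2_l h2 h3 t))]
  have h4 := h.v2i hij ht
  have h5 : star (F (v2 i j t) i) ≠ 0 := star_ne_zero.2 h4
  rw [G, star_div₀]
  field_simp

/-- testing with vectors of support two -/
lemma Orthy.test2 (h : Orthy F) {i j : ι} (hij : i ≠ j) {t : K} (ht : 1 + N t ≠ 0) {v : ι → K}
    (hv : B v v ≠ 0) : v i + star t * v j = 0 ↔ F v i + star (G F i j t) * F v j = 0 := by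
  have h1 : B (v2 i j t) (v2 i j t) ≠ 0 := by rw [B_v2_self hij]; exact ht
  have h2 := h.orth _ _ h1 hv
  rw [B_v2 hij, h.B_Fv2 hij ht] at h2
  rw [h2, mul_eq_zero, or_iff_right (star_ne_zero.2 (h.v2i hij ht))]

/-- ratios of coordinates -/
lemma Orthy.ratio (h : Orthy F) {i j : ι} (hij : i ≠ j) {v : ι → K} (hv : B v v ≠ 0)
    (hi : v i ≠ 0) (hj : v j ≠ 0) (hN : N (v i) + N (v j) ≠ 0) :
    F v j = G F i j (v j / v i) * F v i := by
  set t : K := star (-(v i / v j)) with ht
  have hst : star t = -(v i / v j) := by rw [ht, star_star]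
  have hNt : 1 + N t ≠ 0 := by
    rw [ht, N_star, N_neg, N_div]
    have : N (v j) ≠ 0 := fun h0 => hj (N_eq_zero.1 h0)
    intro h0
    apply hN
    field_simp at h0
    rw [mul_zero] at h0
    rw [add_comm]; exact h0
  have h1 : v i + star t * v j = 0 := by
    rw [hst]; field_simp; ring
  have h2 := (h.test2 hij hNt hv).1 h1
  -- the vector of support two
  set s : K := v j / v i with hs
  have hNs : 1 + N s ≠ 0 := by
    rw [hs, N_div]
    have : N (v i) ≠ 0 := fun h0 => hi (N_eq_zero.1 h0)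
    intro h0
    apply hN
    field_simp at h0
    rw [mul_zero] at h0
    exact h0
  have hvs : B (v2 i j s) (v2 i j s) ≠ 0 := by rw [B_v2_self hij]; exact hNs
  have h3 : v2 i j s i + star t * v2 i j s j = 0 := by
    rw [v2_i, v2_j hij, hst, hs]; field_simp; ring
  have h4 := (h.test2 hij hNt hvs).1 h3
  have h5 := h.v2i hij hNs
  have h6 : G F i j s * F (v2 i j s) i = F (v2 i j s) j := by
    rw [G]; field_simp
  have h7 : star (G F i j t) ≠ 0 := by
    apply star_ne_zero.2
    apply h.G_ne hij hNt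
    rw [ht]
    exact star_ne_zero.2 (neg_ne_zero.2 (div_ne_zero hi hj))
  rw [← h6] at h4
  have h8 : 1 + star (G F i j t) * G F i j s = 0 := by
    have : F (v2 i j s) i * (1 + star (G F i j t) * G F i j s) = 0 := by linear_combination h4
    exact (mul_eq_zero.1 this).resolve_left h5
  have h9 : star (G F i j t) * (F v j - G F i j s * F v i) = 0 := by
    linear_combination h2 - F v i * h8
  have := (mul_eq_zero.1 h9).resolve_left h7
  linear_combination this

/-- inversion -/
lemma Orthy.G_inv (h : Orthy F) {i j : ι} (hij : i ≠ j) {t : K} (ht : 1 + N t ≠ 0) (ht0 : t ≠ 0) :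
    G F j i t * G F i j t⁻¹ = 1 := by
  have hv : B (v2 j i t) (v2 j i t) ≠ 0 := by rw [B_v2_self hij.symm]; exact ht
  have h1 := h.ratio hij hv (by rw [v2_j hij.symm]; exact ht0) (by rw [v2_i]; exact one_ne_zero)
    (by rw [v2_j hij.symm, v2_i, N_one, add_comm]; exact ht)
  rw [v2_i, v2_j hij.symm, one_div] at h1
  have h2 := h.v2i hij.symm ht
  have h3 : G F j i t * F (v2 j i t) j = F (v2 j i t) i := by rw [G]; field_simp
  rw [← h3] at h1
  have h4 : F (v2 j i t) j * (G F j i t * G F i j t⁻¹ - 1) = 0 := by linear_combination -h1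
  have := (mul_eq_zero.1 h4).resolve_left h2
  linear_combination this

/-- the cocycle relation -/
lemma Orthy.cocycle (h : Orthy F) {i j k : ι} (hij : i ≠ j) (hik : i ≠ k) (hjk : j ≠ k) {a b : K}
    (ha0 : a ≠ 0) (hb0 : b ≠ 0) (ha : 1 + N a ≠ 0) (hb : 1 + N b ≠ 0) (hab : N a + N b ≠ 0)
    (hs : 1 + N a + N b ≠ 0) : G F i k b = G F i j a * G F j k (b / a) := by
  set v : ι → K := v3 i j k 1 a b with hv
  have e1 : v i = 1 := v3_i _ _ _
  have e2 : v j = a := v3_j hij _ _ _
  have e3 : v k = b := v3_k hik hjk _ _ _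
  have hB : B v v ≠ 0 := by rw [hv, B_v3_self hij hik hjk, N_one]; exact hs
  have r1 := h.ratio hij hB (by rw [e1]; exact one_ne_zero) (by rw [e2]; exact ha0)
    (by rw [e1, e2, N_one]; exact ha)
  have r2 := h.ratio hik hB (by rw [e1]; exact one_ne_zero) (by rw [e3]; exact hb0)
    (by rw [e1, e3, N_one]; exact hb)
  have r3 := h.ratio hjk hB (by rw [e2]; exact ha0) (by rw [e3]; exact hb0)
    (by rw [e2, e3]; exact hab)
  rw [e1, e2, div_one] at r1
  rw [e1, e3, div_one] at r2
  rw [e2, e3] at r3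
  have hF : F v i ≠ 0 := by
    rw [Ne, h.supp hB, e1]; exact one_ne_zero
  have : F v i * (G F i k b - G F i j a * G F j k (b / a)) = 0 := by
    linear_combination r3 - r2 + G F j k (b / a) * r1
  have := (mul_eq_zero.1 this).resolve_left hF
  linear_combination this

/-- the relation with `star` -/
lemma Orthy.G_star (h : Orthy F) {i j : ι} (hij : i ≠ j) {t : K} (ht : 1 + N t ≠ 0) (ht0 : t ≠ 0) :
    1 + star (G F i j (-(star t)⁻¹)) * G F i j t = 0 := by
  have hs0 : star t ≠ 0 := star_ne_zero.2 ht0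
  have hNt : N t ≠ 0 := fun h0 => ht0 (N_eq_zero.1 h0)
  have h1 : 1 + N (-(star t)⁻¹) ≠ 0 := by
    rw [N_neg, N_inv, N_star]
    intro h0
    apply ht
    field_simp at h0
    rw [mul_zero] at h0
    rw [add_comm]; exact h0
  have hv : B (v2 i j t) (v2 i j t) ≠ 0 := by rw [B_v2_self hij]; exact ht
  have h2 := (h.test2 hij h1 hv).1 (by
    rw [v2_i, v2_j hij, star_neg, star_inv₀, star_star]
    field_simp; ring)
  have h3 := h.v2i hij ht
  have h4 : G F i j t * F (v2 i j t) i = F (v2 i j t) j := by rw [G]; field_simp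
  rw [← h4] at h2
  have : F (v2 i j t) i * (1 + star (G F i j (-(star t)⁻¹)) * G F i j t) = 0 := by
    linear_combination h2
  exact (mul_eq_zero.1 this).resolve_left h3

end basics

end Vale.Agent.P240.R2.H651
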